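import Crest.Agent.R213.E.Poly

/-! The approximate solution on a piece.  `u = t hd/hn - μ`, `du/dt = hd/hn`,
`t (hd/hn) = μ + u`, so `t ∂_t (pv p u) = pv (ith μ p) u`.  In `appOK`: `T = (T0 + x₁T1 + x₂T2)(u) /
(hn One)`, `β' = aff B0 B1 B2 x`, `1 - t g = (F0 + x₁F1 + x₂F2)(u) / (hd One)`; `One² / 2 = 2^219`;
`t ∈ [y 0, y n]` iff `|u| ≤ 1`; `t D/hn - k0 - n = n u`; `pv_split` for `rng`. -/

set_option autoImplicit false
set_option linter.unusedVariables false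
open Set Filter Topology

noncomputable section
namespace Crest.Agent.R213.E

theorem appa_pv (a b : ℝ) (μ : ℤ) (m : ℕ) (p : List ℤ) (t : ℝ) :
    HasDerivAt (fun t => t ^ (m + 1) * pv p (t * a / b - μ))
      (t ^ m * pv (iaxpy ((m : ℤ) + 1) p (ith μ p)) (t * a / b - μ)) t := by
  have h1 : HasDerivAt (fun t : ℝ => t * a / b - μ) (1 * a / b) t :=
    (((hasDerivAt_id' t).mul_const a).div_const b).sub_const _
  have h2 := (hasDerivAt_pv p (t * a / b - μ)).comp t h1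
  refine ((hasDerivAt_pow (m + 1) t).mul h2).congr_deriv ?_
  rw [pv_iaxpy, pv_ith]
  simp only [Function.comp_apply, Nat.add_sub_cancel]
  push_cast
  ring

theorem appa_gen (P : Piece) (m : ℕ) (f f' : List ℤ → List ℤ)
    (h : ∀ g, f' g = iaxpy ((m : ℤ) + 1) (f g) (ith P.mu (f g))) (x : ℝ × ℝ) (t : ℝ) :
    HasDerivAt (fun t => t ^ (m + 1) * app P f x t) (t ^ m * app P f' x t) t := by
  have h0 := appa_pv P.hd P.hn P.mu m (f P.g0) t
  have h1 := appa_pv P.hd P.hn P.mu m (f P.g1) t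
  have h2 := appa_pv P.hd P.hn P.mu m (f P.g2) t
  have h3 := ((h0.fun_add (h1.const_mul x.1)).fun_add (h2.const_mul x.2)).div_const (One : ℝ)
  refine (h3.congr_of_eventuallyEq (Eventually.of_forall fun t => ?_)).congr_deriv ?_
  · simp only [app]; ring
  · rw [app, h, h, h]; ring

theorem app_d1 (P : Piece) (hn : 0 < P.hn) (hd : 0 < P.hd) (x : ℝ × ℝ) (t : ℝ) :
    HasDerivAt (fun t => t ^ 11 * app P id x t) (t ^ 10 * app P (gaP P.mu) x t) t := appa_gen P 10 id (gaP P.mu) (fun g => by rw [gaP]; rfl) x t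

theorem app_d2 (P : Piece) (hn : 0 < P.hn) (hd : 0 < P.hd) (x : ℝ × ℝ) (t : ℝ) :
    HasDerivAt (fun t => t ^ 10 * app P (gaP P.mu) x t) (t ^ 9 * app P (sgP P.mu) x t) t := appa_gen P 9 (gaP P.mu) (sgP P.mu) (fun g => by rw [sgP]; rfl) x t

theorem y_zero (Q : Par) (P : Piece) (r0 : ℤ) (hd : 0 < P.hd) (h : 0 < P.n) :
    (mkPC Q P r0).y 0 = P.hn * P.m1 / P.hd := by
  have hd' : (P.hd : ℝ) ≠ 0 := by exact_mod_cast hd.ne'
  have h' : (P.n : ℝ) ≠ 0 := by exact_mod_cast h.ne'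
  simp only [PC.y, mkPC]
  push_cast
  field_simp
  ring

theorem y_last (Q : Par) (P : Piece) (r0 : ℤ) (hd : 0 < P.hd) (h : 0 < P.n) :
    (mkPC Q P r0).y P.n = P.hn * (P.m1 + 2) / P.hd := by
  have hd' : (P.hd : ℝ) ≠ 0 := by exact_mod_cast hd.ne'
  have h' : (P.n : ℝ) ≠ 0 := by exact_mod_cast h.ne'
  simp only [PC.y, mkPC]
  push_cast
  field_simp

theorem app_left (P : Piece) (hn : 0 < P.hn) (hd : 0 < P.hd) (f : List ℤ → List ℤ) (x : ℝ × ℝ) :
    app P f x (P.hn * P.m1 / P.hd) = aff (atm (f P.g0)) (atm (f P.g1)) (atm (f P.g2)) x := by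
  have hn' : (P.hn : ℝ) ≠ 0 := by exact_mod_cast hn.ne'
  have hd' : (P.hd : ℝ) ≠ 0 := by exact_mod_cast hd.ne'
  have e : (P.hn : ℝ) * P.m1 / P.hd * P.hd / P.hn - P.mu = -1 := by
    rw [Piece.mu]
    push_cast
    field_simp
    ring
  rw [app, aff, e, pv_neg_one, pv_neg_one, pv_neg_one]

theorem app_right (P : Piece) (hn : 0 < P.hn) (hd : 0 < P.hd) (f : List ℤ → List ℤ) (x : ℝ × ℝ) :
    app P f x (P.hn * (P.m1 + 2) / P.hd) = aff (at1 (f P.g0)) (at1 (f P.g1)) (at1 (f P.g2)) x := by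
  have hn' : (P.hn : ℝ) ≠ 0 := by exact_mod_cast hn.ne'
  have hd' : (P.hd : ℝ) ≠ 0 := by exact_mod_cast hd.ne'
  have e : (P.hn : ℝ) * (P.m1 + 2) / P.hd * P.hd / P.hn - P.mu = 1 := by
    rw [Piece.mu]
    push_cast
    field_simp
    ring
  rw [app, aff, e, pv_one, pv_one, pv_one]

theorem appb_lin {x₁ x₂ a b A B : ℝ} (h1 : |x₁| ≤ 1) (h2 : |x₂| ≤ 1) (ha : |a| ≤ A) (hb : |b| ≤ B) :
    |x₁ * a + x₂ * b| ≤ A + B := by
  refine (abs_add_le _ _).trans (add_le_add ?_ ?_)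
  · rw [abs_mul]
    exact (mul_le_of_le_one_left (abs_nonneg _) h1).trans ha
  · rw [abs_mul]
    exact (mul_le_of_le_one_left (abs_nonneg _) h2).trans hb

theorem appb_tP (P : Piece) (B : ℤ) (g : List ℤ) (u : ℝ) :
    pv (tP P B g) u = P.hd * pv (ider (sgP P.mu g)) u - P.hn * B := by
  unfold tP
  rw [pv_iaxpy, pv_cons, pv_nil]
  push_cast
  ring

theorem appb_fP (P : Piece) (c : ℤ) (g : List ℤ) (u : ℝ) :
    pv (fP P c g) u = c - P.hn * (P.mu + u) * pv g u := by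
  unfold fP
  rw [pv_iaxpy, pv_cons, pv_ismul]
  push_cast
  ring

theorem appb_res (Q : Par) (P : Piece) {x : ℝ × ℝ} (h1 : |x.1| ≤ 1) (h2 : |x.2| ≤ 1) {u : ℝ}
    (hu : |u| ≤ 1) :
    |(pv (tP P Q.B0 P.g0) u + x.1 * pv (tP P Q.B1 P.g1) u + x.2 * pv (tP P Q.B2 P.g2) u) *
      (pv (fP P (P.hd * One) P.g0) u + x.1 * pv (fP P 0 P.g1) u + x.2 * pv (fP P 0 P.g2) u) +
      P.hn * P.hd * 2 ^ 219| ≤ (resN Q P : ℝ) := by
  have a0 := abs_pv_le (iadd (imul (tP P Q.B0 P.g0) (fP P (P.hd * One) P.g0))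
    [P.hn * P.hd * 2 ^ 219]) hu
  have a1 := abs_pv_le (iadd (imul (tP P Q.B0 P.g0) (fP P 0 P.g1))
    (imul (tP P Q.B1 P.g1) (fP P (P.hd * One) P.g0))) hu
  have a2 := abs_pv_le (iadd (imul (tP P Q.B0 P.g0) (fP P 0 P.g2))
    (imul (tP P Q.B2 P.g2) (fP P (P.hd * One) P.g0))) hu
  have a3 := appb_lin h1 h2 (abs_pv_le (tP P Q.B1 P.g1) hu) (abs_pv_le (tP P Q.B2 P.g2) hu)
  have a4 := appb_lin h1 h2 (abs_pv_le (fP P 0 P.g1) hu) (abs_pv_le (fP P 0 P.g2) hu)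
  have a5 := appb_lin h1 h2 a1 a2
  have a6 := mul_le_mul a3 a4 (abs_nonneg _) ((abs_nonneg _).trans a3)
  rw [← abs_mul] at a6
  have a7 := (abs_add_le _ _).trans (add_le_add ((abs_add_le _ _).trans (add_le_add a0 a5)) a6)
  simp only [pv_iadd, pv_imul, pv_cons, pv_nil, Int.cast_mul, Int.cast_natCast, Int.cast_pow,
    Int.cast_ofNat] at a7
  unfold resN
  simp only [Int.cast_add, Int.cast_mul]
  refine le_of_eq_of_le ?_ (a7.trans_eq ?_)
  · congr 1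
    ring
  · ring

theorem app_d3 (Q : Par) (P : Piece) {r0 : ℤ} (hn : 0 < P.hn) (hd : 0 < P.hd)
    (hr : resN Q P ≤ r0 * (P.hn * P.hd * One)) {x : ℝ × ℝ} (h1 : |x.1| ≤ 1) (h2 : |x.2| ≤ 1)
    {t : ℝ} (ht : |t * P.hd / P.hn - P.mu| ≤ 1) :
    ∃ T : ℝ, HasDerivAt (app P (sgP P.mu) x) (T + aff Q.B0 Q.B1 Q.B2 x) t ∧
      |T * (1 - t * app P id x t) + 1 / 2| ≤ r0 / (One : ℝ) := by
  have hn' : (0 : ℝ) < P.hn := by exact_mod_cast hn
  have hd' : (0 : ℝ) < P.hd := by exact_mod_cast hd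
  have hO := One_pos
  have hu : HasDerivAt (fun t : ℝ => t * P.hd / P.hn - P.mu) (1 * P.hd / P.hn) t :=
    (((hasDerivAt_id' t).mul_const (P.hd : ℝ)).div_const (P.hn : ℝ)).sub_const (P.mu : ℝ)
  have hp : ∀ p : List ℤ, HasDerivAt (fun t : ℝ => pv p (t * P.hd / P.hn - P.mu))
      (pv (ider p) (t * P.hd / P.hn - P.mu) * (1 * P.hd / P.hn)) t := fun p =>
    (hasDerivAt_pv p _).comp t hu
  have hD := (((hp (sgP P.mu P.g0)).add ((hp (sgP P.mu P.g1)).const_mul x.1)).add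
    ((hp (sgP P.mu P.g2)).const_mul x.2)).div_const (One : ℝ)
  have hres := appb_res Q P h1 h2 ht
  have ht' : t = P.hn * (P.mu + (t * P.hd / P.hn - P.mu)) / P.hd := by
    field_simp
    ring
  have e1 : 1 - t * app P id x t = (pv (fP P (P.hd * One) P.g0) (t * P.hd / P.hn - P.mu) +
      x.1 * pv (fP P 0 P.g1) (t * P.hd / P.hn - P.mu) +
      x.2 * pv (fP P 0 P.g2) (t * P.hd / P.hn - P.mu)) / (P.hd * One) := by
    unfold app
    simp only [appb_fP, id]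
    generalize t * P.hd / P.hn - P.mu = u at ht'
    rw [ht']
    push_cast
    field_simp
    ring
  refine ⟨(pv (tP P Q.B0 P.g0) (t * P.hd / P.hn - P.mu) +
      x.1 * pv (tP P Q.B1 P.g1) (t * P.hd / P.hn - P.mu) +
      x.2 * pv (tP P Q.B2 P.g2) (t * P.hd / P.hn - P.mu)) / (P.hn * One), ?_, ?_⟩
  · refine hD.congr_deriv ?_
    simp only [appb_tP, aff]
    generalize t * P.hd / P.hn - P.mu = u
    field_simp
    ring
  · rw [e1]
    generalize (pv (tP P Q.B0 P.g0) (t * P.hd / P.hn - P.mu) +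
      x.1 * pv (tP P Q.B1 P.g1) (t * P.hd / P.hn - P.mu) +
      x.2 * pv (tP P Q.B2 P.g2) (t * P.hd / P.hn - P.mu)) = A at hres
    generalize (pv (fP P (P.hd * One) P.g0) (t * P.hd / P.hn - P.mu) +
      x.1 * pv (fP P 0 P.g1) (t * P.hd / P.hn - P.mu) +
      x.2 * pv (fP P 0 P.g2) (t * P.hd / P.hn - P.mu)) = B at hres
    have e2 : (2 : ℝ) ^ 219 = (One : ℝ) * One / 2 := by norm_num [One]
    have e3 : A / (P.hn * One) * (B / (P.hd * One)) + 1 / 2 =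
        (A * B + P.hn * P.hd * 2 ^ 219) / (P.hn * P.hd * One * One) := by
      rw [e2]
      field_simp
    have hr' : (resN Q P : ℝ) ≤ r0 * (P.hn * P.hd * One) := by exact_mod_cast hr
    rw [e3, abs_div, abs_of_pos (by positivity : (0 : ℝ) < P.hn * P.hd * One * One),
      div_le_div_iff₀ (by positivity) hO]
    have := mul_le_mul_of_nonneg_right (hres.trans hr') hO.le
    linarith

theorem appc_fP (P : Piece) (c : ℤ) (g : List ℤ) (u : ℝ) :
    pv (fP P c g) u = c - P.hn * (P.mu + u) * pv g u := by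
  rw [fP, pv_iaxpy, pv_cons, pv_ismul]
  push_cast
  ring

theorem appc_mul {x a : ℝ} {b : ℤ} (hx : |x| ≤ 1) (ha : |a| ≤ b) : |x * a| ≤ b := by
  rw [abs_mul]
  exact (mul_le_of_le_one_left (abs_nonneg _) hx).trans ha

theorem appOK (Q : Par) (P : Piece) {r0 : ℤ} (hn : 0 < P.hn) (hd : 0 < P.hd) (h : 0 < P.n)
    (hr : resN Q P ≤ r0 * (P.hn * P.hd * One)) {x : ℝ × ℝ} (h1 : |x.1| ≤ 1) (h2 : |x.2| ≤ 1)
    {β : ℝ} (hβ : |β - aff Q.B0 Q.B1 Q.B2 x| ≤ Q.tau / (One : ℝ)) :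
    AppOK (mkPC Q P r0) β (app P id x) (app P (gaP P.mu) x) (app P (sgP P.mu) x) := by
  have hn' : (0 : ℝ) < P.hn := by exact_mod_cast hn
  have hd' : (0 : ℝ) < P.hd := by exact_mod_cast hd
  have h' : (0 : ℝ) < P.n := by exact_mod_cast h
  have hO := One_pos
  have hu : ∀ t ∈ Icc ((mkPC Q P r0).y 0) ((mkPC Q P r0).y (mkPC Q P r0).n), |t * P.hd / P.hn - P.mu| ≤ 1 := by
    intro t ht
    have e1 : P.hn * (P.m1 : ℝ) / P.hd ≤ t := y_zero Q P r0 hd h ▸ ht.1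
    have e2 : t ≤ P.hn * ((P.m1 : ℝ) + 2) / P.hd := y_last Q P r0 hd h ▸ ht.2
    rw [div_le_iff₀ hd', mul_comm, ← le_div_iff₀ hn'] at e1
    rw [le_div_iff₀ hd', mul_comm (P.hn : ℝ), ← div_le_iff₀ hn'] at e2
    rw [Piece.mu]
    push_cast
    exact abs_le.2 ⟨by linarith, by linarith⟩
  refine ⟨hn, Nat.mul_pos hd h, app_d1 P hn hd x, app_d2 P hn hd x, fun t ht => ?_, fun t ht => ?_⟩
  · obtain ⟨T, hT1, hT2⟩ := app_d3 Q P hn hd hr h1 h2 (hu t ht)
    exact ⟨T, _, hT1, hβ, hT2⟩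
  · have hu' := hu t ht
    set u : ℝ := t * P.hd / P.hn - P.mu with hud
    have ht' : t = P.hn * (P.mu + u) / P.hd := by
      rw [hud]
      field_simp
      ring
    have e0 := pv_split (fP P (P.hd * One) P.g0) u
    have b0 := appc_mul (x := u ^ 2) (by rw [abs_pow]; exact pow_le_one₀ (abs_nonneg _) hu')
      (abs_pv_le ((fP P (P.hd * One) P.g0).drop 2) hu')
    have b1 := appc_mul h1 (abs_pv_le (fP P 0 P.g1) hu')
    have b2 := appc_mul h2 (abs_pv_le (fP P 0 P.g2) hu')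
    have e3 : t * ((P.hd * P.n : ℕ) : ℝ) / P.hn - ((P.n * P.m1 : ℕ) : ℝ) - P.n = P.n * u := by
      rw [hud, Piece.mu]
      push_cast
      ring
    have e4 : 1 - t * app P id x t = (pv (fP P (P.hd * One) P.g0) u + x.1 * pv (fP P 0 P.g1) u +
        x.2 * pv (fP P 0 P.g2) u) / (P.hd * One) := by
      simp only [app, id, ← hud, appc_fP]
      rw [ht']
      push_cast
      field_simp
      ring
    show |1 - t * app P id x t - (P.n * (((fP P (P.hd * One) P.g0).getD 0 0 : ℤ) : ℝ) +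
      (((fP P (P.hd * One) P.g0).getD 1 0 : ℤ) : ℝ) *
        (t * ((P.hd * P.n : ℕ) : ℝ) / P.hn - ((P.n * P.m1 : ℕ) : ℝ) - P.n)) / (((P.hd * P.n : ℕ) : ℝ) * One)| ≤
      P.n * ((inorm ((fP P (P.hd * One) P.g0).drop 2) + inorm (fP P 0 P.g1) + inorm (fP P 0 P.g2) : ℤ) : ℝ) /
        (((P.hd * P.n : ℕ) : ℝ) * One)
    rw [e3, e4, e0, Int.cast_add, Int.cast_add, Nat.cast_mul]
    generalize u ^ 2 * pv ((fP P (P.hd * One) P.g0).drop 2) u = A at *
    generalize x.1 * pv (fP P 0 P.g1) u = B at *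
    generalize x.2 * pv (fP P 0 P.g2) u = C at *
    have e5 : ∀ a b : ℝ, (a + u * b + A + B + C) / (P.hd * One) - (P.n * a + b * (P.n * u)) / (P.hd * P.n * One) =
        P.n * (A + B + C) / (P.hd * P.n * One) := fun a b => by
      field_simp
      ring
    rw [e5, abs_div, abs_of_pos (by positivity : (0 : ℝ) < P.hd * P.n * One), abs_mul, abs_of_pos h']
    gcongr
    exact (abs_add_three _ _ _).trans (by linarith)

end Crest.Agent.R213.E
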