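import Crest.Agent.R213.E.Poly

/-! Soundness of the checks at infinity.
`isAsym`: `s = 4096 / y² ∈ (0, 1]`; `th`: `hasDerivAt_pv2`, `Function.iterate_succ_apply'`;
with `c = cc P w`, `Φ = Phi P w 0 y`, `A = Φ3 + 18Φ2 + 71Φ1 - 90Φ0 + 90 = pv2 (ppP P) / SC`:
`pv2 (resP P) s w = 4096 SC³ (Φ (2 c A / y² + 1) - c) = s³ pv2 (drop 3)` (`pv2_take_drop`, the first
three rows vanish) and `y⁴ (A - y²(1/(2Φ) - 1/(2c))) = y⁶ (Φ (2cA/y² + 1) - c) / (2 c Φ)`,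
`y⁶ s³ = 4096³`, `2 c Φ ≥ 0.98`.
`par_sound`: `P.headD [] = [C0, C1]`, `c = (C0 2^40 + C1 w1 x₁ + C1 w2 x₂) / (SC 2^40)`,
`|1/(2c) - b| = |1 - 2 c b| / (2c)`, `2c ≥ 1.4`.
`comb_sound`: at `y = 64`, `s = 1`: `Phi P w j 64 = pv (sum2 (th2^[j] P)) w / SC` (`pv2_one`),
`pv_split`, `SC = One 2^234`, `k0 FF + k1 F1 + k2 F2 = k0 - 64 (cs σ + ca ga + cg gg)`.
`fin_sound`: `4^3 = 64`, `64^6 / 256 = 2^28`, e.g. `X0 + X1 = 2^28 (352 d0 + 16 d1)`. -/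

set_option autoImplicit false
set_option linter.unusedVariables false
open Set Filter Topology

noncomputable section
namespace Crest.Agent.R213.E

theorem asyma_split {P : List (List ℤ)} (h : asymOK P = true) : norm2 ((resP P).take 3) = 0 ∧
    4096 ^ 2 * 1000 * norm2 ((resP P).drop 3) ≤ 98 * SC ^ 3 ∧
    norm2 (add2 (sm2 1000 P) [[-(715 * SC)]]) ≤ 14 * SC ∧
    inorm (iadd (ismul 1000 (P.headD [])) [-(715 * SC)]) ≤ 14 * SC := by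
  simp only [asymOK, Bool.and_eq_true, decide_eq_true_eq] at h
  exact ⟨h.1.1.1, h.1.1.2, h.1.2, h.2⟩

theorem asyma_rng {p S : ℝ} (hS : 0 < S) (h : |1000 * p - 715 * S| ≤ 14 * S) :
    701 / 1000 ≤ p / S ∧ p / S ≤ 729 / 1000 := by
  rw [abs_le] at h
  rw [le_div_iff₀ hS, div_le_iff₀ hS]
  constructor <;> linarith [h.1, h.2]

theorem asyma_s {y : ℝ} (hy : 64 ≤ y) : |4096 / y ^ 2| ≤ 1 := by
  have h : (4096 : ℝ) ≤ y ^ 2 := by nlinarith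
  rw [abs_of_nonneg (by positivity), div_le_one (by linarith)]
  exact h

theorem asyma_alg {y S Φ c A q n : ℝ} (hy : 64 ≤ y) (hS : 0 < S) (hΦ : 701 / 1000 ≤ Φ)
    (hc : 701 / 1000 ≤ c)
    (hR : Φ * S * (4096 / y ^ 2 * (2 * (c * S) * (A * S)) + 4096 * S ^ 2) - 4096 * S ^ 2 * (c * S) =
      (4096 / y ^ 2) ^ 3 * q) (hq : |q| ≤ n) (hn : 4096 ^ 2 * 1000 * n ≤ 98 * S ^ 3) :
    |y ^ 4 * (A - y ^ 2 * (1 / (2 * Φ) - 1 / (2 * c)))| ≤ 1 / 10 := by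
  have hy0 : 0 < y := by linarith
  have hΦ0 : 0 < Φ := by linarith
  have hc0 : 0 < c := by linarith
  have hq' : q = y ^ 6 / 4096 ^ 3 * (Φ * S * (4096 / y ^ 2 * (2 * (c * S) * (A * S)) + 4096 * S ^ 2) -
      4096 * S ^ 2 * (c * S)) := by
    rw [hR]
    field_simp
  have e : y ^ 4 * (A - y ^ 2 * (1 / (2 * Φ) - 1 / (2 * c))) = 4096 ^ 2 * q / (S ^ 3 * (2 * c * Φ)) := by
    rw [hq']
    field_simp
    ring
  have h1 : 98 / 100 ≤ 2 * c * Φ := by nlinarith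
  have h3 : 0 < S ^ 3 := by positivity
  rw [e, abs_div, abs_mul, abs_of_pos (show (0:ℝ) < 4096 ^ 2 by norm_num),
    abs_of_pos (show 0 < S ^ 3 * (2 * c * Φ) by positivity), div_le_iff₀ (by positivity)]
  nlinarith [mul_le_mul_of_nonneg_left h1 h3.le]

theorem cc_ge {P : List (List ℤ)} (h : asymOK P = true) {w : ℝ} (hw : |w| ≤ 1) :
    701 / 1000 ≤ cc P w := by
  refine (asyma_rng SC_pos ?_).1
  have h1 := abs_pv_le (iadd (ismul 1000 (P.headD [])) [-(715 * SC)]) hw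
  have h2 : ((inorm (iadd (ismul 1000 (P.headD [])) [-(715 * SC)]) : ℤ) : ℝ) ≤ ((14 * SC : ℤ) : ℝ) :=
    Int.cast_le.2 (asyma_split h).2.2.2
  rw [pv_iadd, pv_ismul, pv_cons, pv_nil] at h1
  push_cast at h1 h2
  refine le_trans (le_of_eq ?_) (h1.trans h2)
  congr 1
  ring

theorem isAsym {P : List (List ℤ)} (h : asymOK P = true) {w : ℝ} (hw : |w| ≤ 1) :
    IsAsym (1 / (2 * cc P w)) (Phi P w) := by
  obtain ⟨h1, h2, h3, -⟩ := asyma_split h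
  have hS := SC_pos
  have hrng : ∀ y, 64 ≤ y → 701 / 1000 ≤ Phi P w 0 y ∧ Phi P w 0 y ≤ 729 / 1000 := by
    intro y hy
    refine asyma_rng SC_pos ?_
    have h4 := abs_pv2_le (add2 (sm2 1000 P) [[-(715 * SC)]]) (asyma_s hy) hw
    have h5 : ((norm2 (add2 (sm2 1000 P) [[-(715 * SC)]]) : ℤ) : ℝ) ≤ ((14 * SC : ℤ) : ℝ) :=
      Int.cast_le.2 h3
    rw [pv2_add2, pv2_sm2, pv2_cons, pv_cons, pv_nil, pv2_nil] at h4
    push_cast at h4 h5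
    refine le_trans (le_of_eq ?_) (h4.trans h5)
    congr 1
    simp only [Function.iterate_zero, id]
    ring
  refine ⟨fun j y hy => ?_, hrng, fun y hy => ?_, fun j => ⟨norm2 (th2^[j] P) / (SC : ℝ), fun y hy => ?_⟩⟩
  · have := (hasDerivAt_pv2 (th2^[j] P) 4096 w hy.ne').div_const (SC : ℝ)
    rw [Phi, Function.iterate_succ_apply', div_right_comm]
    exact this
  · have h4 : pv2 ((resP P).take 3) (4096 / y ^ 2) w = 0 := by
      have := abs_pv2_le ((resP P).take 3) (asyma_s hy) hw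
      rw [h1, Int.cast_zero] at this
      exact abs_nonpos_iff.1 this
    have h5 := pv2_take_drop (resP P) (4096 / y ^ 2) w
    rw [h4, zero_add] at h5
    have h6 : ((4096 ^ 2 * 1000 * norm2 ((resP P).drop 3) : ℤ) : ℝ) ≤ ((98 * SC ^ 3 : ℤ) : ℝ) :=
      Int.cast_le.2 h2
    rw [Int.cast_mul, Int.cast_mul, Int.cast_mul, Int.cast_pow, Int.cast_pow, Int.cast_ofNat,
      Int.cast_ofNat, Int.cast_ofNat] at h6
    refine asyma_alg hy hS (hrng y hy).1 (cc_ge h hw) ?_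
      (abs_pv2_le ((resP P).drop 3) (asyma_s hy) hw) h6
    rw [← h5]
    simp only [resP, ppP, pv2_add2, pv2_mul2, pv2_sm2, pv2_cons, pv2_nil, pv_cons, pv_nil, pv_ismul,
      Phi, cc, Function.iterate_succ, Function.iterate_zero, Function.comp_apply, id]
    push_cast
    generalize (SC : ℝ) = S at hS
    field_simp
    ring
  · rw [Phi, abs_div, abs_of_pos hS]
    exact div_le_div_of_nonneg_right (abs_pv2_le _ (asyma_s hy) hw) hS.le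

theorem continuous_cc (P : List (List ℤ)) : Continuous (cc P) :=
  (continuous_pv _).div_const _

theorem continuous_wP (w1 w2 : ℤ) : Continuous (wP w1 w2) := by
  unfold wP; fun_prop

theorem continuousOn_Phi (P : List (List ℤ)) (w1 w2 : ℤ) (j : ℕ) (B : Set (ℝ × ℝ)) :
    ContinuousOn (fun q : (ℝ × ℝ) × ℝ => Phi P (wP w1 w2 q.1) j q.2) (B ×ˢ Ioi 0) := by
  unfold Phi
  refine ContinuousOn.div_const ?_ _
  refine (continuous_pv2 (th2^[j] P)).comp_continuousOn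
    (f := fun q : (ℝ × ℝ) × ℝ => ((4096 / q.2 ^ 2 : ℝ), wP w1 w2 q.1)) ?_
  refine ContinuousOn.prodMk (continuousOn_const.div (by fun_prop) fun q hq => ?_)
    ((continuous_wP w1 w2).comp continuous_fst).continuousOn
  exact pow_ne_zero _ (ne_of_gt hq.2)

theorem abs_wP_le {w1 w2 : ℤ} (h : |w1| + |w2| ≤ 2 ^ 40) {x : ℝ × ℝ} (h1 : |x.1| ≤ 1)
    (h2 : |x.2| ≤ 1) : |wP w1 w2 x| ≤ 1 := by
  have h' : |(w1:ℝ)| + |(w2:ℝ)| ≤ 2 ^ 40 := by exact_mod_cast h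
  unfold wP
  rw [abs_div, abs_of_pos (by positivity : (0:ℝ) < 2 ^ 40), div_le_one (by positivity)]
  refine (abs_add_le _ _).trans ?_
  rw [abs_mul, abs_mul]
  nlinarith [mul_le_mul_of_nonneg_left h1 (abs_nonneg (w1:ℝ)),
    mul_le_mul_of_nonneg_left h2 (abs_nonneg (w2:ℝ))]

theorem asymb_real {K C0 C1 C2 B0 B1 B2 x1 x2 : ℝ} (h1 : |x1| ≤ 1) (h2 : |x2| ≤ 1) :
    |K - 2 * (C0 + C1 * x1 + C2 * x2) * (B0 + x1 * B1 + x2 * B2)| ≤
      |K - 2 * C0 * B0| + 2 * |C0 * B1 + C1 * B0| + 2 * |C0 * B2 + C2 * B0| +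
        2 * (|C1| + |C2|) * (|B1| + |B2|) := by
  have e : K - 2 * (C0 + C1 * x1 + C2 * x2) * (B0 + x1 * B1 + x2 * B2) =
      (K - 2 * C0 * B0) - 2 * ((C0 * B1 + C1 * B0) * x1) - 2 * ((C0 * B2 + C2 * B0) * x2) -
        2 * ((C1 * x1 + C2 * x2) * (B1 * x1 + B2 * x2)) := by ring
  have m : ∀ a x : ℝ, |x| ≤ 1 → |a * x| ≤ |a| := fun a x hx => by
    rw [abs_mul]; exact mul_le_of_le_one_right (abs_nonneg _) hx
  have a1 := m (C0 * B1 + C1 * B0) x1 h1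
  have a2 := m (C0 * B2 + C2 * B0) x2 h2
  have a3 : |C1 * x1 + C2 * x2| ≤ |C1| + |C2| :=
    (abs_add_le _ _).trans (add_le_add (m _ _ h1) (m _ _ h2))
  have a4 : |B1 * x1 + B2 * x2| ≤ |B1| + |B2| :=
    (abs_add_le _ _).trans (add_le_add (m _ _ h1) (m _ _ h2))
  have a5 : |(C1 * x1 + C2 * x2) * (B1 * x1 + B2 * x2)| ≤ (|C1| + |C2|) * (|B1| + |B2|) := by
    rw [abs_mul]; exact mul_le_mul a3 a4 (abs_nonneg _) (by positivity)
  rw [e, abs_le]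
  have b0 := abs_le.1 (le_refl |K - 2 * C0 * B0|)
  have b1 := abs_le.1 a1
  have b2 := abs_le.1 a2
  have b3 := abs_le.1 a5
  constructor <;> linarith [b0.1, b0.2, b1.1, b1.2, b2.1, b2.2, b3.1, b3.2]

theorem par_sound {Q : Par} {P : List (List ℤ)} {w1 w2 : ℤ} (h : parOK Q P w1 w2 = true)
    {x : ℝ × ℝ} (h1 : |x.1| ≤ 1) (h2 : |x.2| ≤ 1) (hc : 7 / 10 ≤ cc P (wP w1 w2 x)) :
    |1 / (2 * cc P (wP w1 w2 x)) - aff Q.B0 Q.B1 Q.B2 x| ≤ Q.tau / (One : ℝ) := by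
  simp only [parOK, Bool.and_eq_true, decide_eq_true_eq] at h
  obtain ⟨hl, h⟩ := h
  obtain ⟨C0, C1, hC⟩ := List.length_eq_two.1 hl
  simp only [hC, List.getD_cons_zero, List.getD_cons_succ] at h
  have h' : 10 * (|(SC:ℝ) * 2 ^ 40 * One - 2 * (C0 * 2 ^ 40) * Q.B0| +
      2 * |(C0:ℝ) * 2 ^ 40 * Q.B1 + C1 * w1 * Q.B0| + 2 * |(C0:ℝ) * 2 ^ 40 * Q.B2 + C1 * w2 * Q.B0| +
      2 * (|(C1:ℝ) * w1| + |(C1:ℝ) * w2|) * (|(Q.B1:ℝ)| + |(Q.B2:ℝ)|)) ≤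
      14 * Q.tau * SC * 2 ^ 40 := by exact_mod_cast h
  have k := asymb_real (K := (SC:ℝ) * 2 ^ 40 * One) (C0 := C0 * 2 ^ 40) (C1 := C1 * w1)
    (C2 := C1 * w2) (B0 := Q.B0) (B1 := Q.B1) (B2 := Q.B2) h1 h2
  have hS := SC_pos
  have hO := One_pos
  set c := cc P (wP w1 w2 x) with hcd
  have hc' : (C0:ℝ) * 2 ^ 40 + C1 * w1 * x.1 + C1 * w2 * x.2 = c * (SC * 2 ^ 40) := by
    rw [hcd, cc, hC, pv_cons, pv_cons, pv_nil, wP]
    field_simp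
    ring
  set b := aff Q.B0 Q.B1 Q.B2 x with hbd
  have hb' : (Q.B0:ℝ) + x.1 * Q.B1 + x.2 * Q.B2 = b * One := by
    rw [hbd, aff]; field_simp
  rw [hc', hb'] at k
  have e : (SC:ℝ) * 2 ^ 40 * One - 2 * (c * (SC * 2 ^ 40)) * (b * One) =
      (1 - 2 * c * b) * (SC * 2 ^ 40 * One) := by ring
  rw [e, abs_mul, abs_of_pos (by positivity : (0:ℝ) < SC * 2 ^ 40 * One)] at k
  have k2 : 10 * (|1 - 2 * c * b| * One) * (SC * 2 ^ 40) ≤ 14 * Q.tau * (SC * 2 ^ 40) := by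
    nlinarith
  have k3 : 10 * (|1 - 2 * c * b| * One) ≤ 14 * Q.tau :=
    le_of_mul_le_mul_right k2 (by positivity)
  have hc0 : 0 < c := by linarith
  have e2 : 1 / (2 * c) - b = (1 - 2 * c * b) / (2 * c) := by field_simp
  have hn : 0 ≤ |1 - 2 * c * b| * One := by positivity
  rw [e2, abs_div, abs_of_pos (by positivity : 0 < 2 * c), div_le_div_iff₀ (by positivity) hO]
  nlinarith

theorem asymc_core {S u0 err rem A B x1 x2 E : ℝ} (hS : 0 < S)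
    (h : 4 * (2 ^ 28 * (|u0| + rem) + |A| + |B|) ≤ 3 * S) (herr : |err| ≤ rem) (h1 : |x1| ≤ 1)
    (h2 : |x2| ≤ 1) (e : E * S = 2 ^ 28 * (u0 + err) + x1 * A + x2 * B) : |E| ≤ 3 / 4 := by
  have b1 : |x1 * A| ≤ |A| := by
    rw [abs_mul]; exact mul_le_of_le_one_left (abs_nonneg _) h1
  have b2 : |x2 * B| ≤ |B| := by
    rw [abs_mul]; exact mul_le_of_le_one_left (abs_nonneg _) h2
  have b3 := abs_add_three (2 ^ 28 * (u0 + err)) (x1 * A) (x2 * B)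
  rw [← e, abs_mul, abs_mul, abs_of_pos hS, abs_of_pos (show (0 : ℝ) < 2 ^ 28 by positivity)] at b3
  refine le_of_mul_le_mul_right ?_ hS
  linarith [abs_add_le u0 err]

theorem asymc_mul (c : ℝ) {d e : ℝ} (h : |d| ≤ e / (One : ℝ)) : |c * (d * One)| ≤ |c| * e := by
  rw [abs_mul, abs_mul, abs_of_pos One_pos]
  exact mul_le_mul_of_nonneg_left ((le_div_iff₀ One_pos).1 h) (abs_nonneg _)

theorem comb_sound {N : Node} {P : List (List ℤ)} {w1 w2 k0 k1 k2 t1 t2 : ℤ}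
    (h : combOK N P w1 w2 k0 k1 k2 t1 t2 = true) (hy : (N.yn : ℝ) / N.yd = 64) {x : ℝ × ℝ}
    (h1 : |x.1| ≤ 1) (h2 : |x.2| ≤ 1) (hw : |wP w1 w2 x| ≤ 1) {σ : ℝ → ℝ} (hN : Inv N x σ) :
    |2 ^ 28 * (k0 * (FF σ 64 - Phi P (wP w1 w2 x) 0 64) + k1 * (F1 σ 64 - Phi P (wP w1 w2 x) 1 64) +
      k2 * (F2 σ 64 - Phi P (wP w1 w2 x) 2 64)) - (t1 * x.1 + t2 * x.2)| ≤ 3 / 4 := by
  unfold combOK at h
  have h' := (Int.cast_le (R := ℝ)).2 (of_decide_eq_true h)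
  set φ := iaxpy k0 (sum2 P) (iaxpy k1 (sum2 (th2 P)) (ismul k2 (sum2 (th2 (th2 P))))) with hφ
  obtain ⟨n1, n2, n3, -⟩ := hN
  rw [hy] at n1 n2 n3
  have hO := One_pos
  have eS : (SC : ℝ) = One * 2 ^ 234 := by
    simp only [SC, One, Int.cast_pow, Int.cast_ofNat, ← pow_add]
  have e2 : (2 : ℝ) ^ 274 = 2 ^ 234 * 2 ^ 40 := by rw [← pow_add]
  have hT : (0 : ℝ) < 2 ^ 234 := by positivity
  have eP : ∀ j, Phi P (wP w1 w2 x) j 64 = pv (sum2 (th2^[j] P)) (wP w1 w2 x) / SC := fun j => by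
    rw [Phi, ← pv2_one]
    norm_num
  have eφ : (k0 : ℝ) * pv (sum2 P) (wP w1 w2 x) + (k1 * pv (sum2 (th2 P)) (wP w1 w2 x) +
      k2 * pv (sum2 (th2 (th2 P))) (wP w1 w2 x)) = φ.getD 0 0 + wP w1 w2 x * φ.getD 1 0 +
      wP w1 w2 x ^ 2 * pv (φ.drop 2) (wP w1 w2 x) := by
    rw [← pv_split, hφ, pv_iaxpy, pv_iaxpy, pv_ismul]
  have hr : |wP w1 w2 x ^ 2 * pv (φ.drop 2) (wP w1 w2 x)| ≤ inorm (φ.drop 2) := by
    rw [abs_mul, abs_pow]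
    exact (mul_le_of_le_one_left (abs_nonneg _) (pow_le_one₀ (abs_nonneg _) hw)).trans (abs_pv_le _ hw)
  simp only [Int.cast_mul, Int.cast_add, Int.cast_sub, Int.cast_abs, Int.cast_pow, Int.cast_ofNat,
    Int.cast_neg, e2] at h'
  rw [eP, eP, eP]
  simp only [Function.iterate_succ, Function.iterate_zero, Function.comp_apply, id_eq]
  generalize wP w1 w2 x ^ 2 * pv (φ.drop 2) (wP w1 w2 x) = r at eφ hr
  rw [eS] at h' ⊢
  generalize (2 : ℝ) ^ 234 = T at h' hT ⊢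
  rw [mul_assoc 3] at h'
  refine asymc_core (err := -(r + 64 * ((k2 : ℝ) * ((σ 64 - aff N.s0 N.s1 N.s2 x) * One) +
    (k1 - 19 * k2) * ((ga σ 64 - aff N.a0 N.a1 N.a2 x) * One) +
    (k0 - 10 * k1 + 100 * k2) * ((gg σ 64 - aff N.g0 N.g1 N.g2 x) * One)) * T) * 2 ^ 40)
    (by positivity) h' ?_ h1 h2 ?_
  · rw [abs_mul, abs_neg, abs_of_pos (show (0 : ℝ) < 2 ^ 40 by positivity)]
    refine mul_le_mul_of_nonneg_right ((abs_add_le _ _).trans (add_le_add hr ?_)) (by positivity)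
    rw [abs_mul, abs_mul, abs_of_pos hT, abs_of_pos (show (0 : ℝ) < 64 by norm_num)]
    gcongr
    exact (abs_add_three _ _ _).trans (add_le_add (add_le_add (asymc_mul _ n1) (asymc_mul _ n2))
      (asymc_mul _ n3))
  · have e3 : r = (k0 : ℝ) * pv (sum2 P) (wP w1 w2 x) + (k1 * pv (sum2 (th2 P)) (wP w1 w2 x) +
        k2 * pv (sum2 (th2 (th2 P))) (wP w1 w2 x)) - (φ.getD 0 0 + wP w1 w2 x * φ.getD 1 0) := by
      linarith
    rw [e3]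
    generalize pv (sum2 P) (wP w1 w2 x) = p0
    generalize pv (sum2 (th2 P)) (wP w1 w2 x) = p1
    generalize pv (sum2 (th2 (th2 P))) (wP w1 w2 x) = p2
    simp only [FF, F1, F2, aff, wP]
    field_simp
    ring

theorem fin_sound {N : Node} {P : List (List ℤ)} {w1 w2 : ℤ} (h : finOK N P w1 w2 = true)
    {x : ℝ × ℝ} (h1 : |x.1| ≤ 1) (h2 : |x.2| ≤ 1) {σ : ℝ → ℝ} (hN : Inv N x σ) :
    (|X0 σ (Phi P (wP w1 w2 x)) 4 + X1 σ (Phi P (wP w1 w2 x)) 4 - 3 * x.1| ≤ 3 / 4 ∧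
      |X1 σ (Phi P (wP w1 w2 x)) 4 + X2 σ (Phi P (wP w1 w2 x)) 4 - 3 * x.2| ≤ 3 / 4 ∧
      |X0 σ (Phi P (wP w1 w2 x)) 4 - X1 σ (Phi P (wP w1 w2 x)) 4 +
        X2 σ (Phi P (wP w1 w2 x)) 4| ≤ 3 / 4) ∧
      ∀ t ∈ Icc (0:ℝ) 64, lo t ≤ FF σ t ∧ FF σ t ≤ hi t := by
  simp only [finOK, Bool.and_eq_true, decide_eq_true_eq] at h
  obtain ⟨⟨⟨⟨⟨a1, a2⟩, a3⟩, c1⟩, c2⟩, c3⟩ := h
  have hy : (N.yn : ℝ) / N.yd = 64 := by
    rw [a1, div_eq_iff (Nat.cast_pos.2 a2).ne']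
    push_cast
    rfl
  have hw := abs_wP_le a3 h1 h2
  have d1 := comb_sound c1 hy h1 h2 hw hN
  have d2 := comb_sound c2 hy h1 h2 hw hN
  have d3 := comb_sound c3 hy h1 h2 hw hN
  have e : (4 : ℝ) ^ 3 = 64 := by norm_num
  refine ⟨⟨le_of_eq_of_le (congrArg _ ?_) d1, le_of_eq_of_le (congrArg _ ?_) d2,
    le_of_eq_of_le (congrArg _ ?_) d3⟩, hy ▸ hN.2.2.2⟩ <;>
  · simp only [X0, X1, X2, Z0, Z1, Z2, e]
    push_cast
    ring

end Crest.Agent.R213.E
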