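import Crest.Agent.R213.E.Defs

/-! Row 213, block E: the certificate checker (integer polynomials as lists, written with the
recursors for the speed of kernel evaluation). -/

set_option autoImplicit false
open Set

namespace Crest.Agent.R213.E

/-! ### univariate integer polynomials -/

noncomputable def pv (p : List ℤ) (u : ℝ) : ℝ := p.foldr (fun a r => (a : ℝ) + u * r) 0

def iadd (p : List ℤ) : List ℤ → List ℤ :=
  List.rec (fun q => q)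
    (fun a p ih q => List.rec (a :: p) (fun b q _ => Int.add a b :: ih q) q) p
def ismul (c : ℤ) (p : List ℤ) : List ℤ := List.rec [] (fun a _ ih => Int.mul c a :: ih) p
/-- `c p + q` -/
def iaxpy (c : ℤ) (p : List ℤ) : List ℤ → List ℤ :=
  List.rec (fun q => q)
    (fun a _ ih q => List.rec (Int.mul c a :: ih []) (fun b q _ => Int.add (Int.mul c a) b :: ih q) q) p
def imul (p q : List ℤ) : List ℤ := List.rec [] (fun a _ ih => iaxpy a q (0 :: ih)) p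
/-- `k p + u p'` -/
def idk (p : List ℤ) : ℤ → List ℤ :=
  List.rec (fun _ => []) (fun a _ ih k => Int.mul k a :: ih (Int.add k 1)) p
def ider (p : List ℤ) : List ℤ := idk p.tail 1
/-- `(μ + u) p'` -/
def ith (μ : ℤ) (p : List ℤ) : List ℤ := iaxpy μ (ider p) (idk p 0)
def inat (p : List ℤ) : ℕ := List.rec 0 (fun a _ ih => Nat.add (Int.natAbs a) ih) p
def inorm (p : List ℤ) : ℤ := Int.ofNat (inat p)
/-- value at `1` -/
def at1 (p : List ℤ) : ℤ := List.rec 0 (fun a _ ih => Int.add a ih) p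
/-- value at `-1` -/
def atm (p : List ℤ) : ℤ := List.rec 0 (fun a _ ih => Int.sub a ih) p

/-! ### bivariate integer polynomials (outer variable `s`, inner variable `w`) -/

noncomputable def pv2 (P : List (List ℤ)) (s w : ℝ) : ℝ := P.foldr (fun a r => pv a w + s * r) 0

def add2 : List (List ℤ) → List (List ℤ) → List (List ℤ)
  | [], Q => Q
  | a :: P, [] => a :: P
  | a :: P, b :: Q => iadd a b :: add2 P Q
def sm2 (c : ℤ) (P : List (List ℤ)) : List (List ℤ) := P.map (ismul c)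
def mul2 : List (List ℤ) → List (List ℤ) → List (List ℤ)
  | [], _ => []
  | a :: P, Q => add2 (Q.map (imul a)) ([] :: mul2 P Q)
/-- `-2 (k P + s ∂_s P)` -/
def thk : List (List ℤ) → ℤ → List (List ℤ)
  | [], _ => []
  | a :: P, k => ismul (-2 * k) a :: thk P (k + 1)
def th2 (P : List (List ℤ)) : List (List ℤ) := thk P 0
def norm2 : List (List ℤ) → ℤ
  | [] => 0
  | a :: P => inorm a + norm2 P
/-- value at `s = 1` -/
def sum2 : List (List ℤ) → List ℤ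
  | [] => []
  | a :: P => iadd a (sum2 P)

/-! ### the finite part -/

def One : ℤ := 2 ^ 110

def force {α : Type} (n : ℕ) (k : ℕ → α) : α :=
  match n with
  | 0 => k 0
  | Nat.succ m => k (Nat.succ m)
def forceI {α : Type} (z : ℤ) (k : ℤ → α) : α :=
  match z with
  | Int.ofNat n => force n fun m => k (Int.ofNat m)
  | Int.negSucc n => force n fun m => k (Int.negSucc m)

/-- `1000 D lo (y / D)` -/
def loI (y D : ℤ) : ℤ :=
  max (160 * D) (min (min (-560 * D + 75 * y) (-130 * D + 40 * y))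
    (min (min (330 * D + 12 * y) (600 * D + 2 * y)) (700 * D)))
/-- `1000 D hi (y / D)` -/
def hiI (y D : ℤ) : ℤ := max (730 * D) (1100 * D - 10 * y)

def cdiv (a b : ℤ) : ℤ := -(-a / b)

/-- constants of the substep loop; the nodes are `hn (k0 + 2 i) / D`, `i ≤ n` -/
structure PC where
  hn : ℕ
  D : ℕ
  k0 : ℕ
  n : ℕ
  f0 : ℤ
  f1 : ℤ
  rest : ℤ
  r0 : ℤ
  tau : ℤ

noncomputable def PC.y (C : PC) (i : ℕ) : ℝ := (C.hn : ℝ) * (C.k0 + 2 * i) / C.D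

def subOK (C : PC) (i : ℕ) (e a b M a' b' : ℤ) : Bool :=
  let k : ℕ := C.k0 + 2 * i
  let k2 : ℕ := k + 2
  let l := loI (C.hn * k) C.D
  let l2 := loI (C.hn * k2) C.D
  let h2 := hiI (C.hn * k2) C.D
  let v1 := C.n * C.f0 + C.f1 * (2 * i - C.n)
  let v2 := C.n * C.f0 + C.f1 * (2 * i + 2 - C.n)
  decide ((l2 + C.D) * One ≤ 1000 * (v1 - C.n * C.rest)) &&
  decide ((l2 + C.D) * One ≤ 1000 * (v2 - C.n * C.rest)) &&
  decide (1000 * (v1 + C.n * C.rest) ≤ (h2 - C.D) * One) &&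
  decide (1000 * (v2 + C.n * C.rest) ≤ (h2 - C.D) * One) &&
  decide (a ≤ a') &&
  decide (10 * a * (k ^ 10 : ℕ) + M * ((k2 ^ 10 : ℕ) - (k ^ 10 : ℕ)) ≤ 10 * a' * (k2 ^ 10 : ℕ)) &&
  decide (b ≤ b') &&
  decide (11 * b * (k ^ 11 : ℕ) + a' * ((k2 ^ 11 : ℕ) - (k ^ 11 : ℕ)) ≤ 11 * b' * (k2 ^ 11 : ℕ)) &&
  decide (e * C.D * l ^ 2 + 2000 * C.hn * C.r0 * C.D * l + 2 * C.hn * C.tau * l ^ 2 +
    1000000 * C.hn ^ 2 * k2 * b' * C.D ≤ M * C.D * l ^ 2) &&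
  decide (1000000 * C.hn ^ 2 * k2 < 110 * l ^ 2) &&
  decide (1000 * C.hn * k2 * b' ≤ C.D * One)

/-- candidate bounds (not trusted) -/
def candA (k : ℕ) (a M : ℤ) : ℤ :=
  max a (cdiv (10 * a * (k ^ 10 : ℕ) + M * (((k + 2) ^ 10 : ℕ) - (k ^ 10 : ℕ))) (10 * ((k + 2) ^ 10 : ℕ)))
def candB (k : ℕ) (b a' : ℤ) : ℤ :=
  max b (cdiv (11 * b * (k ^ 11 : ℕ) + a' * (((k + 2) ^ 11 : ℕ) - (k ^ 11 : ℕ))) (11 * ((k + 2) ^ 11 : ℕ)))
def candM (C : PC) (i : ℕ) (e a b : ℤ) : ℤ :=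
  let k : ℕ := C.k0 + 2 * i
  let l := loI (C.hn * k) C.D
  let e0 := e + cdiv (2000 * C.hn * C.r0) l + cdiv (2 * C.hn * C.tau) C.D
  let M0 := e0 + cdiv (1000000 * C.hn ^ 2 * (k + 2) * b) (l ^ 2)
  let M1 := e0 + cdiv (1000000 * C.hn ^ 2 * (k + 2) * candB k b (candA k a M0)) (l ^ 2)
  M1 + (M1 - M0) / 8 + 16

def loop (C : PC) : ℕ → ℕ → ℤ → ℤ → ℤ → Option (ℤ × ℤ × ℤ)
  | 0, _, e, a, b => some (e, a, b)
  | j + 1, i, e, a, b =>
    forceI (candM C i e a b) fun M => forceI (candA (C.k0 + 2 * i) a M) fun a' =>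
      forceI (candB (C.k0 + 2 * i) b a') fun b' => force (i + 1) fun i' =>
        bif subOK C i e a b M a' b' then loop C j i' M a' b' else none

/-- `β ≈ (B0 + x₁ B1 + x₂ B2) / One` up to `tau / One` -/
structure Par where
  B0 : ℤ
  B1 : ℤ
  B2 : ℤ
  tau : ℤ

/-- a piece `y = (hn / hd) (m1 + 1 + u)`, `|u| ≤ 1`, with `g ≈ (g0 + x₁ g1 + x₂ g2)(u) / One` -/
structure Piece where
  hn : ℕ
  hd : ℕ
  m1 : ℕ
  n : ℕ
  g0 : List ℤ
  g1 : List ℤ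
  g2 : List ℤ

/-- enclosures of `σ`, `ga σ`, `gg σ` at `y = yn / yd` -/
structure Node where
  yn : ℕ
  yd : ℕ
  s0 : ℤ
  s1 : ℤ
  s2 : ℤ
  a0 : ℤ
  a1 : ℤ
  a2 : ℤ
  g0 : ℤ
  g1 : ℤ
  g2 : ℤ
  e : ℤ
  a : ℤ
  b : ℤ
deriving DecidableEq

def Piece.mu (P : Piece) : ℤ := P.m1 + 1
def gaP (μ : ℤ) (g : List ℤ) : List ℤ := iaxpy 11 g (ith μ g)
def sgP (μ : ℤ) (g : List ℤ) : List ℤ := iaxpy 10 (gaP μ g) (ith μ (gaP μ g))
/-- `hn One (Σ' - β)` -/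
def tP (P : Piece) (B : ℤ) (g : List ℤ) : List ℤ :=
  iaxpy P.hd (ider (sgP P.mu g)) [-(P.hn * B)]
/-- `c - hn (μ + u) g`; `hd One F` is the affine combination with `c = hd One, 0, 0` -/
def fP (P : Piece) (c : ℤ) (g : List ℤ) : List ℤ :=
  iaxpy (-(P.hn * P.mu)) g (c :: ismul (-P.hn) g)

def resN (Q : Par) (P : Piece) : ℤ :=
  inorm (iadd (imul (tP P Q.B0 P.g0) (fP P (P.hd * One) P.g0)) [P.hn * P.hd * 2 ^ 219]) +
  inorm (iadd (imul (tP P Q.B0 P.g0) (fP P 0 P.g1)) (imul (tP P Q.B1 P.g1) (fP P (P.hd * One) P.g0))) +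
  inorm (iadd (imul (tP P Q.B0 P.g0) (fP P 0 P.g2)) (imul (tP P Q.B2 P.g2) (fP P (P.hd * One) P.g0))) +
  (inorm (tP P Q.B1 P.g1) + inorm (tP P Q.B2 P.g2)) * (inorm (fP P 0 P.g1) + inorm (fP P 0 P.g2))

def mkPC (Q : Par) (P : Piece) (r0 : ℤ) : PC where
  hn := P.hn
  D := P.hd * P.n
  k0 := P.n * P.m1
  n := P.n
  f0 := (fP P (P.hd * One) P.g0).getD 0 0
  f1 := (fP P (P.hd * One) P.g0).getD 1 0
  rest := inorm ((fP P (P.hd * One) P.g0).drop 2) + inorm (fP P 0 P.g1) + inorm (fP P 0 P.g2)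
  r0 := r0
  tau := Q.tau

def jump (v0 v1 v2 : ℤ) (p0 p1 p2 : List ℤ) : ℤ :=
  ((v0 - atm p0).natAbs + (v1 - atm p1).natAbs + (v2 - atm p2).natAbs : ℕ)

def step (Q : Par) (N : Node) (P : Piece) : Option Node :=
  forceI (resN Q P / (P.hn * P.hd * One) + 1) fun r0 =>
  bif decide (0 < P.hn) && decide (0 < P.hd) && decide (0 < P.n) && decide (0 < N.yd) &&
      decide (N.yn * P.hd = P.hn * P.m1 * N.yd) then
    (loop (mkPC Q P r0) P.n 0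
      (N.e + jump N.s0 N.s1 N.s2 (sgP P.mu P.g0) (sgP P.mu P.g1) (sgP P.mu P.g2))
      (N.a + jump N.a0 N.a1 N.a2 (gaP P.mu P.g0) (gaP P.mu P.g1) (gaP P.mu P.g2))
      (N.b + jump N.g0 N.g1 N.g2 P.g0 P.g1 P.g2)).map fun r =>
      ⟨P.hn * (P.m1 + 2), P.hd, at1 (sgP P.mu P.g0), at1 (sgP P.mu P.g1), at1 (sgP P.mu P.g2),
        at1 (gaP P.mu P.g0), at1 (gaP P.mu P.g1), at1 (gaP P.mu P.g2),
        at1 P.g0, at1 P.g1, at1 P.g2, r.1, r.2.1, r.2.2⟩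
  else none

noncomputable def aff (v0 v1 v2 : ℤ) (x : ℝ × ℝ) : ℝ := (v0 + x.1 * v1 + x.2 * v2) / (One : ℝ)

def Inv (N : Node) (x : ℝ × ℝ) (σ : ℝ → ℝ) : Prop :=
  |σ (N.yn / N.yd) - aff N.s0 N.s1 N.s2 x| ≤ N.e / (One : ℝ) ∧
  |ga σ (N.yn / N.yd) - aff N.a0 N.a1 N.a2 x| ≤ N.a / (One : ℝ) ∧
  |gg σ (N.yn / N.yd) - aff N.g0 N.g1 N.g2 x| ≤ N.b / (One : ℝ) ∧
  ∀ t ∈ Icc (0:ℝ) (N.yn / N.yd), lo t ≤ FF σ t ∧ FF σ t ≤ hi t

/-- the approximate solution on a piece, built from the transform `f` of the three lists -/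
noncomputable def app (P : Piece) (f : List ℤ → List ℤ) (x : ℝ × ℝ) (t : ℝ) : ℝ :=
  (pv (f P.g0) (t * P.hd / P.hn - P.mu) + x.1 * pv (f P.g1) (t * P.hd / P.hn - P.mu) +
    x.2 * pv (f P.g2) (t * P.hd / P.hn - P.mu)) / (One : ℝ)

/-- what the substep loop needs to know about the approximate solution `(g, a, s)` -/
structure AppOK (C : PC) (β : ℝ) (g a s : ℝ → ℝ) : Prop where
  hn_pos : 0 < C.hn
  D_pos : 0 < C.D
  d1 : ∀ t, HasDerivAt (fun t => t ^ 11 * g t) (t ^ 10 * a t) t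
  d2 : ∀ t, HasDerivAt (fun t => t ^ 10 * a t) (t ^ 9 * s t) t
  d3 : ∀ t ∈ Icc (C.y 0) (C.y C.n), ∃ T β' : ℝ, HasDerivAt s (T + β') t ∧
    |β - β'| ≤ C.tau / (One : ℝ) ∧ |T * (1 - t * g t) + 1 / 2| ≤ C.r0 / (One : ℝ)
  rng : ∀ t ∈ Icc (C.y 0) (C.y C.n),
    |1 - t * g t - (C.n * C.f0 + C.f1 * (t * C.D / C.hn - C.k0 - C.n)) / (C.D * (One : ℝ))| ≤
      C.n * C.rest / (C.D * (One : ℝ))

/-- error bounds at `t` -/
def Err (σ g a s : ℝ → ℝ) (t : ℝ) (e a' b : ℤ) : Prop :=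
  |σ t - s t| ≤ e / (One : ℝ) ∧ |ga σ t - a t| ≤ a' / (One : ℝ) ∧ |gg σ t - g t| ≤ b / (One : ℝ)

/-! ### the expansion at infinity -/

def SC : ℤ := 2 ^ 344

noncomputable def Phi (P : List (List ℤ)) (w : ℝ) (j : ℕ) (y : ℝ) : ℝ :=
  pv2 (th2^[j] P) (4096 / y ^ 2) w / (SC : ℝ)

/-- `c = F_as(∞)` -/
noncomputable def cc (P : List (List ℤ)) (w : ℝ) : ℝ := pv (P.headD []) w / (SC : ℝ)

/-- `SC (P(θ) Φ + 90)` -/
def ppP (P : List (List ℤ)) : List (List ℤ) :=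
  add2 (add2 (add2 (th2 (th2 (th2 P))) (sm2 18 (th2 (th2 P))))
    (add2 (sm2 71 (th2 P)) (sm2 (-90) P))) [[90 * SC]]
/-- `4096 SC³ (Φ (2 c ε (P(θ) Φ + 90) + 1) - c)`, `ε = s / 4096` -/
def resP (P : List (List ℤ)) : List (List ℤ) :=
  add2 (mul2 P (add2 ([] :: mul2 [ismul 2 (P.headD [])] (ppP P)) [[4096 * SC ^ 2]]))
    [ismul (-(4096 * SC ^ 2)) (P.headD [])]

def asymOK (P : List (List ℤ)) : Bool :=
  decide (norm2 ((resP P).take 3) = 0) &&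
  decide (4096 ^ 2 * 1000 * norm2 ((resP P).drop 3) ≤ 98 * SC ^ 3) &&
  decide (norm2 (add2 (sm2 1000 P) [[-(715 * SC)]]) ≤ 14 * SC) &&
  decide (inorm (iadd (ismul 1000 (P.headD [])) [-(715 * SC)]) ≤ 14 * SC)

/-- `w = (w1 x₁ + w2 x₂) / 2^40` -/
noncomputable def wP (w1 w2 : ℤ) (x : ℝ × ℝ) : ℝ := (w1 * x.1 + w2 * x.2) / 2 ^ 40

/-- the check of `|2^28 (k0 d0 + k1 d1 + k2 d2) - (t1 x₁ + t2 x₂)| ≤ 3/4` at `y = 64`, where
`d j = θ^j (F - F_as)` -/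
def combOK (N : Node) (P : List (List ℤ)) (w1 w2 k0 k1 k2 t1 t2 : ℤ) : Bool :=
  let cs := k2
  let ca := k1 - 19 * k2
  let cg := k0 - 10 * k1 + 100 * k2
  let φ := iaxpy k0 (sum2 P) (iaxpy k1 (sum2 (th2 P)) (ismul k2 (sum2 (th2 (th2 P)))))
  let u0 := (-64 * (cs * N.s0 + ca * N.a0 + cg * N.g0) * 2 ^ 234 + k0 * SC - φ.getD 0 0) * 2 ^ 40
  let u1 := -64 * (cs * N.s1 + ca * N.a1 + cg * N.g1) * 2 ^ 274 - φ.getD 1 0 * w1
  let u2 := -64 * (cs * N.s2 + ca * N.a2 + cg * N.g2) * 2 ^ 274 - φ.getD 1 0 * w2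
  let rem := (inorm (φ.drop 2) + 64 * (|cs| * N.e + |ca| * N.a + |cg| * N.b) * 2 ^ 234) * 2 ^ 40
  decide (4 * (2 ^ 28 * (|u0| + rem) + |2 ^ 28 * u1 - t1 * SC * 2 ^ 40| +
    |2 ^ 28 * u2 - t2 * SC * 2 ^ 40|) ≤ 3 * SC * 2 ^ 40)

def finOK (N : Node) (P : List (List ℤ)) (w1 w2 : ℤ) : Bool :=
  decide (N.yn = 64 * N.yd) && decide (0 < N.yd) && decide (|w1| + |w2| ≤ 2 ^ 40) &&
  combOK N P w1 w2 352 16 0 3 0 && combOK N P w1 w2 132 28 1 0 3 &&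
  combOK N P w1 w2 196 (-4) 1 0 0

/-- the check of `|1/(2c) - β_lin| ≤ tau / One` when `P.headD [] = [C0, C1]` -/
def parOK (Q : Par) (P : List (List ℤ)) (w1 w2 : ℤ) : Bool :=
  let C0 := (P.headD []).getD 0 0 * 2 ^ 40
  let C1 := (P.headD []).getD 1 0 * w1
  let C2 := (P.headD []).getD 1 0 * w2
  decide ((P.headD []).length = 2) &&
  decide (10 * (|SC * 2 ^ 40 * One - 2 * C0 * Q.B0| + 2 * |C0 * Q.B1 + C1 * Q.B0| +
    2 * |C0 * Q.B2 + C2 * Q.B0| + 2 * (|C1| + |C2|) * (|Q.B1| + |Q.B2|)) ≤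
    14 * Q.tau * SC * 2 ^ 40)

end Crest.Agent.R213.E
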