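import Crest.Agent.R213.E.Defs

/-! The cone lemmas for `Tail`.
`lam_ineq`: the quadratic part is `≥ (a²+b²+c²)/4` (unperturbed form `≥ 1/2`, the four
perturbations cost at most `0.03 + 0.11 + 0.04 + 0.06`), `a²+b²+c² ≥ 2 Lam ≥ 2 R²`, and
`|f (b - a)| ≤ (R/10) √2 |X| ≤ |X|²/10` (e.g. `|f| |b-a| ≤ R²/10 + (b-a)²/40`).
`u_ineq`: `a²+b²+c² = 2 Lam + u² ≤ 3 U²`, Cauchy-Schwarz with coefficient norm `≤ 0.23`.
`lam_grow`: derivative `d` of `Lam` is `w * (expression of lam_ineq) ≥ Lam` whenever `Lam ≥ R²`;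
barrier `image_le_of_deriv_right_lt_deriv_boundary` for `-Lam` (use `deriv`), then
`Lam * exp (-z)` is monotone.  `u_bound`: barrier for `u²  ≤ U²`.
`bounded_of_poly`: if `R² ≤ Lam` somewhere then `R² e^{z-z₁} ≤ Lam ≤ 3 C² z^{2k}`, impossible
(`Real.tendsto_exp_div_pow_atTop`); else `u_bound` with `U = max R |u z0|`. -/

set_option autoImplicit false
set_option linter.unusedVariables false
open Set Filter Topology

noncomputable section
namespace Crest.Agent.R213.E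

theorem conea_mul {t k x B : ℝ} (ht : |t| ≤ k) (h1 : -B ≤ x) (h2 : x ≤ B) : -(k * B) ≤ t * x ∧ t * x ≤ k * B := by
  rw [← abs_le, abs_mul]
  exact mul_le_mul ht (abs_le.2 ⟨h1, h2⟩) (abs_nonneg _) ((abs_nonneg _).trans ht)

theorem lam_ineq {a b c α b0 b1 b2 f R : ℝ} (hR : 0 < R) (hα : |α| ≤ 1 / 24) (h0 : |b0| ≤ 9 / 100)
    (h1 : -(1 / 100) ≤ b1) (h1' : b1 ≤ 3 / 20) (h2 : |b2| ≤ 1 / 12) (hf : |f| ≤ R / 10)
    (hL : R ^ 2 ≤ Lam a b c) :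
    Lam a b c / 4 ≤ b * (b - c) + (c + α * b) * (a + c) +
      (-a + b0 * a + b1 * b + b2 * c + f) * (b - a) := by
  unfold Lam at hL ⊢
  have e1 := (conea_mul hα (x := b * (a + c)) (B := 3 / 4 * (a ^ 2 + b ^ 2 + c ^ 2))
    (by nlinarith [sq_nonneg (a + 2 / 3 * b), sq_nonneg (c + 2 / 3 * b), sq_nonneg b])
    (by nlinarith [sq_nonneg (a - 2 / 3 * b), sq_nonneg (c - 2 / 3 * b), sq_nonneg b])).1
  have e2 := (conea_mul h0 (x := a * (b - a)) (B := 5 / 4 * (a ^ 2 + b ^ 2 + c ^ 2))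
    (by nlinarith [sq_nonneg (a + 2 * b), sq_nonneg c, sq_nonneg b])
    (by nlinarith [sq_nonneg (a - b), sq_nonneg c, sq_nonneg a, sq_nonneg b])).1
  have e3 : -(4 / 100 * (a ^ 2 + b ^ 2 + c ^ 2)) ≤ b1 * (b * (b - a)) := by
    rcases le_total 0 b1 with h | h
    · nlinarith [mul_nonneg h (sq_nonneg (a - 2 * b)), mul_nonneg (sub_nonneg.2 h1') (sq_nonneg a),
        sq_nonneg a, sq_nonneg b, sq_nonneg c]
    · have := (conea_mul (abs_le.2 ⟨h1, h.trans (by norm_num)⟩) (x := b * (b - a)) (B := 2 * (a ^ 2 + b ^ 2 + c ^ 2))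
        (by nlinarith [sq_nonneg (a - b), sq_nonneg c, sq_nonneg a, sq_nonneg b])
        (by nlinarith [sq_nonneg (a + b), sq_nonneg c, sq_nonneg a, sq_nonneg b])).1
      nlinarith [sq_nonneg a, sq_nonneg b, sq_nonneg c]
  have e4 := (conea_mul h2 (x := c * (b - a)) (B := 3 / 4 * (a ^ 2 + b ^ 2 + c ^ 2))
    (by nlinarith [sq_nonneg (b + 2 / 3 * c), sq_nonneg (a - 2 / 3 * c), sq_nonneg c])
    (by nlinarith [sq_nonneg (b - 2 / 3 * c), sq_nonneg (a + 2 / 3 * c), sq_nonneg c])).1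
  have e5 := (conea_mul hf (neg_abs_le (b - a)) (le_abs_self (b - a))).1
  have e6 : R * |b - a| ≤ R ^ 2 + (b - a) ^ 2 / 4 := by
    nlinarith [sq_nonneg (R - |b - a| / 2), sq_abs (b - a)]
  nlinarith [sq_nonneg (a - b + c), sq_nonneg (a + b), sq_nonneg c]

theorem u_ineq {a b c α b0 b1 b2 f R U : ℝ} (hR : 0 < R) (hU : R ≤ U) (hα : |α| ≤ 1 / 24)
    (h0 : |b0| ≤ 9 / 100) (h1 : -(1 / 100) ≤ b1) (h1' : b1 ≤ 3 / 20) (h2 : |b2| ≤ 1 / 12)
    (hf : |f| ≤ R / 10) (hL : Lam a b c ≤ R ^ 2) (hu : (a - b + c) ^ 2 = U ^ 2) :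
    (a - b + c) * (b - (c + α * b) + (-a + b0 * a + b1 * b + b2 * c + f)) < 0 := by
  unfold Lam at hL
  have hU0 : 0 < U := hR.trans_le hU
  have hS : a ^ 2 + b ^ 2 + c ^ 2 ≤ 3 * U ^ 2 := by nlinarith [pow_le_pow_left₀ hR.le hU 2]
  have hb : ∀ x : ℝ, x ^ 2 ≤ 3 * U ^ 2 → -(2 * U) ≤ x ∧ x ≤ 2 * U := fun x hx =>
    abs_le_of_sq_le_sq' (by nlinarith [sq_nonneg U]) (by positivity)
  have ha := hb a (by nlinarith [sq_nonneg b, sq_nonneg c])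
  have hb' := hb b (by nlinarith [sq_nonneg a, sq_nonneg c])
  have hc := hb c (by nlinarith [sq_nonneg a, sq_nonneg b])
  have e0 := conea_mul hα hb'.1 hb'.2
  have e1 := conea_mul h0 ha.1 ha.2
  have e2 := conea_mul (abs_le.2 ⟨le_trans (by norm_num) h1, h1'⟩) hb'.1 hb'.2
  have e3 := conea_mul h2 hc.1 hc.2
  have e4 := abs_le.1 hf
  have e5 := (conea_mul (abs_le_of_sq_le_sq hu.le hU0.le) (x := -(α * b) + b0 * a + b1 * b + b2 * c + f)
    (B := 9 / 10 * U) (by linarith [e0.2, e1.1, e2.1, e3.1, e4.1]) (by linarith [e0.1, e1.2, e2.2, e3.2, e4.2])).2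
  nlinarith [mul_pos hU0 hU0]

theorem coneb_der {X0 X1 X2 : ℝ → ℝ} {z0 R : ℝ} (hR : 0 < R) (h : Tail X0 X1 X2 z0 R) :
    ∃ d : ℝ → ℝ, ∀ z, z0 ≤ z → HasDerivAt (fun z => Lam (X0 z) (X1 z) (X2 z)) (d z) z ∧
      (R ^ 2 ≤ Lam (X0 z) (X1 z) (X2 z) → Lam (X0 z) (X1 z) (X2 z) ≤ d z) := by
  refine ⟨deriv fun z => Lam (X0 z) (X1 z) (X2 z), fun z hz => ?_⟩
  obtain ⟨w, α, b0, b1, b2, f, hw, hα, h0, h1, h1', h2, hf, d0, d1, d2⟩ := h z hz
  have hd : HasDerivAt (fun z => Lam (X0 z) (X1 z) (X2 z))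
      (w * (X1 z * (X1 z - X2 z) + (X2 z + α * X1 z) * (X0 z + X2 z) +
        (-X0 z + b0 * X0 z + b1 * X1 z + b2 * X2 z + f) * (X1 z - X0 z))) z := by
    unfold Lam
    refine (((d0.mul d1).add (d1.mul d2)).sub (d0.mul d2)).congr_deriv ?_
    ring
  rw [hd.deriv]
  refine ⟨hd, fun hL => ?_⟩
  have h3 := lam_ineq hR hα h0 h1 h1' h2 hf hL
  have h4 : 0 ≤ Lam (X0 z) (X1 z) (X2 z) := (sq_nonneg R).trans hL
  nlinarith

theorem lam_grow {X0 X1 X2 : ℝ → ℝ} {z0 R : ℝ} (hR : 0 < R) (h : Tail X0 X1 X2 z0 R) {z1 z : ℝ}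
    (h1 : z0 ≤ z1) (hz : z1 ≤ z) (hL : R ^ 2 ≤ Lam (X0 z1) (X1 z1) (X2 z1)) :
    R ^ 2 * Real.exp (z - z1) ≤ Lam (X0 z) (X1 z) (X2 z) := by
  obtain ⟨d, hd⟩ := coneb_der hR h
  set L : ℝ → ℝ := fun z => Lam (X0 z) (X1 z) (X2 z) with hLdef
  have hc : ContinuousOn L (Icc z1 z) := fun x hx =>
    (hd x (h1.trans hx.1)).1.continuousAt.continuousWithinAt
  have s1 : ∀ x ∈ Icc z1 z, -L x ≤ -R ^ 2 := by
    intro x hx
    refine image_le_of_deriv_right_lt_deriv_boundary (f := fun x => -L x) (f' := fun x => -d x)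
      (B := fun _ => -R ^ 2) (B' := fun _ => 0) hc.neg
      (fun x hx => (hd x (h1.trans hx.1)).1.neg.hasDerivWithinAt) (neg_le_neg hL)
      (fun x => hasDerivAt_const _ _) (fun x hx e => ?_) hx
    have e' : L x = R ^ 2 := neg_injective e
    have h3 := (hd x (h1.trans hx.1)).2 e'.ge
    have h4 : 0 < R ^ 2 := by positivity
    change L x ≤ d x at h3
    linarith
  have hg (x : ℝ) (hx : z1 ≤ x) : HasDerivAt (fun x => L x * Real.exp (-x))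
      ((d x - L x) * Real.exp (-x)) x := by
    refine ((hd x (h1.trans hx)).1.mul (hasDerivAt_neg x).exp).congr_deriv ?_
    simp only [hLdef]
    ring
  have s2 := image_le_of_deriv_right_le_deriv_boundary (f := fun _ => R ^ 2 * Real.exp (-z1))
    (f' := fun _ => 0) (B := fun x => L x * Real.exp (-x)) (B' := fun x => (d x - L x) * Real.exp (-x))
    (a := z1) (b := z) continuousOn_const (fun x _ => (hasDerivAt_const _ _).hasDerivWithinAt)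
    (mul_le_mul_of_nonneg_right hL (Real.exp_pos _).le)
    (fun x hx => (hg x hx.1).continuousAt.continuousWithinAt)
    (fun x hx => (hg x hx.1).hasDerivWithinAt)
    (fun x hx => mul_nonneg (sub_nonneg.2 ((hd x (h1.trans hx.1)).2
      (neg_le_neg_iff.1 (s1 x ⟨hx.1, hx.2.le⟩)))) (Real.exp_pos _).le) ⟨hz, le_rfl⟩
  have s3 := mul_le_mul_of_nonneg_right s2 (Real.exp_pos z).le
  rw [mul_assoc, mul_assoc, ← Real.exp_add, ← Real.exp_add, neg_add_cancel, Real.exp_zero, mul_one,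
    neg_add_eq_sub] at s3
  exact s3

theorem u_bound {X0 X1 X2 : ℝ → ℝ} {z0 R U : ℝ} (hR : 0 < R) (h : Tail X0 X1 X2 z0 R) (hU : R ≤ U)
    (hL : ∀ z, z0 ≤ z → Lam (X0 z) (X1 z) (X2 z) ≤ R ^ 2)
    (h0 : (X0 z0 - X1 z0 + X2 z0) ^ 2 ≤ U ^ 2) {z : ℝ} (hz : z0 ≤ z) :
    X0 z ^ 2 + X1 z ^ 2 + X2 z ^ 2 ≤ 3 * U ^ 2 := by
  set u : ℝ → ℝ := fun z => (X0 z - X1 z + X2 z) ^ 2 with hu
  have hd (x : ℝ) (hx : z0 ≤ x) : HasDerivAt u (deriv u x) x ∧ (u x = U ^ 2 → deriv u x < 0) := by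
    obtain ⟨w, α, b0, b1, b2, f, hw, hα, h0, h1, h1', h2, hf, d0, d1, d2⟩ := h x hx
    have hd : HasDerivAt u (2 * w * ((X0 x - X1 x + X2 x) * (X1 x - (X2 x + α * X1 x) +
        (-X0 x + b0 * X0 x + b1 * X1 x + b2 * X2 x + f)))) x := by
      refine (((d0.sub d1).add d2).pow 2).congr_deriv ?_
      simp only [Pi.add_apply, Pi.sub_apply]
      push_cast
      ring
    rw [hd.deriv]
    exact ⟨hd, fun e => mul_neg_of_pos_of_neg (by linarith)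
      (u_ineq hR hU hα h0 h1 h1' h2 hf (hL x hx) e)⟩
  have s1 : u z ≤ U ^ 2 := image_le_of_deriv_right_lt_deriv_boundary (f := u) (f' := deriv u)
    (B := fun _ => U ^ 2) (B' := fun _ => 0) (a := z0) (b := z)
    (fun x hx => (hd x hx.1).1.continuousAt.continuousWithinAt)
    (fun x hx => (hd x hx.1).1.hasDerivWithinAt) h0 (fun x => hasDerivAt_const _ _)
    (fun x hx e => (hd x hx.1).2 e) ⟨hz, le_rfl⟩
  have s2 := hL z hz
  have s3 : R ^ 2 ≤ U ^ 2 := pow_le_pow_left₀ hR.le hU 2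
  simp only [hu] at s1
  unfold Lam at s2
  nlinarith

theorem bounded_of_poly {X0 X1 X2 : ℝ → ℝ} {z0 R C : ℝ} {k : ℕ} (hR : 0 < R)
    (h : Tail X0 X1 X2 z0 R)
    (hC : ∀ z, z0 ≤ z → |X0 z| ≤ C * z ^ k ∧ |X1 z| ≤ C * z ^ k ∧ |X2 z| ≤ C * z ^ k) :
    ∃ C', ∀ z, z0 ≤ z → |X0 z| ≤ C' := by
  by_cases hex : ∃ z1, z0 ≤ z1 ∧ R ^ 2 ≤ Lam (X0 z1) (X1 z1) (X2 z1)
  · exfalso
    obtain ⟨z1, h1, hL⟩ := hex
    have hp : 0 < R ^ 2 * Real.exp (-z1) := by positivity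
    obtain ⟨z, hz1, hz2, hz3⟩ := (((Real.tendsto_exp_div_pow_atTop (k * 2)).eventually_gt_atTop
      (3 * C ^ 2 / (R ^ 2 * Real.exp (-z1)))).and
      ((eventually_ge_atTop z1).and (eventually_gt_atTop 0))).exists
    have s1 := lam_grow hR h h1 hz2 hL
    obtain ⟨c0, c1, c2⟩ := hC z (h1.trans hz2)
    have e0 := sq_le_sq' (abs_le.1 c0).1 (abs_le.1 c0).2
    have e1 := sq_le_sq' (abs_le.1 c1).1 (abs_le.1 c1).2
    have e2 := sq_le_sq' (abs_le.1 c2).1 (abs_le.1 c2).2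
    have s2 : Lam (X0 z) (X1 z) (X2 z) ≤ 3 * (C * z ^ k) ^ 2 := by
      unfold Lam
      nlinarith [sq_nonneg (X0 z - X1 z + X2 z), sq_nonneg (C * z ^ k)]
    rw [div_lt_div_iff₀ hp (by positivity), pow_mul] at hz1
    rw [sub_eq_add_neg, Real.exp_add] at s1
    nlinarith
  · push Not at hex
    set U := max R |X0 z0 - X1 z0 + X2 z0| with hU
    have h1 : R ≤ U := le_max_left _ _
    refine ⟨2 * U, fun z hz => ?_⟩
    have s1 := u_bound hR h h1 (fun z hz => (hex z hz).le)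
      (by rw [← sq_abs]; exact pow_le_pow_left₀ (abs_nonneg _) (le_max_right _ _) 2) hz
    refine abs_le_of_sq_le_sq' ?_ (by linarith) |> abs_le.2
    nlinarith [sq_nonneg (X1 z), sq_nonneg (X2 z), sq_nonneg U]

end Crest.Agent.R213.E
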