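import Mathlib

/-! Row 213, block E (existence of the shrinker): analytic definitions.
`σ = Σ` solves the Volterra system `σ' = β - ψ(y, F)/2`, `F = 1 - y g`,
`g(y) = ∫₀¹ (s⁹ - s¹⁰) σ(s y) ds`; `ψ(t, ·)` is `1/F` on `[lo t, hi t]`, continued by its tangent
lines.  `θ = y d/dy`; a relation `θ f = f'` is written `HasDerivAt f (f' y / y) y`. -/

set_option autoImplicit false
open Set Filter Topology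

noncomputable section
namespace Crest.Agent.R213.E

def lo (t : ℝ) : ℝ :=
  max (160 / 1000) (min (min ((-560 + 75 * t) / 1000) ((-130 + 40 * t) / 1000))
    (min (min ((330 + 12 * t) / 1000) ((600 + 2 * t) / 1000)) (700 / 1000)))

def hi (t : ℝ) : ℝ := max (730 / 1000) ((1100 - 10 * t) / 1000)

def cl (t F : ℝ) : ℝ := max (lo t) (min (hi t) F)

def psi (t F : ℝ) : ℝ := (2 * cl t F - F) / cl t F ^ 2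

def TT (m : ℕ) (φ : ℝ → ℝ) (y : ℝ) : ℝ := ∫ s in (0:ℝ)..1, s ^ m * φ (s * y)

def ga (σ : ℝ → ℝ) (y : ℝ) : ℝ := TT 9 σ y
def gg (σ : ℝ → ℝ) (y : ℝ) : ℝ := TT 9 σ y - TT 10 σ y
def FF (σ : ℝ → ℝ) (y : ℝ) : ℝ := 1 - y * gg σ y
/-- `θ F` -/
def F1 (σ : ℝ → ℝ) (y : ℝ) : ℝ := -(y * (ga σ y - 10 * gg σ y))
/-- `θ² F` -/
def F2 (σ : ℝ → ℝ) (y : ℝ) : ℝ := -(y * (σ y - 19 * ga σ y + 100 * gg σ y))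

def IsSol (a β : ℝ) (σ : ℝ → ℝ) : Prop :=
  σ 0 = a ∧ ∀ y, HasDerivAt σ (β - psi y (FF σ y) / 2) y

/-- the exact (uncut) equation on `[0,∞)` -/
structure IsTrue (β : ℝ) (σ : ℝ → ℝ) : Prop where
  cont : Continuous σ
  pos : ∀ y, 0 ≤ y → 4 / 25 ≤ FF σ y
  ode : ∀ y, 0 ≤ y → HasDerivAt σ (β - 1 / (2 * FF σ y)) y

/-- a perturbation of `X' = w (X₁, X₂, -X₀)` with forcing `≤ R / 10` -/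
def Tail (X0 X1 X2 : ℝ → ℝ) (z0 R : ℝ) : Prop :=
  ∀ z, z0 ≤ z → ∃ w α b0 b1 b2 f : ℝ, 4 ≤ w ∧ |α| ≤ 1 / 24 ∧ |b0| ≤ 9 / 100 ∧ -(1 / 100) ≤ b1 ∧
    b1 ≤ 3 / 20 ∧ |b2| ≤ 1 / 12 ∧ |f| ≤ R / 10 ∧ HasDerivAt X0 (w * X1 z) z ∧
    HasDerivAt X1 (w * (X2 z + α * X1 z)) z ∧
    HasDerivAt X2 (w * (-X0 z + b0 * X0 z + b1 * X1 z + b2 * X2 z + f)) z

/-- the Lyapunov form; `3 Lam = q(v) - u²` and `a² + b² + c² = 2 Lam + u²` where `u = a - b + c`,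
`v = (a + b, b + c)`, `q(v) = v₁² - v₁ v₂ + v₂²`. -/
def Lam (a b c : ℝ) : ℝ := a * b + b * c - a * c

/-- jets `Φ j = θ^j F_as` of an approximate solution at infinity -/
structure IsAsym (β : ℝ) (Φ : ℕ → ℝ → ℝ) : Prop where
  th : ∀ j y, 0 < y → HasDerivAt (Φ j) (Φ (j + 1) y / y) y
  rng : ∀ y, 64 ≤ y → 701 / 1000 ≤ Φ 0 y ∧ Φ 0 y ≤ 729 / 1000
  res : ∀ y, 64 ≤ y → |y ^ 4 * (Φ 3 y + 18 * Φ 2 y + 71 * Φ 1 y - 90 * Φ 0 y + 90 -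
    y ^ 2 * (1 / (2 * Φ 0 y) - β))| ≤ 1 / 10
  bdd : ∀ j, ∃ C, ∀ y, 64 ≤ y → |Φ j y| ≤ C

/-- `D = y⁶ (F - F_as)` and its `θ`-derivatives -/
def Z0 (σ : ℝ → ℝ) (Φ : ℕ → ℝ → ℝ) (y : ℝ) : ℝ := y ^ 6 * (FF σ y - Φ 0 y)
def Z1 (σ : ℝ → ℝ) (Φ : ℕ → ℝ → ℝ) (y : ℝ) : ℝ :=
  y ^ 6 * (F1 σ y - Φ 1 y + 6 * (FF σ y - Φ 0 y))
def Z2 (σ : ℝ → ℝ) (Φ : ℕ → ℝ → ℝ) (y : ℝ) : ℝ :=
  y ^ 6 * (F2 σ y - Φ 2 y + 12 * (F1 σ y - Φ 1 y) + 36 * (FF σ y - Φ 0 y))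

/-- normalised variables in the time `z`, `y = z³` -/
def X0 (σ : ℝ → ℝ) (Φ : ℕ → ℝ → ℝ) (z : ℝ) : ℝ := Z0 σ Φ (z ^ 3)
def X1 (σ : ℝ → ℝ) (Φ : ℕ → ℝ → ℝ) (z : ℝ) : ℝ := Z1 σ Φ (z ^ 3) / z ^ 2
def X2 (σ : ℝ → ℝ) (Φ : ℕ → ℝ → ℝ) (z : ℝ) : ℝ := Z2 σ Φ (z ^ 3) / z ^ 4

/-- `θ^i f` -/
def thn (f : ℝ → ℝ) : ℕ → ℝ → ℝ
  | 0 => f
  | i + 1 => fun y => y * deriv (thn f i) y

end Crest.Agent.R213.E
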