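import Crest.Agent.R213.E.Volt

/-! Existence and continuity in the parameters of the solution of the Volterra system, by a
contraction in `ℝ →ᵇ ℝ` for `u = e^{-40 y²} σ`.
`Vm_lip`: `|FF σ t - FF σ' t| ≤ 2 |t| M e^{40 t²}` (`TT_sub`, `abs_TT_le`, `(s t)² ≤ t²`), `psi_lip`,
and `|∫₀^y 40 M |t| e^{40 t²} dt| ≤ M e^{40 y²} / 2` (FTC; `y ≤ 0` by symmetry, or bound
`|∫₀^y f| ≤ ∫₀^{|y|} bound`).
`Vm_bound`: `Vm_lip` with `σ' = 0` (`FF 0 = 1`), `psi_one`, `|y| ≤ e^{40 y²}`.
`exists_sol`: `T p u := mkOfBound`/`BoundedContinuousFunction.ofNormedAddCommGroup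
(fun y => e^{-40y²} Vm p (fun t => e^{40t²} u t) y)`, `ContractingWith (1/2) (T p)`,
`dist (T p u) (T p' u) ≤ |δa| + |δβ|`, `ContractingWith.fixedPoint_lipschitz_in_map`; joint
continuity from `continuous_eval`. -/

set_option autoImplicit false
set_option linter.unusedVariables false
open Set Filter Topology

noncomputable section
namespace Crest.Agent.R213.E

def Vm (p : ℝ × ℝ) (σ : ℝ → ℝ) (y : ℝ) : ℝ :=
  p.1 + ∫ t in (0:ℝ)..y, (p.2 - psi t (FF σ t) / 2)

theorem continuous_FF {σ : ℝ → ℝ} (h : Continuous σ) : Continuous (FF σ) := by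
  exact continuous_const.sub (continuous_id.mul ((continuous_TT1 h 9).sub (continuous_TT1 h 10)))

theorem exista_cont (b : ℝ) {σ : ℝ → ℝ} (h : Continuous σ) :
    Continuous fun t => b - psi t (FF σ t) / 2 :=
  continuous_const.sub
    ((continuous_psi.comp (continuous_id.prodMk (continuous_FF h))).div_const 2)

theorem Vm_deriv (p : ℝ × ℝ) {σ : ℝ → ℝ} (h : Continuous σ) (y : ℝ) :
    HasDerivAt (Vm p σ) (p.2 - psi y (FF σ y) / 2) y := by
  exact ((exista_cont p.2 h).integral_hasStrictDerivAt 0 y).hasDerivAt.const_add p.1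

theorem exista_int0 {f : ℝ → ℝ} {M : ℝ} (hM : 0 ≤ M)
    (h : ∀ t, |f t| ≤ 40 * M * |t| * Real.exp (40 * t ^ 2)) {y : ℝ} (hy : 0 ≤ y) :
    |∫ t in (0:ℝ)..y, f t| ≤ M / 2 * Real.exp (40 * y ^ 2) := by
  have hc : Continuous fun t : ℝ => 40 * M * t * Real.exp (40 * t ^ 2) := by fun_prop
  have hd : ∀ t : ℝ, HasDerivAt (fun t : ℝ => M / 2 * Real.exp (40 * t ^ 2))
      (40 * M * t * Real.exp (40 * t ^ 2)) t := fun t => by
    refine ((((hasDerivAt_pow 2 t).const_mul 40).exp).const_mul (M / 2)).congr_deriv ?_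
    simp
    ring
  have h1 := intervalIntegral.integral_eq_sub_of_hasDerivAt (a := 0) (b := y) (fun t _ => hd t)
    (hc.intervalIntegrable _ _)
  have h2 := intervalIntegral.norm_integral_le_of_norm_le (μ := MeasureTheory.volume) (f := f) hy
    (Eventually.of_forall fun t ht => by
      have := h t
      rwa [abs_of_pos ht.1] at this) (hc.intervalIntegrable _ _)
  rw [h1, Real.norm_eq_abs] at h2
  have : 0 ≤ M / 2 * Real.exp (40 * (0:ℝ) ^ 2) := by positivity
  linarith

theorem exista_int {f : ℝ → ℝ} {M : ℝ} (hM : 0 ≤ M)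
    (h : ∀ t, |f t| ≤ 40 * M * |t| * Real.exp (40 * t ^ 2)) (y : ℝ) :
    |∫ t in (0:ℝ)..y, f t| ≤ M / 2 * Real.exp (40 * y ^ 2) := by
  rcases le_total 0 y with hy | hy
  · exact exista_int0 hM h hy
  · have := exista_int0 (f := fun t => f (-t)) hM (fun t => by simpa using h (-t)) (neg_nonneg.2 hy)
    rwa [intervalIntegral.integral_comp_neg, neg_neg, neg_zero, intervalIntegral.integral_symm,
      abs_neg, neg_sq] at this

theorem exista_FF {σ σ' : ℝ → ℝ} (h : Continuous σ) (h' : Continuous σ') {M : ℝ} (h0 : 0 ≤ M)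
    (hM : ∀ t, |σ t - σ' t| ≤ M * Real.exp (40 * t ^ 2)) (t : ℝ) :
    |FF σ t - FF σ' t| ≤ 2 * M * |t| * Real.exp (40 * t ^ 2) := by
  have hT : ∀ m : ℕ, |TT m σ t - TT m σ' t| ≤ M * Real.exp (40 * t ^ 2) := fun m => by
    rw [TT_sub h h']
    refine abs_TT_le m fun s hs => (hM _).trans ?_
    refine mul_le_mul_of_nonneg_left (Real.exp_le_exp.2 ?_) h0
    have : s ^ 2 ≤ 1 := pow_le_one₀ hs.1 hs.2
    rw [mul_pow]
    nlinarith [sq_nonneg t]
  have e : FF σ t - FF σ' t = t * ((TT 10 σ t - TT 10 σ' t) - (TT 9 σ t - TT 9 σ' t)) := by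
    unfold FF gg
    ring
  rw [e, abs_mul]
  have := (abs_sub _ _).trans (add_le_add (hT 10) (hT 9))
  calc _ ≤ |t| * (M * Real.exp (40 * t ^ 2) + M * Real.exp (40 * t ^ 2)) :=
        mul_le_mul_of_nonneg_left this (abs_nonneg _)
    _ = _ := by ring

theorem Vm_lip (p : ℝ × ℝ) {σ σ' : ℝ → ℝ} (h : Continuous σ) (h' : Continuous σ') {M : ℝ}
    (hM : ∀ t, |σ t - σ' t| ≤ M * Real.exp (40 * t ^ 2)) (y : ℝ) :
    |Vm p σ y - Vm p σ' y| ≤ M / 2 * Real.exp (40 * y ^ 2) := by
  have h0 : 0 ≤ M := by simpa using (abs_nonneg _).trans (hM 0)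
  unfold Vm
  rw [add_sub_add_left_eq_sub, ← intervalIntegral.integral_sub
    ((exista_cont p.2 h).intervalIntegrable _ _) ((exista_cont p.2 h').intervalIntegrable _ _)]
  refine exista_int h0 (fun t => ?_) y
  have h1 := psi_lip t (FF σ t) (FF σ' t)
  have h2 := exista_FF h h' h0 hM t
  have e : p.2 - psi t (FF σ t) / 2 - (p.2 - psi t (FF σ' t) / 2) =
      -((psi t (FF σ t) - psi t (FF σ' t)) / 2) := by ring
  rw [e, abs_neg, abs_div, abs_two]
  linarith

theorem Vm_bound (p : ℝ × ℝ) {σ : ℝ → ℝ} (h : Continuous σ) {M : ℝ}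
    (hM : ∀ t, |σ t| ≤ M * Real.exp (40 * t ^ 2)) (y : ℝ) :
    |Vm p σ y| ≤ (|p.1| + |p.2| + 20 + M / 2) * Real.exp (40 * y ^ 2) := by
  have h1 := Vm_lip p h (σ' := fun _ => 0) continuous_const (by simpa using hM) y
  have hF : ∀ t, FF (fun _ => 0) t = 1 := fun t => by simp [FF, gg, TT]
  have h2 : |∫ t in (0:ℝ)..y, (p.2 - psi t (FF (fun _ => 0) t) / 2)| ≤ (|p.2| + 20) * |y| := by
    have := intervalIntegral.norm_integral_le_of_norm_le_const (a := 0) (b := y)
      (f := fun t => p.2 - psi t (FF (fun _ => 0) t) / 2) (C := |p.2| + 20) fun t _ => by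
        rw [hF, Real.norm_eq_abs]
        refine (abs_sub _ _).trans ?_
        rw [abs_div, abs_two]
        linarith [psi_one t]
    rwa [sub_zero, Real.norm_eq_abs] at this
  have h3 : |Vm p (fun _ => 0) y| ≤ |p.1| + (|p.2| + 20) * |y| :=
    (abs_add_le _ _).trans (add_le_add le_rfl h2)
  have h4 := Real.add_one_le_exp (40 * y ^ 2)
  have h5 : |y| ≤ Real.exp (40 * y ^ 2) := by
    nlinarith [sq_abs y, sq_nonneg (|y| - 1), abs_nonneg y]
  have h6 : 1 ≤ Real.exp (40 * y ^ 2) := by nlinarith [sq_nonneg y]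
  have h7 := abs_sub_abs_le_abs_sub (Vm p σ y) (Vm p (fun _ => 0) y)
  have h8 := mul_le_mul_of_nonneg_left h5 (by positivity : 0 ≤ |p.2| + 20)
  have h9 := mul_le_mul_of_nonneg_left h6 (abs_nonneg p.1)
  linarith

theorem Vm_par (p p' : ℝ × ℝ) {σ : ℝ → ℝ} (h : Continuous σ) (y : ℝ) :
    Vm p σ y - Vm p' σ y = p.1 - p'.1 + (p.2 - p'.2) * y := by
  unfold Vm
  have := intervalIntegral.integral_sub (μ := MeasureTheory.volume) (a := 0) (b := y)
    ((exista_cont p.2 h).intervalIntegrable _ _) ((exista_cont p'.2 h).intervalIntegrable _ _)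
  simp only [sub_sub_sub_cancel_right, intervalIntegral.integral_const, sub_zero, smul_eq_mul] at this
  linarith

theorem exists_sol : ∃ S : ℝ × ℝ → ℝ → ℝ,
    Continuous (fun q : (ℝ × ℝ) × ℝ => S q.1 q.2) ∧ ∀ p, IsSol p.1 p.2 (S p) := by
  have hE : ∀ y : ℝ, 0 < Real.exp (40 * y ^ 2) := fun y => Real.exp_pos _
  have hc : ∀ u : BoundedContinuousFunction ℝ ℝ, Continuous fun t => Real.exp (40 * t ^ 2) * u t := fun u => by
    fun_prop
  have hT : ∀ (p : ℝ × ℝ) (u : BoundedContinuousFunction ℝ ℝ), ∃ v : BoundedContinuousFunction ℝ ℝ,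
      ∀ y, v y = Vm p (fun t => Real.exp (40 * t ^ 2) * u t) y / Real.exp (40 * y ^ 2) := fun p u => by
    refine ⟨BoundedContinuousFunction.ofNormedAddCommGroup
      (fun y => Vm p (fun t => Real.exp (40 * t ^ 2) * u t) y / Real.exp (40 * y ^ 2)) ?_ (|p.1| + |p.2| + 20 + ‖u‖ / 2) fun y => ?_,
      fun _ => rfl⟩
    · exact (continuous_iff_continuousAt.2 fun y => (Vm_deriv p (hc u) y).continuousAt).div (by fun_prop)
        fun y => (hE y).ne'
    · rw [Real.norm_eq_abs, abs_div, abs_of_pos (hE y), div_le_iff₀ (hE y)]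
      refine Vm_bound p (hc u) (fun t => ?_) y
      rw [abs_mul, abs_of_pos (hE t), mul_comm]
      exact mul_le_mul_of_nonneg_right (u.norm_coe_le_norm t) (hE t).le
  choose T hT using hT
  have hK : ∀ p, ContractingWith (1 / 2) (T p) := fun p =>
    ⟨by norm_num, LipschitzWith.of_dist_le_mul fun u v => (BoundedContinuousFunction.dist_le (by positivity)).2 fun y => by
      rw [hT, hT, Real.dist_eq, ← sub_div, abs_div, abs_of_pos (hE y), div_le_iff₀ (hE y)]
      refine (Vm_lip p (hc u) (hc v) (M := dist u v) (fun t => ?_) y).trans_eq (by push_cast; ring)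
      rw [← mul_sub, abs_mul, abs_of_pos (hE t), mul_comm]
      exact mul_le_mul_of_nonneg_right (BoundedContinuousFunction.dist_coe_le_dist (f := u) (g := v) t) (hE t).le⟩
  have hU : Continuous fun p => (hK p).fixedPoint (T p) := by
    refine (LipschitzWith.of_dist_le_mul (K := 4) fun p p' => ?_).continuous
    refine ((hK p).fixedPoint_lipschitz_in_map (hK p') (C := 2 * dist p p') fun u => ?_).trans_eq
      (by push_cast; ring)
    refine (BoundedContinuousFunction.dist_le (by positivity)).2 fun y => ?_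
    rw [hT, hT, Real.dist_eq, ← sub_div, abs_div, abs_of_pos (hE y), div_le_iff₀ (hE y), Vm_par p p' (hc u)]
    have h1 : |p.1 - p'.1| ≤ dist p p' := le_max_left _ _
    have h2 : |p.2 - p'.2| ≤ dist p p' := le_max_right _ _
    have h3 := Real.add_one_le_exp (40 * y ^ 2)
    have h4 : |y| ≤ Real.exp (40 * y ^ 2) := by nlinarith [sq_abs y, sq_nonneg (|y| - 1)]
    have h5 := mul_le_mul h2 h4 (abs_nonneg _) dist_nonneg
    have h6 := le_mul_of_one_le_right (dist_nonneg (x := p) (y := p')) (Real.one_le_exp (x := 40 * y ^ 2) (by positivity))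
    refine (abs_add_le _ _).trans ?_
    rw [abs_mul]
    linarith
  refine ⟨fun p t => Real.exp (40 * t ^ 2) * (hK p).fixedPoint (T p) t, Continuous.mul (by fun_prop)
    ((hU.comp continuous_fst).eval continuous_snd), fun p => ?_⟩
  have e : Vm p (fun t => Real.exp (40 * t ^ 2) * (hK p).fixedPoint (T p) t) =
      fun t => Real.exp (40 * t ^ 2) * (hK p).fixedPoint (T p) t := funext fun t => by
    conv_rhs => rw [← (hK p).fixedPoint_isFixedPt, hT, mul_div_cancel₀ _ (hE t).ne']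
  refine ⟨(congrFun e 0).symm.trans (by simp [Vm]), fun y => ?_⟩
  have := Vm_deriv p (hc ((hK p).fixedPoint (T p))) y
  rwa [e] at this

end Crest.Agent.R213.E
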