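import Crest.Agent.R213.E.Defs

/-! The comparison lemma on one substep.  Let `M* = max M (sup |E|)` (`E` is continuous on the
compact interval), `δ = M* - M ≥ 0`.  Monotonicity of `t ↦ M* t¹⁰/10 ∓ t¹⁰ A t`
(`monotoneOn_of_deriv_nonneg`, or `image_le_of_deriv_right_le_deriv_boundary`) gives
`t¹⁰ |A t| ≤ a y0¹⁰ + M* (t¹⁰ - y0¹⁰)/10 ≤ (a' + δ/10) t¹⁰` (the condition is affine in `t¹⁰`, true
at both ends); divide for `t > 0`, `t = y0` is the hypothesis.  Same for `G` with `b' + δ/110`.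
Mean value inequality: `|E t| ≤ e + (y1-y0)(r + κ(b' + δ/110)) ≤ M + q δ`, `q < 1`, so `δ = 0`. -/

set_option autoImplicit false
set_option linter.unusedVariables false
open Set Filter Topology

noncomputable section
namespace Crest.Agent.R213.E

theorem sub_int {E A : ℝ → ℝ} {y0 y1 a a' M δ : ℝ} (n : ℕ) (h0 : 0 ≤ y0) (hδ : 0 ≤ δ)
    (hA : ∀ t ∈ Icc y0 y1, HasDerivAt (fun t => t ^ (n + 1) * A t) (t ^ n * E t) t)
    (hE : ∀ t ∈ Icc y0 y1, |E t| ≤ M + δ) (ia : |A y0| ≤ a) (ha : a ≤ a')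
    (ha' : (n + 1) * a * y0 ^ (n + 1) + M * (y1 ^ (n + 1) - y0 ^ (n + 1)) ≤
      (n + 1) * a' * y1 ^ (n + 1)) :
    ∀ t ∈ Icc y0 y1, |A t| ≤ a' + δ / (n + 1) := by
  intro t ht
  have hn : (0:ℝ) < n + 1 := by positivity
  rcases ht.1.eq_or_lt with rfl | hlt
  · have : 0 ≤ δ / (n + 1) := by positivity
    linarith
  have htp : 0 < t := h0.trans_lt hlt
  have key : ‖t ^ (n + 1) * A t‖ ≤
      a * y0 ^ (n + 1) + (M + δ) / (n + 1) * (t ^ (n + 1) - y0 ^ (n + 1)) := by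
    refine image_norm_le_of_norm_deriv_right_le_deriv_boundary
      (f := fun t => t ^ (n + 1) * A t) (f' := fun t => t ^ n * E t)
      (fun s hs => (hA s hs).continuousAt.continuousWithinAt)
      (fun s hs => (hA s (Ico_subset_Icc_self hs)).hasDerivWithinAt)
      (B := fun t => a * y0 ^ (n + 1) + (M + δ) / (n + 1) * (t ^ (n + 1) - y0 ^ (n + 1)))
      (B' := fun t => t ^ n * (M + δ)) ?_ (fun s => ?_) (fun s hs => ?_) ht
    · simp only [sub_self, mul_zero, add_zero, Real.norm_eq_abs, abs_mul, abs_pow, abs_of_nonneg h0]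
      rw [mul_comm]
      exact mul_le_mul_of_nonneg_right ia (pow_nonneg h0 _)
    · have := (((hasDerivAt_pow (n + 1) s).sub_const (y0 ^ (n + 1))).const_mul
        ((M + δ) / (n + 1))).const_add (a * y0 ^ (n + 1))
      refine this.congr_deriv ?_
      rw [add_tsub_cancel_right]
      push_cast
      field_simp
    · have hs0 : 0 ≤ s := h0.trans hs.1
      rw [Real.norm_eq_abs, abs_mul, abs_pow, abs_of_nonneg hs0]
      exact mul_le_mul_of_nonneg_left (hE s (Ico_subset_Icc_self hs)) (pow_nonneg hs0 _)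
  rw [Real.norm_eq_abs, abs_mul, abs_pow, abs_of_pos htp] at key
  have hs0 : 0 ≤ y0 ^ (n + 1) := pow_nonneg h0 _
  have h1 : y0 ^ (n + 1) ≤ t ^ (n + 1) := pow_le_pow_left₀ h0 ht.1 _
  have h2 : t ^ (n + 1) ≤ y1 ^ (n + 1) := pow_le_pow_left₀ htp.le ht.2 _
  have hp : 0 < t ^ (n + 1) := pow_pos htp _
  generalize y0 ^ (n + 1) = s0 at *
  generalize y1 ^ (n + 1) = s1 at *
  generalize t ^ (n + 1) = s at *
  generalize (n:ℝ) + 1 = N at *
  have h3 : N * a * s0 + M * (s - s0) ≤ N * a' * s := by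
    have h4 : N * a * s0 ≤ N * a' * s0 :=
      mul_le_mul_of_nonneg_right (mul_le_mul_of_nonneg_left ha hn.le) hs0
    rcases le_total M (N * a') with h | h
    · nlinarith [mul_nonneg (sub_nonneg.2 h) (sub_nonneg.2 h1)]
    · nlinarith [mul_nonneg (sub_nonneg.2 h) (sub_nonneg.2 h2)]
  refine le_of_mul_le_mul_left (key.trans ?_) hp
  have h5 : a * s0 + (M + δ) / N * (s - s0) = (N * a * s0 + M * (s - s0) + δ * (s - s0)) / N := by
    field_simp; ring
  have h6 : s * (a' + δ / N) = (N * a' * s + δ * s) / N := by field_simp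
  rw [h5, h6]
  refine div_le_div_of_nonneg_right ?_ hn.le
  nlinarith [mul_nonneg hδ hs0]

theorem substep {E A G : ℝ → ℝ} {y0 y1 e a b M a' b' r κ : ℝ} (h0 : 0 ≤ y0) (h01 : y0 ≤ y1)
    (hκ : 0 ≤ κ)
    (hE : ∀ t ∈ Icc y0 y1, ∃ d, HasDerivAt E d t ∧ |d| ≤ r + κ * |G t|)
    (hA : ∀ t ∈ Icc y0 y1, HasDerivAt (fun t => t ^ 10 * A t) (t ^ 9 * E t) t)
    (hG : ∀ t ∈ Icc y0 y1, HasDerivAt (fun t => t ^ 11 * G t) (t ^ 10 * A t) t)
    (ie : |E y0| ≤ e) (ia : |A y0| ≤ a) (ib : |G y0| ≤ b)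
    (ha : a ≤ a') (ha' : 10 * a * y0 ^ 10 + M * (y1 ^ 10 - y0 ^ 10) ≤ 10 * a' * y1 ^ 10)
    (hb : b ≤ b') (hb' : 11 * b * y0 ^ 11 + a' * (y1 ^ 11 - y0 ^ 11) ≤ 11 * b' * y1 ^ 11)
    (hr : 0 ≤ r) (hM : e + (y1 - y0) * (r + κ * b') ≤ M) (hk : (y1 - y0) * κ < 110) :
    ∀ t ∈ Icc y0 y1, |E t| ≤ M ∧ |A t| ≤ a' ∧ |G t| ≤ b' := by
  have hEc : ContinuousOn (fun t => |E t|) (Icc y0 y1) := fun t ht =>
    (hE t ht).choose_spec.1.continuousAt.continuousWithinAt.abs
  obtain ⟨t0, ht0, hmax⟩ := isCompact_Icc.exists_isMaxOn (nonempty_Icc.2 h01) hEc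
  set δ := max (|E t0| - M) 0 with hδ
  have hδ0 : 0 ≤ δ := le_max_right _ _
  have hEM : ∀ t ∈ Icc y0 y1, |E t| ≤ M + δ := fun t ht => by
    have h1 : |E t| ≤ |E t0| := hmax ht
    have h2 : |E t0| - M ≤ δ := le_max_left _ _
    linarith
  have hA' := sub_int 9 h0 hδ0 hA hEM ia ha (by push_cast; norm_num; linarith)
  have hG' := sub_int 10 h0 (by positivity) hG hA' ib hb (by push_cast; norm_num; linarith)
  have hb0 : 0 ≤ b' := (abs_nonneg _).trans (ib.trans hb)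
  have hE' : ∀ t ∈ Icc y0 y1, |E t| ≤ M + (y1 - y0) * κ / 110 * δ := fun t ht => by
    have h1 := norm_image_sub_le_of_norm_deriv_le_segment' (f := E) (f' := deriv E)
      (C := r + κ * (b' + δ / 110))
      (fun s hs => (hE s hs).choose_spec.1.differentiableAt.hasDerivAt.hasDerivWithinAt)
      (fun s hs => by
        obtain ⟨d, hd, hd'⟩ := hE s (Ico_subset_Icc_self hs)
        rw [hd.deriv, Real.norm_eq_abs]
        have := hG' s (Ico_subset_Icc_self hs)
        have h3 : |G s| ≤ b' + δ / 110 := by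
          refine this.trans (le_of_eq ?_)
          push_cast; ring
        nlinarith [mul_le_mul_of_nonneg_left h3 hκ]) t ht
    rw [Real.norm_eq_abs] at h1
    have h2 : (r + κ * (b' + δ / 110)) * (t - y0) ≤ (r + κ * (b' + δ / 110)) * (y1 - y0) :=
      mul_le_mul_of_nonneg_left (by linarith [ht.2]) (by positivity)
    have h3 := abs_sub_abs_le_abs_sub (E t) (E y0)
    nlinarith
  have hz : δ = 0 := by
    rcases le_total (|E t0| - M) 0 with h | h
    · exact max_eq_right h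
    · have h1 : δ = |E t0| - M := max_eq_left h
      have h2 := hE' t0 ht0
      have h3 : δ * (1 - (y1 - y0) * κ / 110) ≤ 0 := by nlinarith
      have h4 : 0 < 1 - (y1 - y0) * κ / 110 := by linarith
      exact le_antisymm (by by_contra h5; push Not at h5; nlinarith [mul_pos h5 h4]) hδ0
  intro t ht
  have h1 := hEM t ht
  have h2 := hA' t ht
  have h3 := hG' t ht
  rw [hz] at h1 h2 h3
  simp only [add_zero, zero_div] at h1 h2 h3
  exact ⟨h1, h2, h3⟩

end Crest.Agent.R213.E
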