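import Crest.Agent.R213.E.Psi

/-! The averaging operators `TT m` and the `θ`-jets of `F`.
`hasDerivAt_TT`: `y^(m+1) TT m φ y = ∫₀^y t^m φ t dt` (`intervalIntegral.integral_comp_mul_right`,
`y = 0` separately), then FTC (`Continuous.deriv_integral` / `integral_hasDerivAt_right`).
`hasDerivAt_gg`: `y^11 gg = y * (y^10 TT 9) - y^11 TT 10`.
`th_*`: for `y > 0`, `ga = (y^10 ga) / y^10`, so `θ ga = σ - 10 ga`, `θ gg = ga - 11 gg`
(`HasDerivAt.div`, `HasDerivAt.congr_of_eventuallyEq` on `Ioi 0`). -/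

set_option autoImplicit false
set_option linter.unusedVariables false
open Set Filter Topology

noncomputable section
namespace Crest.Agent.R213.E

theorem continuous_TT {P : Type*} [TopologicalSpace P] {S : P → ℝ → ℝ}
    (hS : Continuous fun q : P × ℝ => S q.1 q.2) (m : ℕ) :
    Continuous fun q : P × ℝ => TT m (S q.1) q.2 := by
  refine intervalIntegral.continuous_parametric_intervalIntegral_of_continuous'
    (f := fun (q : P × ℝ) (s : ℝ) => s ^ m * S q.1 (s * q.2)) ?_ 0 1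
  exact (continuous_snd.pow m).mul (hS.comp (f := fun r : (P × ℝ) × ℝ => (r.1.1, r.2 * r.1.2)) (by fun_prop))

theorem continuous_TT1 {φ : ℝ → ℝ} (h : Continuous φ) (m : ℕ) : Continuous (TT m φ) :=
  (continuous_TT (P := Unit) (S := fun _ => φ) (h.comp continuous_snd) m).comp
    (f := fun y : ℝ => ((), y)) (by fun_prop)

theorem TT_zero (φ : ℝ → ℝ) (m : ℕ) : TT m φ 0 = φ 0 / (m + 1) := by
  simp only [TT, mul_zero, intervalIntegral.integral_mul_const, integral_pow]
  simp [div_eq_inv_mul]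

theorem TT_sub {φ φ' : ℝ → ℝ} (h : Continuous φ) (h' : Continuous φ') (m : ℕ) (y : ℝ) :
    TT m φ y - TT m φ' y = TT m (fun t => φ t - φ' t) y := by
  rw [TT, TT, TT, ← intervalIntegral.integral_sub (Continuous.intervalIntegrable (by fun_prop) _ _)
    (Continuous.intervalIntegrable (by fun_prop) _ _)]
  simp only [mul_sub]

theorem abs_TT_le {φ : ℝ → ℝ} {y C : ℝ} (m : ℕ) (h : ∀ s ∈ Icc (0:ℝ) 1, |φ (s * y)| ≤ C) :
    |TT m φ y| ≤ C := by
  have h1 := intervalIntegral.norm_integral_le_of_norm_le_const (a := 0) (b := 1) (C := C)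
    (f := fun s => s ^ m * φ (s * y)) fun s hs => by
      rw [uIoc_of_le zero_le_one] at hs
      rw [Real.norm_eq_abs, abs_mul, abs_of_pos (pow_pos hs.1 m)]
      exact (mul_le_of_le_one_left (abs_nonneg _) (pow_le_one₀ hs.1.le hs.2)).trans (h s ⟨hs.1.le, hs.2⟩)
  simpa [TT] using h1

theorem volta_sub (φ : ℝ → ℝ) (n : ℕ) (y : ℝ) : y ^ (n + 1) * TT n φ y = ∫ t in (0:ℝ)..y, t ^ n * φ t := by
  have h := intervalIntegral.smul_integral_comp_mul_right (fun t => t ^ n * φ t) (a := 0) (b := 1) y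
  simp only [zero_mul, one_mul, smul_eq_mul] at h
  rw [← h, pow_succ', mul_assoc, TT, ← intervalIntegral.integral_const_mul]
  congr 1
  refine intervalIntegral.integral_congr fun s _ => ?_
  simp only [mul_pow]
  ring

theorem hasDerivAt_TT {φ : ℝ → ℝ} (h : Continuous φ) (m : ℕ) (y : ℝ) :
    HasDerivAt (fun y => y ^ (m + 1) * TT m φ y) (y ^ m * φ y) y := by
  simp only [volta_sub]
  exact (((continuous_pow m).mul h).integral_hasStrictDerivAt 0 y).hasDerivAt

theorem hasDerivAt_ga {σ : ℝ → ℝ} (h : Continuous σ) (y : ℝ) :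
    HasDerivAt (fun y => y ^ 10 * ga σ y) (y ^ 9 * σ y) y := hasDerivAt_TT h 9 y

theorem hasDerivAt_gg {σ : ℝ → ℝ} (h : Continuous σ) (y : ℝ) :
    HasDerivAt (fun y => y ^ 11 * gg σ y) (y ^ 10 * ga σ y) y := by
  have h1 := ((hasDerivAt_id y).mul (hasDerivAt_ga h y)).sub (hasDerivAt_TT h 10 y)
  refine (h1.congr_deriv (by simp only [id]; ring)).congr_of_eventuallyEq (Eventually.of_forall fun z => ?_)
  simp only [Pi.sub_apply, Pi.mul_apply, id, gg, ga]
  ring

theorem voltb_div {f : ℝ → ℝ} {y d : ℝ} {m : ℕ} (hy : 0 < y)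
    (h : HasDerivAt (fun y => y ^ (m + 1) * f y) (y ^ m * d) y) :
    HasDerivAt f ((d - (m + 1) * f y) / y) y := by
  have h2 := h.fun_div (hasDerivAt_pow (m + 1) y) (pow_pos hy _).ne'
  refine (h2.congr_of_eventuallyEq ?_).congr_deriv ?_
  · filter_upwards [eventually_gt_nhds hy] with x hx
    rw [mul_div_cancel_left₀ _ (pow_pos hx _).ne']
  · rw [Nat.add_sub_cancel]
    push_cast
    field_simp
    ring

theorem th_ga {σ : ℝ → ℝ} (h : Continuous σ) {y : ℝ} (hy : 0 < y) :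
    HasDerivAt (ga σ) ((σ y - 10 * ga σ y) / y) y := by
  refine (voltb_div hy (hasDerivAt_ga h y)).congr_deriv ?_
  norm_num

theorem th_gg {σ : ℝ → ℝ} (h : Continuous σ) {y : ℝ} (hy : 0 < y) :
    HasDerivAt (gg σ) ((ga σ y - 11 * gg σ y) / y) y := by
  refine (voltb_div hy (hasDerivAt_gg h y)).congr_deriv ?_
  norm_num

theorem th_FF {σ : ℝ → ℝ} (h : Continuous σ) {y : ℝ} (hy : 0 < y) :
    HasDerivAt (FF σ) (F1 σ y / y) y := by
  refine (((hasDerivAt_id' y).fun_mul (th_gg h hy)).const_sub 1).congr_deriv ?_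
  unfold F1
  field_simp
  ring

theorem th_F1 {σ : ℝ → ℝ} (h : Continuous σ) {y : ℝ} (hy : 0 < y) :
    HasDerivAt (F1 σ) (F2 σ y / y) y := by
  refine ((hasDerivAt_id' y).fun_mul ((th_ga h hy).fun_sub ((th_gg h hy).const_mul 10))).fun_neg.congr_deriv ?_
  unfold F2
  field_simp
  ring

theorem th_F2 {σ : ℝ → ℝ} (h : Continuous σ) {y d : ℝ} (hy : 0 < y) (hd : HasDerivAt σ d y) :
    HasDerivAt (F2 σ) ((-18 * F2 σ y - 71 * F1 σ y + 90 * FF σ y - 90 - y ^ 2 * d) / y) y := by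
  refine ((hasDerivAt_id' y).fun_mul ((hd.fun_sub ((th_ga h hy).const_mul 19)).fun_add
    ((th_gg h hy).const_mul 100))).fun_neg.congr_deriv ?_
  unfold F2 F1 FF
  field_simp
  ring

theorem IsSol.cont {a β : ℝ} {σ : ℝ → ℝ} (h : IsSol a β σ) : Continuous σ :=
  continuous_iff_continuousAt.2 fun y => (h.2 y).continuousAt

end Crest.Agent.R213.E
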