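import Crest.Agent.R213.E.Poly
import Crest.Agent.R213.E.Sub
import Crest.Agent.R213.E.Volt

/-! Soundness of the substep loop.
`sub_sound`: `y0 = C.y i`, `y1 = C.y (i+1)`, `lo y0 = l/(1000 D)` (`loI_cast`).  The first four
checks and `AppOK.rng` (affine in `t`: `t D/hn - k0 ∈ [2i, 2i+2]`) give
`lo y1 + 1/1000 ≤ Fa t ≤ hi y1 - 1/1000` for `Fa t = 1 - t g t` on `[y0, y1]`; by `lo_mono`, `hi_anti`,
`psi t (Fa t) = 1 / Fa t`.  Apply `substep` to `E = σ - s`, `A = ga σ - a`, `G = gg σ - g` with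
`r = tau/One + r0/(One lo y0)`, `κ = y1 / (2 (lo y0)²)`:
`E' = (β - β') - (psi t F - psi t Fa)/2 - (T Fa + 1/2)/Fa`, `psi_slope`, `F - Fa = -t G`.
The integer checks are the hypotheses of `substep` multiplied by positive factors
(`y0 = c k`, `y1 = c (k+2)`, `c = hn/D`).  The last check gives `|F - Fa| ≤ 1/1000`. -/

set_option autoImplicit false
set_option linter.unusedVariables false
open Set Filter Topology

noncomputable section
namespace Crest.Agent.R213.E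

theorem loI_cast (y D : ℤ) (hD : 0 < D) : (loI y D : ℝ) = 1000 * D * lo (y / D) := by
  have h0 : (0:ℝ) < D := by exact_mod_cast hD
  have h1 : (0:ℝ) ≤ 1000 * D := by positivity
  unfold loI lo
  push_cast
  simp only [mul_max_of_nonneg _ _ h1, mul_min_of_nonneg _ _ h1]
  congr 1
  · ring
  · congr 1
    · congr 1 <;> field_simp
    · congr 1
      · congr 1 <;> field_simp
      · ring

theorem hiI_cast (y D : ℤ) (hD : 0 < D) : (hiI y D : ℝ) = 1000 * D * hi (y / D) := by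
  have h0 : (0:ℝ) < D := by exact_mod_cast hD
  have h1 : (0:ℝ) ≤ 1000 * D := by positivity
  unfold hiI hi
  push_cast
  simp only [mul_max_of_nonneg _ _ h1]
  congr 1
  · ring
  · field_simp

theorem loopa_y_mono (C : PC) {i j : ℕ} (h : i ≤ j) : C.y i ≤ C.y j := by
  have : (i : ℝ) ≤ j := by exact_mod_cast h
  unfold PC.y
  gcongr

/-- the range of the approximate `F` on a substep -/
theorem sub_range {C : PC} {β : ℝ} {g a s : ℝ → ℝ} (hA : AppOK C β g a s) {i : ℕ} (hin : i < C.n)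
    {e a' b M a'' b'' : ℤ} (hok : subOK C i e a' b M a'' b'' = true) {t : ℝ}
    (ht : t ∈ Icc (C.y i) (C.y (i + 1))) :
    lo (C.y (i + 1)) + 1 / 1000 ≤ 1 - t * g t ∧ 1 - t * g t ≤ hi (C.y (i + 1)) - 1 / 1000 := by
  have hn : (0:ℝ) < C.hn := by exact_mod_cast hA.hn_pos
  have hD : (0:ℝ) < C.D := by exact_mod_cast hA.D_pos
  have hD' : (0:ℤ) < C.D := by exact_mod_cast hA.D_pos
  have hO := One_pos
  have hr := abs_le.1 (hA.rng t ⟨(loopa_y_mono C (Nat.zero_le i)).trans ht.1,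
    ht.2.trans (loopa_y_mono C hin)⟩)
  simp only [subOK, Bool.and_eq_true, decide_eq_true_eq] at hok
  obtain ⟨⟨⟨⟨⟨⟨⟨⟨⟨⟨c1, c2⟩, c3⟩, c4⟩, -⟩, -⟩, -⟩, -⟩, -⟩, -⟩, -⟩ := hok
  have ey : (((C.hn : ℤ) * ((C.k0 + 2 * i + 2 : ℕ) : ℤ) : ℤ) : ℝ) / ((C.D : ℤ) : ℝ) = C.y (i + 1) := by
    unfold PC.y; push_cast; ring
  have el := loI_cast (C.hn * ((C.k0 + 2 * i + 2 : ℕ) : ℤ)) C.D hD'
  have eh := hiI_cast (C.hn * ((C.k0 + 2 * i + 2 : ℕ) : ℤ)) C.D hD'
  rw [ey] at el eh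
  have d1 := (Int.cast_le (R := ℝ)).2 c1
  have d2 := (Int.cast_le (R := ℝ)).2 c2
  have d3 := (Int.cast_le (R := ℝ)).2 c3
  have d4 := (Int.cast_le (R := ℝ)).2 c4
  simp only [Int.cast_mul, Int.cast_add, Int.cast_sub, Int.cast_natCast, Int.cast_ofNat, el, eh]
    at d1 d2 d3 d4
  have u1 : 2 * (i:ℝ) ≤ t * C.D / C.hn - C.k0 := by
    have := ht.1
    unfold PC.y at this
    rw [div_le_iff₀ hD] at this
    rw [le_sub_iff_add_le, le_div_iff₀ hn]
    linarith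
  have u2 : t * C.D / C.hn - C.k0 ≤ 2 * (i:ℝ) + 2 := by
    have := ht.2
    unfold PC.y at this
    rw [le_div_iff₀ hD] at this
    rw [sub_le_iff_le_add, div_le_iff₀ hn]
    push_cast at this
    linarith
  generalize t * C.D / C.hn - C.k0 = u at hr u1 u2
  have hDO : (0:ℝ) < C.D * (One : ℝ) := by positivity
  have v1 : (1000 * C.D * lo (C.y (i + 1)) + C.D) * (One : ℝ) ≤
      1000 * (C.n * C.f0 + C.f1 * (u - C.n) - C.n * C.rest) := by
    rcases le_total 0 (C.f1 : ℝ) with h | h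
    · nlinarith [mul_le_mul_of_nonneg_left u1 h]
    · nlinarith [mul_le_mul_of_nonpos_left u2 h]
  have v2 : 1000 * (C.n * C.f0 + C.f1 * (u - C.n) + C.n * C.rest) ≤
      (1000 * C.D * hi (C.y (i + 1)) - C.D) * (One : ℝ) := by
    rcases le_total 0 (C.f1 : ℝ) with h | h
    · nlinarith [mul_le_mul_of_nonneg_left u2 h]
    · nlinarith [mul_le_mul_of_nonpos_left u1 h]
  have w1 : lo (C.y (i + 1)) + 1 / 1000 ≤
      (C.n * C.f0 + C.f1 * (u - C.n)) / (C.D * (One : ℝ)) - C.n * C.rest / (C.D * (One : ℝ)) := by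
    rw [← sub_div, le_div_iff₀ hDO]
    linarith
  have w2 : (C.n * C.f0 + C.f1 * (u - C.n)) / (C.D * (One : ℝ)) + C.n * C.rest / (C.D * (One : ℝ)) ≤
      hi (C.y (i + 1)) - 1 / 1000 := by
    rw [← add_div, div_le_iff₀ hDO]
    linarith
  constructor <;> linarith [hr.1, hr.2]

theorem loopb_pow {c O K a M a' m : ℝ} {n : ℕ} (hc : 0 < c) (hO : 0 < O)
    (h : m * a * K ^ n + M * ((K + 2) ^ n - K ^ n) ≤ m * a' * (K + 2) ^ n) :
    m * (a / O) * (c * K) ^ n + M / O * ((c * (K + 2)) ^ n - (c * K) ^ n) ≤ m * (a' / O) * (c * (K + 2)) ^ n := by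
  have := mul_le_mul_of_nonneg_left h (div_pos (pow_pos hc n) hO).le
  simp only [mul_pow]
  exact (Eq.trans_le (by ring) this).trans_eq (by ring)

theorem loopb_num {c D O L K e r0 tau b M : ℝ} (hD : 0 < D) (hO : 0 < O) (hL : 0 < L)
    (h9 : e * D * (1000 * D * L) ^ 2 + 2000 * (c * D) * r0 * D * (1000 * D * L) +
      2 * (c * D) * tau * (1000 * D * L) ^ 2 + 1000000 * (c * D) ^ 2 * (K + 2) * b * D ≤ M * D * (1000 * D * L) ^ 2)
    (h10 : 1000000 * (c * D) ^ 2 * (K + 2) < 110 * (1000 * D * L) ^ 2)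
    (h11 : 1000 * (c * D) * (K + 2) * b ≤ D * O) :
    e / O + (c * (K + 2) - c * K) * (tau / O + r0 / O / L + c * (K + 2) / (2 * L ^ 2) * (b / O)) ≤ M / O ∧
      (c * (K + 2) - c * K) * (c * (K + 2) / (2 * L ^ 2)) < 110 ∧ c * (K + 2) * (b / O) ≤ 1 / 1000 := by
  refine ⟨?_, ?_, ?_⟩
  · refine (Eq.trans_le ?_ (div_le_div_of_nonneg_right h9
      (show 0 ≤ D * (1000 * D * L) ^ 2 * O by positivity))).trans_eq ?_ <;> field_simp
    ring
  · refine (Eq.trans_lt ?_ (div_lt_div_of_pos_right h10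
      (show 0 < (1000 * D * L) ^ 2 by positivity))).trans_eq ?_ <;> field_simp
    ring
  · refine (Eq.trans_le ?_ (div_le_div_of_nonneg_right h11
      (show 0 ≤ 1000 * D * O by positivity))).trans_eq ?_ <;> field_simp

theorem sub_sound {C : PC} {a0 β : ℝ} {σ g a s : ℝ → ℝ} (hs : IsSol a0 β σ) (hA : AppOK C β g a s)
    {i : ℕ} (hin : i < C.n) {e a' b M a'' b'' : ℤ} (hok : subOK C i e a' b M a'' b'' = true)
    (hE : Err σ g a s (C.y i) e a' b) :
    Err σ g a s (C.y (i + 1)) M a'' b'' ∧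
      ∀ t ∈ Icc (C.y i) (C.y (i + 1)), lo t ≤ FF σ t ∧ FF σ t ≤ hi t := by
  have hR := fun t ht => sub_range hA hin hok (t := t) ht
  simp only [subOK, Bool.and_eq_true, decide_eq_true_eq] at hok
  obtain ⟨⟨⟨⟨⟨⟨⟨-, c5⟩, c6⟩, c7⟩, c8⟩, c9⟩, c10⟩, c11⟩ := hok
  have hD : (0 : ℝ) < C.D := by exact_mod_cast hA.D_pos
  have hO := One_pos
  obtain ⟨c, hc0, hc⟩ : ∃ c : ℝ, 0 < c ∧ (C.hn : ℝ) = c * C.D :=
    ⟨C.hn / C.D, div_pos (by exact_mod_cast hA.hn_pos) hD, (div_mul_cancel₀ _ hD.ne').symm⟩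
  have hy : ∀ j : ℕ, C.y j = c * (C.k0 + 2 * j) := fun j => by
    rw [PC.y, hc]
    field_simp
  have hy1 : C.y (i + 1) = c * (C.k0 + 2 * i + 2) := by
    rw [hy]
    push_cast
    ring
  have hm : ∀ j k : ℕ, j ≤ k → C.y j ≤ C.y k := fun j k h => by
    have : (j : ℝ) ≤ k := by exact_mod_cast h
    rw [hy, hy]
    gcongr
  have h0 : 0 ≤ C.y i := by
    rw [hy]
    positivity
  have hI : ∀ t ∈ Icc (C.y i) (C.y (i + 1)), t ∈ Icc (C.y 0) (C.y C.n) := fun t ht =>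
    ⟨(hm _ _ i.zero_le).trans ht.1, ht.2.trans (hm _ _ hin)⟩
  have hl := loI_cast (C.hn * (C.k0 + 2 * i : ℕ)) C.D (by exact_mod_cast hA.D_pos)
  have hl' : ((C.hn * (C.k0 + 2 * i : ℕ) : ℤ) : ℝ) / ((C.D : ℤ) : ℝ) = C.y i := by
    rw [PC.y]
    push_cast
    rfl
  rw [hl'] at hl
  generalize loI (C.hn * (C.k0 + 2 * i : ℕ)) C.D = l at hl c9 c10
  have hL : 0 < lo (C.y i) := lt_of_lt_of_le (by norm_num) (lo_ge _)
  have d5 := (Int.cast_le (R := ℝ)).2 c5
  have d6 := (Int.cast_le (R := ℝ)).2 c6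
  have d7 := (Int.cast_le (R := ℝ)).2 c7
  have d8 := (Int.cast_le (R := ℝ)).2 c8
  have d9 := (Int.cast_le (R := ℝ)).2 c9
  have d10 := (Int.cast_lt (R := ℝ)).2 c10
  have d11 := (Int.cast_le (R := ℝ)).2 c11
  push_cast at d6 d8 d9 d10 d11 hl
  rw [hl, hc] at d9 d10
  rw [hc] at d11
  obtain ⟨m9, m10, m11⟩ := loopb_num hD hO hL d9 d10 d11
  obtain ⟨T0, β0, -, t1, t2⟩ := hA.d3 _ (hI _ ⟨le_rfl, hm _ _ i.le_succ⟩)
  have hκ : 0 ≤ C.y (i + 1) / (2 * lo (C.y i) ^ 2) := div_nonneg (h0.trans (hm _ _ i.le_succ)) (by positivity)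
  have main := substep (E := fun t => σ t - s t) (A := fun t => ga σ t - a t) (G := fun t => gg σ t - g t)
    (M := M / (One : ℝ)) (a' := a'' / (One : ℝ)) (b' := b'' / (One : ℝ))
    (r := C.tau / (One : ℝ) + C.r0 / (One : ℝ) / lo (C.y i)) h0 (hm _ _ i.le_succ) hκ (fun t ht => ?_)
    (fun t _ => by simpa only [mul_sub] using (hasDerivAt_ga hs.cont t).fun_sub (hA.d2 t))
    (fun t _ => by simpa only [mul_sub] using (hasDerivAt_gg hs.cont t).fun_sub (hA.d1 t))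
    hE.1 hE.2.1 hE.2.2 (div_le_div_of_nonneg_right d5 hO.le) (by rw [hy1, hy i]; exact loopb_pow hc0 hO d6)
    (div_le_div_of_nonneg_right d7 hO.le) (by rw [hy1, hy i]; exact loopb_pow hc0 hO d8)
    (add_nonneg ((abs_nonneg _).trans t1) (div_nonneg ((abs_nonneg _).trans t2) hL.le))
    (by rw [hy1]; generalize lo (C.y i) = L at m9 ⊢; rw [hy i]; exact m9)
    (by rw [hy1]; generalize lo (C.y i) = L at m10 ⊢; rw [hy i]; exact m10)
  · refine ⟨main _ ⟨hm _ _ i.le_succ, le_rfl⟩, fun t ht => ?_⟩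
    have h1 : |t * (gg σ t - g t)| ≤ 1 / 1000 := by
      rw [abs_mul, abs_of_nonneg (h0.trans ht.1)]
      refine (mul_le_mul ht.2 (main t ht).2.2 (abs_nonneg _) (h0.trans (hm _ _ i.le_succ))).trans ?_
      rwa [hy1]
    obtain ⟨h2, h3⟩ := abs_le.1 h1
    obtain ⟨h4, h5⟩ := hR t ht
    have h6 := lo_mono ht.2
    have h7 := hi_anti ht.2
    rw [FF]
    constructor <;> linarith
  obtain ⟨T, β', hd, t1, t2⟩ := hA.d3 t (hI t ht)
  refine ⟨_, (hs.2 t).sub hd, ?_⟩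
  obtain ⟨h4, h5⟩ := hR t ht
  have h6 := lo_mono ht.2
  have h7 := hi_anti ht.2
  have h8 := lo_mono ht.1
  obtain ⟨V, v1, v2, v3⟩ := psi_slope t (FF σ t) (1 - t * g t)
  rw [psi_eq (F := 1 - t * g t) (by linarith) (by linarith)] at v3
  have hF : lo (C.y i) ≤ 1 - t * g t := by linarith
  have hF0 := hL.trans_le hF
  have hV0 : 0 ≤ V := le_trans (by positivity) v1
  have hV : V ≤ 1 / lo (C.y i) ^ 2 := v2.trans (one_div_le_one_div_of_le (by positivity) (by gcongr))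
  have e1 : β - psi t (FF σ t) / 2 - (T + β') =
      (β - β') - (T * (1 - t * g t) + 1 / 2) / (1 - t * g t) - V * t / 2 * (gg σ t - g t) := by
    rw [sub_eq_iff_eq_add.1 v3, FF]
    field_simp
    ring
  have e2 : |(T * (1 - t * g t) + 1 / 2) / (1 - t * g t)| ≤ C.r0 / (One : ℝ) / lo (C.y i) := by
    rw [abs_div, abs_of_pos hF0]
    exact div_le_div₀ ((abs_nonneg _).trans t2) t2 hL hF
  have e3 : |V * t / 2 * (gg σ t - g t)| ≤ C.y (i + 1) / (2 * lo (C.y i) ^ 2) * |gg σ t - g t| := by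
    have ht0 := h0.trans ht.1
    rw [abs_mul, abs_of_nonneg (by positivity)]
    refine mul_le_mul_of_nonneg_right ((div_le_div_of_nonneg_right
      (mul_le_mul hV ht.2 ht0 (by positivity)) zero_le_two).trans_eq ?_) (abs_nonneg _)
    ring
  rw [e1]
  exact (abs_sub _ _).trans (add_le_add ((abs_sub _ _).trans (add_le_add t1 e2)) e3)

/-- induction on `j` generalizing `i e a' b`; `force_eq`, `forceI_eq` -/
theorem loop_sound {C : PC} {a0 β : ℝ} {σ g a s : ℝ → ℝ} (hs : IsSol a0 β σ) (hA : AppOK C β g a s)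
    (j : ℕ) {i : ℕ} (hi' : i + j = C.n) {e a' b : ℤ} {r : ℤ × ℤ × ℤ}
    (h : loop C j i e a' b = some r) (hE : Err σ g a s (C.y i) e a' b) :
    Err σ g a s (C.y C.n) r.1 r.2.1 r.2.2 ∧
      ∀ t ∈ Ioc (C.y i) (C.y C.n), lo t ≤ FF σ t ∧ FF σ t ≤ hi t := by
  induction j generalizing i e a' b with
  | zero =>
    obtain rfl : i = C.n := hi'
    obtain rfl : (e, a', b) = r := by simpa only [loop, Option.some.injEq] using h
    exact ⟨hE, fun t ht => absurd ht.1 (not_lt.2 ht.2)⟩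
  | succ j ih =>
    simp only [loop, forceI_eq, force_eq] at h
    generalize candM C i e a' b = M at h
    generalize candA (C.k0 + 2 * i) a' M = a'' at h
    generalize candB (C.k0 + 2 * i) b a'' = b'' at h
    cases hok : subOK C i e a' b M a'' b'' with
    | false => simp [hok] at h
    | true =>
      rw [hok, cond_true] at h
      obtain ⟨h1, h2⟩ := sub_sound hs hA (by omega) hok hE
      obtain ⟨h3, h4⟩ := ih (by omega) h h1
      refine ⟨h3, fun t ht => ?_⟩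
      rcases le_or_gt t (C.y (i + 1)) with h5 | h5
      · exact h2 t ⟨ht.1.le, h5⟩
      · exact h4 t ⟨h5, ht.2⟩

end Crest.Agent.R213.E
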