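import Crest.Agent.R213.E.Data

/-! Row 213, block E: kernel evaluation of the certificate. -/

set_option autoImplicit false
set_option maxRecDepth 100000

namespace Crest.Agent.R213.E

theorem run0 : step QQ N0 P0 = some N1 := by decide +kernel
theorem run1 : step QQ N1 P1 = some N2 := by decide +kernel
theorem run2 : step QQ N2 P2 = some N3 := by decide +kernel
theorem run3 : step QQ N3 P3 = some N4 := by decide +kernel
theorem run4 : step QQ N4 P4 = some N5 := by decide +kernel
theorem run5 : step QQ N5 P5 = some N6 := by decide +kernel
theorem run6 : step QQ N6 P6 = some N7 := by decide +kernel
theorem run7 : step QQ N7 P7 = some N8 := by decide +kernel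
theorem run8 : step QQ N8 P8 = some N9 := by decide +kernel
theorem run9 : step QQ N9 P9 = some N10 := by decide +kernel
theorem run10 : step QQ N10 P10 = some N11 := by decide +kernel
theorem run11 : step QQ N11 P11 = some N12 := by decide +kernel
theorem run12 : step QQ N12 P12 = some N13 := by decide +kernel
theorem run13 : step QQ N13 P13 = some N14 := by decide +kernel
theorem run14 : step QQ N14 P14 = some N15 := by decide +kernel
theorem run15 : step QQ N15 P15 = some N16 := by decide +kernel
theorem run16 : step QQ N16 P16 = some N17 := by decide +kernel
theorem run17 : step QQ N17 P17 = some N18 := by decide +kernel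
theorem run_asym : asymOK PP = true := by decide +kernel
theorem run_fin : finOK N18 PP w1 w2 = true := by decide +kernel
theorem run_par : parOK QQ PP w1 w2 = true := by decide +kernel

end Crest.Agent.R213.E
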