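import Crest.Agent.R213.E.Cone
import Crest.Agent.Lib.Brouwer.Basic

/-! The shooting argument.
`shoot_fin`: on `‖x‖ = 1` (sup norm) `max |v₁| |v₂| ≥ 9/4`, `q(v) ≥ (3/4) vᵢ²`, so
`3 Lam = q(v) - u² ≥ 3`, hence (`lam_grow`) `Lam ≥ 1` and `v ≠ 0` for all `z ≥ z0`
(`v = 0` gives `Lam = -u²/3 ≤ 0`).  If `v(S; x) ≠ 0` on the whole ball, apply
`Brouwer.false_of_homotopy` to `F x = v(s x; ρ x)`, `G = id`, where
`ρ x = (2 / max 1 (2‖x‖)) • x`, `s x = z0 + (S - z0) * min 1 (2 - 2‖x‖)`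
(`‖x‖ ≤ 1/2`: `s = S`; `‖x‖ ≥ 1/2`: `‖ρ x‖ = 1`; `‖x‖ = 1`: `ρ x = x`, `s = z0`,
`‖F x - 3 x‖ ≤ 3/4`).  So `v(S; x) = 0` for some `x`, and `lam_grow` forbids `Lam ≥ 1` before `S`.
`shoot`: the sets `{x ∈ ball | ∀ z ∈ [z0, z0+n], Lam ≤ 1}` are closed, nested, nonempty
(`IsCompact.nonempty_iInter_of_sequence_nonempty_isCompact_isClosed`); then `u_bound`, `U = 1`. -/

set_option autoImplicit false
set_option linter.unusedVariables false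
open Set Filter Topology Metric

noncomputable section
namespace Crest.Agent.R213.E

variable {X0 X1 X2 : ℝ × ℝ → ℝ → ℝ} {z0 : ℝ}

theorem shoot_fin
    (c0 : ContinuousOn (fun q : (ℝ × ℝ) × ℝ => X0 q.1 q.2) (closedBall 0 1 ×ˢ Ici z0))
    (c1 : ContinuousOn (fun q : (ℝ × ℝ) × ℝ => X1 q.1 q.2) (closedBall 0 1 ×ˢ Ici z0))
    (c2 : ContinuousOn (fun q : (ℝ × ℝ) × ℝ => X2 q.1 q.2) (closedBall 0 1 ×ˢ Ici z0))
    (ht : ∀ x ∈ closedBall (0 : ℝ × ℝ) 1, Tail (X0 x) (X1 x) (X2 x) z0 1)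
    (hi : ∀ x ∈ closedBall (0 : ℝ × ℝ) 1, |X0 x z0 + X1 x z0 - 3 * x.1| ≤ 3 / 4 ∧
      |X1 x z0 + X2 x z0 - 3 * x.2| ≤ 3 / 4 ∧ |X0 x z0 - X1 x z0 + X2 x z0| ≤ 3 / 4)
    {S : ℝ} (hS : z0 ≤ S) :
    ∃ x ∈ closedBall (0 : ℝ × ℝ) 1, ∀ z ∈ Icc z0 S, Lam (X0 x z) (X1 x z) (X2 x z) ≤ 1 := by
  sorry

theorem shootb_cont {X : ℝ × ℝ → ℝ → ℝ}
    (c : ContinuousOn (fun q : (ℝ × ℝ) × ℝ => X q.1 q.2) (closedBall 0 1 ×ˢ Ici z0)) {z : ℝ} (hz : z0 ≤ z) :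
    ContinuousOn (fun x => X x z) (closedBall 0 1) :=
  c.comp (f := fun x => (x, z)) (by fun_prop) fun x hx => ⟨hx, hz⟩

theorem shoot
    (c0 : ContinuousOn (fun q : (ℝ × ℝ) × ℝ => X0 q.1 q.2) (closedBall 0 1 ×ˢ Ici z0))
    (c1 : ContinuousOn (fun q : (ℝ × ℝ) × ℝ => X1 q.1 q.2) (closedBall 0 1 ×ˢ Ici z0))
    (c2 : ContinuousOn (fun q : (ℝ × ℝ) × ℝ => X2 q.1 q.2) (closedBall 0 1 ×ˢ Ici z0))
    (ht : ∀ x ∈ closedBall (0 : ℝ × ℝ) 1, Tail (X0 x) (X1 x) (X2 x) z0 1)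
    (hi : ∀ x ∈ closedBall (0 : ℝ × ℝ) 1, |X0 x z0 + X1 x z0 - 3 * x.1| ≤ 3 / 4 ∧
      |X1 x z0 + X2 x z0 - 3 * x.2| ≤ 3 / 4 ∧ |X0 x z0 - X1 x z0 + X2 x z0| ≤ 3 / 4) :
    ∃ x ∈ closedBall (0 : ℝ × ℝ) 1, ∀ z, z0 ≤ z →
      |X0 x z| ≤ 2 ∧ |X1 x z| ≤ 2 ∧ |X2 x z| ≤ 2 := by
  set K : ℕ → Set (ℝ × ℝ) := fun n => closedBall 0 1 ∩
    ⋂ z ∈ Icc z0 (z0 + n), (closedBall 0 1 ∩ (fun x => Lam (X0 x z) (X1 x z) (X2 x z)) ⁻¹' Iic 1) with hK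
  have hcl : ∀ n, IsClosed (K n) := fun n => by
    refine isClosed_closedBall.inter (isClosed_biInter fun z hz => ?_)
    have a0 := shootb_cont c0 hz.1
    have a1 := shootb_cont c1 hz.1
    have a2 := shootb_cont c2 hz.1
    exact ContinuousOn.preimage_isClosed_of_isClosed (((a0.mul a1).add (a1.mul a2)).sub (a0.mul a2))
      isClosed_closedBall isClosed_Iic
  have hne : ∀ n, (K n).Nonempty := fun n => by
    obtain ⟨x, hx, h⟩ := shoot_fin c0 c1 c2 ht hi (S := z0 + n) (le_add_of_nonneg_right n.cast_nonneg)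
    exact ⟨x, hx, mem_iInter₂.2 fun z hz => ⟨hx, h z hz⟩⟩
  have hmono : ∀ n, K (n + 1) ⊆ K n := fun n x hx =>
    ⟨hx.1, mem_iInter₂.2 fun z hz => mem_iInter₂.1 hx.2 z ⟨hz.1, hz.2.trans (by push_cast; linarith)⟩⟩
  obtain ⟨x, hx⟩ := IsCompact.nonempty_iInter_of_sequence_nonempty_isCompact_isClosed K hmono hne
    ((isCompact_closedBall 0 1).of_isClosed_subset (hcl 0) inter_subset_left) hcl
  have hx0 : x ∈ closedBall (0 : ℝ × ℝ) 1 := (mem_iInter.1 hx 0).1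
  refine ⟨x, hx0, fun z hz => ?_⟩
  have hL : ∀ z, z0 ≤ z → Lam (X0 x z) (X1 x z) (X2 x z) ≤ 1 ^ 2 := fun z hz => by
    obtain ⟨n, hn⟩ := exists_nat_ge (z - z0)
    rw [one_pow]
    exact (mem_iInter₂.1 (mem_iInter.1 hx n).2 z ⟨hz, by linarith⟩).2
  have h0 : (X0 x z0 - X1 x z0 + X2 x z0) ^ 2 ≤ 1 ^ 2 :=
    sq_le_sq' (by linarith [(abs_le.1 (hi x hx0).2.2).1]) (by linarith [(abs_le.1 (hi x hx0).2.2).2])
  have h := u_bound one_pos (ht x hx0) le_rfl hL h0 hz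
  have p0 := sq_nonneg (X0 x z)
  have p1 := sq_nonneg (X1 x z)
  have p2 := sq_nonneg (X2 x z)
  exact ⟨abs_le_of_sq_le_sq (by linarith) (by norm_num), abs_le_of_sq_le_sq (by linarith) (by norm_num),
    abs_le_of_sq_le_sq (by linarith) (by norm_num)⟩

end Crest.Agent.R213.E
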