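import Crest.Agent.R213.E.App
import Crest.Agent.R213.E.Loop

/-! Soundness of `step`: unfold (`forceI_eq`), `resN ≤ (resN / d + 1) d` (`Int.lt_ediv_add_one_mul_self`),
`appOK`, `y_zero`, `app_left` + `aff_jump` give `Err` at the left end, `loop_sound`, `y_last`,
`app_right`.  `inv_zero`: `TT_zero`, `FF σ 0 = 1`. -/

set_option autoImplicit false
set_option linter.unusedVariables false
open Set Filter Topology

noncomputable section
namespace Crest.Agent.R213.E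

theorem aff_jump (v0 v1 v2 : ℤ) (p0 p1 p2 : List ℤ) {x : ℝ × ℝ} (h1 : |x.1| ≤ 1) (h2 : |x.2| ≤ 1) :
    |aff v0 v1 v2 x - aff (atm p0) (atm p1) (atm p2) x| ≤ jump v0 v1 v2 p0 p1 p2 / (One : ℝ) := by
  rw [aff, aff, ← sub_div, abs_div, abs_of_pos One_pos, jump]
  refine div_le_div_of_nonneg_right ?_ One_pos.le
  have e : (v0 : ℝ) + x.1 * v1 + x.2 * v2 - (atm p0 + x.1 * atm p1 + x.2 * atm p2) =
      (v0 - atm p0) + x.1 * (v1 - atm p1) + x.2 * (v2 - atm p2) := by ring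
  rw [e]
  push_cast
  refine (abs_add_three _ _ _).trans (add_le_add_three le_rfl ?_ ?_) <;> rw [abs_mul]
  exacts [mul_le_of_le_one_left (abs_nonneg _) h1, mul_le_of_le_one_left (abs_nonneg _) h2]

theorem step_tri {u v w : ℝ} {e j : ℤ} (h1 : |u - v| ≤ e / (One : ℝ)) (h2 : |v - w| ≤ j / (One : ℝ)) :
    |u - w| ≤ (e + j : ℤ) / (One : ℝ) := by
  rw [Int.cast_add, add_div]
  exact (abs_sub_le u v w).trans (add_le_add h1 h2)

theorem step_sound {Q : Par} {N N' : Node} {P : Piece} (h : step Q N P = some N') {x : ℝ × ℝ}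
    (h1 : |x.1| ≤ 1) (h2 : |x.2| ≤ 1) {a0 β : ℝ} {σ : ℝ → ℝ} (hs : IsSol a0 β σ)
    (hβ : |β - aff Q.B0 Q.B1 Q.B2 x| ≤ Q.tau / (One : ℝ)) (hN : Inv N x σ) : Inv N' x σ := by
  rw [step, forceI_eq, Bool.cond_eq_ite] at h
  split_ifs at h with hc
  simp only [Bool.and_eq_true, decide_eq_true_eq] at hc
  obtain ⟨⟨⟨⟨hn, hd⟩, hp⟩, hy⟩, he⟩ := hc
  obtain ⟨r, hr, rfl⟩ := Option.map_eq_some_iff.1 h
  have hA := appOK Q P hn hd hp (Int.lt_ediv_add_one_mul_self (resN Q P)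
    (mul_pos (mul_pos (Int.natCast_pos.2 hn) (Int.natCast_pos.2 hd)) (by norm_num [One]))).le h1 h2 hβ
  have e0 : (N.yn : ℝ) / N.yd = P.hn * P.m1 / P.hd := by
    rw [div_eq_div_iff (Nat.cast_pos.2 hy).ne' (Nat.cast_pos.2 hd).ne']
    exact_mod_cast he
  obtain ⟨i1, i2, i3, i4⟩ := hN
  rw [e0] at i1 i2 i3 i4
  obtain ⟨k1, k2⟩ := loop_sound hs hA P.n (zero_add _) hr (by
    rw [y_zero Q P _ hd hp, Err, app_left P hn hd, app_left P hn hd, app_left P hn hd]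
    exact ⟨step_tri i1 (aff_jump _ _ _ _ _ _ h1 h2), step_tri i2 (aff_jump _ _ _ _ _ _ h1 h2),
      step_tri i3 (aff_jump _ _ _ _ _ _ h1 h2)⟩)
  have e1 := y_last Q P (resN Q P / (P.hn * P.hd * One) + 1) hd hp
  rw [show (mkPC Q P (resN Q P / (P.hn * P.hd * One) + 1)).n = P.n from rfl, e1] at k1 k2
  rw [Err, app_right P hn hd, app_right P hn hd, app_right P hn hd] at k1
  rw [y_zero Q P _ hd hp] at k2
  simp only [Inv, Nat.cast_mul, Nat.cast_add, Nat.cast_ofNat]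
  refine ⟨k1.1, k1.2.1, k1.2.2, fun t ht => ?_⟩
  rcases le_or_gt t (P.hn * P.m1 / P.hd) with h' | h'
  exacts [i4 t ⟨ht.1, h'⟩, k2 t ⟨h', ht.2⟩]

theorem inv_zero (A0 A1 A2 : ℤ) (x : ℝ × ℝ) {β : ℝ} {σ : ℝ → ℝ}
    (hs : IsSol (aff (110 * A0) (110 * A1) (110 * A2) x) β σ) :
    Inv ⟨0, 1, 110 * A0, 110 * A1, 110 * A2, 11 * A0, 11 * A1, 11 * A2, A0, A1, A2, 0, 0, 0⟩ x σ := by
  have h := hs.1
  simp only [Inv, Nat.cast_zero, zero_div, Int.cast_zero, abs_nonpos_iff, sub_eq_zero, ga, gg, TT_zero, h,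
    true_and, Icc_self, mem_singleton_iff, forall_eq, FF, zero_mul, sub_zero]
  refine ⟨?_, ?_, (lo_le 0).trans (by norm_num), le_max_of_le_right (by norm_num)⟩ <;> simp only [aff] <;>
    push_cast <;> ring

end Crest.Agent.R213.E
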