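import Crest.Agent.R213.E.Defs

/-! From a third order equation in `θ = y d/dy` to `Tail` in the time `z`, `y = z³`:
`w = 3 z`, `α = -2/(3z²)`, `b0' = b0/z⁶ + 1 - W`, `b1' = b1/z⁴`, `b2' = (b2 - 4/3)/z²`. -/

set_option autoImplicit false
set_option linter.unusedVariables false
open Set Filter Topology

noncomputable section
namespace Crest.Agent.R213.E

theorem tail_of_theta {Z0 Z1 Z2 : ℝ → ℝ} {z0 R b0 b1 b2 : ℝ} (hz : 4 ≤ z0) (hb0 : 0 ≤ b0)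
    (hb0' : b0 ≤ z0 ^ 6 / 40) (hb1 : -(z0 ^ 4 / 100) ≤ b1) (hb1' : b1 ≤ 3 * z0 ^ 4 / 20)
    (hb2 : |b2 - 4 / 3| ≤ z0 ^ 2 / 12)
    (h0 : ∀ y, z0 ^ 3 ≤ y → HasDerivAt Z0 (Z1 y / y) y)
    (h1 : ∀ y, z0 ^ 3 ≤ y → HasDerivAt Z1 (Z2 y / y) y)
    (h2 : ∀ y, z0 ^ 3 ≤ y → ∃ W f : ℝ, 938 / 1000 ≤ W ∧ W ≤ 1021 / 1000 ∧ |f| ≤ R / 10 ∧
      HasDerivAt Z2 ((b2 * Z2 y + b1 * Z1 y + b0 * Z0 y - y ^ 2 * W * Z0 y + y ^ 2 * f) / y) y) :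
    Tail (fun z => Z0 (z ^ 3)) (fun z => Z1 (z ^ 3) / z ^ 2) (fun z => Z2 (z ^ 3) / z ^ 4) z0 R := by
  intro z hzz
  have hz0 : 0 < z0 := by linarith
  have hzp : 0 < z := by linarith
  have hz3 : z0 ^ 3 ≤ z ^ 3 := pow_le_pow_left₀ hz0.le hzz 3
  have hz2 : z0 ^ 2 ≤ z ^ 2 := pow_le_pow_left₀ hz0.le hzz 2
  have hz4 : z0 ^ 4 ≤ z ^ 4 := pow_le_pow_left₀ hz0.le hzz 4
  have hz6 : z0 ^ 6 ≤ z ^ 6 := pow_le_pow_left₀ hz0.le hzz 6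
  have p2 : 0 < z ^ 2 := by positivity
  have p4 : 0 < z ^ 4 := by positivity
  have p6 : 0 < z ^ 6 := by positivity
  have h16 : (16 : ℝ) ≤ z ^ 2 := by nlinarith
  obtain ⟨W, f, hW1, hW2, hf, hd2⟩ := h2 (z ^ 3) hz3
  have hc : HasDerivAt (fun z : ℝ => z ^ 3) (3 * z ^ 2) z := by
    simpa using hasDerivAt_pow 3 z
  have hq2 : HasDerivAt (fun z : ℝ => z ^ 2) (2 * z) z := by
    simpa using hasDerivAt_pow 2 z
  have hq4 : HasDerivAt (fun z : ℝ => z ^ 4) (4 * z ^ 3) z := by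
    simpa using hasDerivAt_pow 4 z
  have cmp : ∀ (g : ℝ → ℝ) (g' : ℝ), HasDerivAt g g' (z ^ 3) →
      HasDerivAt (fun z : ℝ => g (z ^ 3)) (g' * (3 * z ^ 2)) z := fun g g' hg =>
    HasDerivAt.comp (h₂ := g) (h := fun z : ℝ => z ^ 3) z hg hc
  have d0 := cmp _ _ (h0 (z ^ 3) hz3)
  have d1 := (cmp _ _ (h1 (z ^ 3) hz3)).fun_div hq2 p2.ne'
  have d2 := (cmp _ _ hd2).fun_div hq4 p4.ne'
  have e1 : 0 ≤ b0 / z ^ 6 := by positivity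
  have e2 : b0 / z ^ 6 ≤ 1 / 40 := by rw [div_le_iff₀ p6]; linarith
  refine ⟨3 * z, -2 / (3 * z ^ 2), b0 / z ^ 6 + 1 - W, b1 / z ^ 4, (b2 - 4 / 3) / z ^ 2, f,
    by linarith, ?_, ?_, ?_, ?_, ?_, hf, ?_, ?_, ?_⟩
  · rw [abs_div, abs_neg, abs_of_pos (by norm_num : (0 : ℝ) < 2), abs_of_pos (by positivity),
      div_le_iff₀ (by positivity)]
    linarith
  · rw [abs_le]; constructor <;> linarith
  · rw [le_div_iff₀ p4]; linarith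
  · rw [div_le_iff₀ p4]; linarith
  · rw [abs_div, abs_of_pos p2, div_le_iff₀ p2]; linarith
  · refine d0.congr_deriv ?_
    field_simp
  · refine d1.congr_deriv ?_
    field_simp
    ring
  · refine d2.congr_deriv ?_
    field_simp
    ring

end Crest.Agent.R213.E
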