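import Crest.Agent.R213.E.Smooth
import Crest.Agent.R213.E.Theta
import Crest.Agent.R213.E.Cone

/-! Symbol bounds.  Work with subalgebras `Algebra.adjoin ℝ S` of `ℝ → ℝ` and
`Algebra.adjoin_induction`.
`poly_growth`: `𝒜 = adjoin {y², 1/F 0, F 0, F 1, F 2}`; every `f ∈ 𝒜` is `O(y^k)` on `[64,∞)` and has
`f' ∈ 𝒜` with `θ f = f'` on `(0,∞)` (for the generator `F 2` use `ode`: `F 3` agrees on `(0,∞)` with an
element of `𝒜`); by induction and uniqueness of derivatives each `F i` agrees on `(0,∞)` with an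
element of `𝒜`.
`lin_eq`: `ℬ i = adjoin ({1/F 0} ∪ {F j | j ≤ i})`, `θ (ℬ i) ⊆ ℬ (i+1)`.  Induction: there is
`N i ∈ ℬ i` with the displayed identity on `(0,∞)`: `N 0 = 1/F 0 - 2β`,
`N (i+1) = F(i+1) F 1 / (F 0)³ + θ(N i) - F(i+1)/(F 0)² + 2 N i` (apply `θ` to the identity, `θ y² = 2y²`);
elements of `ℬ i` are bounded on `[64,∞)` if the generators are.
`symb_tail`: strong induction; `tail_of_theta` with `z0 = 16`, `(b0,b1,b2) = (90,-71,-18)`,
`W = 1/(2 F0²)`, `f = N`, `R = 10 C + 1`; `bounded_of_poly` (`poly_growth` at `y = z³`) bounds `F (i+1)`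
on `[4096,∞)`; `[64, 4096]` by continuity.
`thn_deriv`: `thn f i` is smooth on `Ioi 0` by induction.
`symb_g`: `H 0 j = δ_{j0} - F j`, `H (i+1) j = H i (j+1) - (i+1) H i j`; induction on `i`: `θ (H i j) =
H i (j+1)`, `H i j` bounded on `[64,∞)`, `H i 0 y = y^(i+1) g i y` for `y > 0`; `[0,64]` by compactness,
`(1+y)^(i+1) ≤ 2^(i+1) y^(i+1)`. -/

set_option autoImplicit false
set_option linter.unusedVariables false
open Set Filter Topology
open scoped ContDiff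

noncomputable section
namespace Crest.Agent.R213.E

structure Jets (F : ℕ → ℝ → ℝ) (β : ℝ) : Prop where
  th : ∀ j y, 0 < y → HasDerivAt (F j) (F (j + 1) y / y) y
  pos : ∀ y, 0 < y → 0 < F 0 y
  ode : ∀ y, 0 < y → F 3 y = -18 * F 2 y - 71 * F 1 y + 90 * F 0 y - 90 +
    y ^ 2 * (1 / (2 * F 0 y) - β)
  rng : ∀ y, 64 ≤ y → 7 / 10 ≤ F 0 y ∧ F 0 y ≤ 73 / 100
  bdd : ∃ C, ∀ y, 64 ≤ y → |F 1 y| ≤ C ∧ |F 2 y| ≤ C

/-- polynomials in `1 / F 0` and `F j`, `j ≤ i` -/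
inductive symbb_B (F : ℕ → ℝ → ℝ) (i : ℕ) : (ℝ → ℝ) → Prop
  | const (c : ℝ) : symbb_B F i fun _ => c
  | inv : symbb_B F i fun y => (F 0 y)⁻¹
  | gen (j : ℕ) (hj : j ≤ i) : symbb_B F i (F j)
  | add {f g : ℝ → ℝ} : symbb_B F i f → symbb_B F i g → symbb_B F i fun y => f y + g y
  | mul {f g : ℝ → ℝ} : symbb_B F i f → symbb_B F i g → symbb_B F i fun y => f y * g y

theorem symbb_mono {F : ℕ → ℝ → ℝ} {i : ℕ} {f : ℝ → ℝ} (h : symbb_B F i f) : symbb_B F (i + 1) f := by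
  induction h with
  | const c => exact .const c
  | inv => exact .inv
  | gen j hj => exact .gen j (by omega)
  | add _ _ h1 h2 => exact .add h1 h2
  | mul _ _ h1 h2 => exact .mul h1 h2

theorem symbb_inv {F : ℕ → ℝ → ℝ} {β : ℝ} (h : Jets F β) {y : ℝ} (hy : 0 < y) :
    HasDerivAt (fun y => (F 0 y)⁻¹) (-1 * (F 1 y * ((F 0 y)⁻¹ * (F 0 y)⁻¹)) / y) y := by
  have h0 := (h.pos y hy).ne'
  refine ((h.th 0 y hy).fun_inv h0).congr_deriv ?_
  field_simp

theorem symbb_th {F : ℕ → ℝ → ℝ} {β : ℝ} (h : Jets F β) {i : ℕ} {f : ℝ → ℝ} (hf : symbb_B F i f) :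
    ∃ f', symbb_B F (i + 1) f' ∧ ∀ y, 0 < y → HasDerivAt f (f' y / y) y := by
  induction hf with
  | const c => exact ⟨_, .const 0, fun y _ => by simpa using hasDerivAt_const y c⟩
  | inv => exact ⟨_, .mul (.const (-1)) (.mul (.gen 1 (by omega)) (.mul .inv .inv)), fun y hy => symbb_inv h hy⟩
  | gen j hj => exact ⟨_, .gen (j + 1) (by omega), h.th j⟩
  | add _ _ h1 h2 =>
    obtain ⟨f', a1, a2⟩ := h1
    obtain ⟨g', b1, b2⟩ := h2
    exact ⟨_, .add a1 b1, fun y hy => by simpa only [add_div] using (a2 y hy).fun_add (b2 y hy)⟩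
  | mul hf hg h1 h2 =>
    obtain ⟨f', a1, a2⟩ := h1
    obtain ⟨g', b1, b2⟩ := h2
    refine ⟨_, .add (.mul a1 (symbb_mono hg)) (.mul (symbb_mono hf) b1), fun y hy => ?_⟩
    refine ((a2 y hy).fun_mul (b2 y hy)).congr_deriv ?_
    ring

theorem symbb_bdd {F : ℕ → ℝ → ℝ} {β : ℝ} (h : Jets F β) {i : ℕ} {f : ℝ → ℝ} (hf : symbb_B F i f)
    (hb : ∀ j, j ≤ i → ∃ C, ∀ y, 64 ≤ y → |F j y| ≤ C) : ∃ C, ∀ y, 64 ≤ y → |f y| ≤ C := by
  induction hf with
  | const c => exact ⟨|c|, fun _ _ => le_rfl⟩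
  | inv =>
    refine ⟨(7 / 10)⁻¹, fun y hy => ?_⟩
    have := (h.rng y hy).1
    rw [abs_of_pos (inv_pos.2 (by linarith))]
    exact inv_anti₀ (by norm_num) this
  | gen j hj => exact hb j hj
  | add _ _ h1 h2 =>
    obtain ⟨C, a⟩ := h1
    obtain ⟨D, b⟩ := h2
    exact ⟨C + D, fun y hy => (abs_add_le _ _).trans (add_le_add (a y hy) (b y hy))⟩
  | mul _ _ h1 h2 =>
    obtain ⟨C, a⟩ := h1
    obtain ⟨D, b⟩ := h2
    refine ⟨C * D, fun y hy => ?_⟩
    rw [abs_mul]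
    exact mul_le_mul (a y hy) (b y hy) (abs_nonneg _) ((abs_nonneg _).trans (a y hy))

theorem symbb_uniq {f g : ℝ → ℝ} {a b y : ℝ} (hy : 0 < y) (h : ∀ x, 0 < x → f x = g x)
    (hf : HasDerivAt f (a / y) y) (hg : HasDerivAt g b y) : a = y * b := by
  have e : f =ᶠ[𝓝 y] g := by
    filter_upwards [Ioi_mem_nhds hy] with x hx using h x hx
  rw [← hf.unique (hg.congr_of_eventuallyEq e), mul_div_cancel₀ _ hy.ne']

theorem symbb_ex {F : ℕ → ℝ → ℝ} {β : ℝ} (h : Jets F β) (i : ℕ) :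
    ∃ N : ℝ → ℝ, symbb_B F i N ∧ ∀ y, 0 < y → F (i + 4) y = -18 * F (i + 3) y - 71 * F (i + 2) y +
      90 * F (i + 1) y - y ^ 2 * ((F 0 y)⁻¹ * (F 0 y)⁻¹ / 2) * F (i + 1) y + y ^ 2 * N y := by
  induction i with
  | zero =>
    refine ⟨_, .add .inv (.const (-(2 * β))), fun y hy => ?_⟩
    have e : ∀ x, 0 < x → F 3 x = -18 * F 2 x - 71 * F 1 x + 90 * F 0 x - 90 +
        x ^ 2 * ((F 0 x)⁻¹ / 2 - β) := fun x hx => by
      rw [h.ode x hx]
      ring
    have d := ((((((h.th 2 y hy).const_mul (-18)).fun_sub ((h.th 1 y hy).const_mul 71)).fun_add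
      ((h.th 0 y hy).const_mul 90)).sub_const 90).fun_add
      ((hasDerivAt_pow 2 y).fun_mul (((symbb_inv h hy).div_const 2).sub_const β)))
    rw [symbb_uniq hy e (h.th 3 y hy) d]
    field_simp
    ring
  | succ i ih =>
    obtain ⟨N, hN, e⟩ := ih
    obtain ⟨N', hN', dN⟩ := symbb_th h hN
    have g1 : symbb_B F (i + 1) (F (i + 1)) := .gen _ le_rfl
    refine ⟨_, .add (.add (.mul (.const (-1)) (.mul (.mul .inv .inv) g1))
      (.mul (.mul (.gen 1 (by omega)) (.mul .inv (.mul .inv .inv))) g1))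
      (.add (.mul (.const 2) (symbb_mono hN)) hN'), fun y hy => ?_⟩
    have d := ((((((h.th (i + 3) y hy).const_mul (-18)).fun_sub ((h.th (i + 2) y hy).const_mul 71)).fun_add
      ((h.th (i + 1) y hy).const_mul 90)).fun_sub
      (((hasDerivAt_pow 2 y).fun_mul (((symbb_inv h hy).fun_mul (symbb_inv h hy)).div_const 2)).fun_mul
        (h.th (i + 1) y hy))).fun_add ((hasDerivAt_pow 2 y).fun_mul (dN y hy)))
    rw [symbb_uniq hy e (h.th (i + 4) y hy) d]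
    generalize (F 0 y)⁻¹ = G
    field_simp
    ring

/-- polynomial growth -/
def symba_P (f : ℝ → ℝ) : Prop := ∃ (C : ℝ) (k : ℕ), ∀ y, 64 ≤ y → |f y| ≤ C * y ^ k

theorem symba_bdd {f : ℝ → ℝ} {C : ℝ} (h : ∀ y, 64 ≤ y → |f y| ≤ C) : symba_P f :=
  ⟨C, 0, fun y hy => by simpa using h y hy⟩

theorem symba_const (c : ℝ) : symba_P fun _ => c := symba_bdd fun _ _ => le_rfl

theorem symba_sq : symba_P fun y => y ^ 2 := ⟨1, 2, fun y _ => by simp⟩

theorem symba_congr {f g : ℝ → ℝ} (h : symba_P f) (e : ∀ y, 0 < y → g y = f y) : symba_P g := by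
  obtain ⟨C, k, h⟩ := h
  exact ⟨C, k, fun y hy => by rw [e y (by linarith)]; exact h y hy⟩

theorem symba_add {f g : ℝ → ℝ} (hf : symba_P f) (hg : symba_P g) : symba_P fun y => f y + g y := by
  obtain ⟨C, k, a⟩ := hf
  obtain ⟨D, l, b⟩ := hg
  refine ⟨|C| + |D|, k + l, fun y hy => (abs_add_le _ _).trans ?_⟩
  have h1 : (1 : ℝ) ≤ y := by linarith
  rw [add_mul]
  refine add_le_add ((a y hy).trans ?_) ((b y hy).trans ?_)
  · exact mul_le_mul (le_abs_self _) (pow_le_pow_right₀ h1 (by omega)) (by positivity) (abs_nonneg _)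
  · exact mul_le_mul (le_abs_self _) (pow_le_pow_right₀ h1 (by omega)) (by positivity) (abs_nonneg _)

theorem symba_mul {f g : ℝ → ℝ} (hf : symba_P f) (hg : symba_P g) : symba_P fun y => f y * g y := by
  obtain ⟨C, k, a⟩ := hf
  obtain ⟨D, l, b⟩ := hg
  refine ⟨C * D, k + l, fun y hy => ?_⟩
  rw [abs_mul, pow_add, mul_mul_mul_comm]
  exact mul_le_mul (a y hy) (b y hy) (abs_nonneg _) ((abs_nonneg _).trans (a y hy))

theorem symba_inv {F : ℕ → ℝ → ℝ} {β : ℝ} (h : Jets F β) : symba_P fun y => (F 0 y)⁻¹ :=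
  symba_bdd (C := (7 / 10)⁻¹) fun y hy => by
    have := (h.rng y hy).1
    rw [abs_of_pos (inv_pos.2 (by linarith))]
    exact inv_anti₀ (by norm_num) this

theorem symba_B {F : ℕ → ℝ → ℝ} {β : ℝ} (h : Jets F β) {i : ℕ} {f : ℝ → ℝ} (hf : symbb_B F i f)
    (hb : ∀ j, j ≤ i → symba_P (F j)) : symba_P f := by
  induction hf with
  | const c => exact symba_const c
  | inv => exact symba_inv h
  | gen j hj => exact hb j hj
  | add _ _ h1 h2 => exact symba_add h1 h2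
  | mul _ _ h1 h2 => exact symba_mul h1 h2

theorem Jets.poly_growth {F : ℕ → ℝ → ℝ} {β : ℝ} (h : Jets F β) (i : ℕ) :
    ∃ (C : ℝ) (k : ℕ), ∀ y, 64 ≤ y → |F i y| ≤ C * y ^ k := by
  change symba_P (F i)
  obtain ⟨C, hC⟩ := h.bdd
  induction i using Nat.strong_induction_on with
  | _ i ih =>
    match i, ih with
    | 0, _ => exact symba_bdd (C := 1) fun y hy => abs_le.2 ⟨by linarith [(h.rng y hy).1], by linarith [(h.rng y hy).2]⟩
    | 1, _ => exact symba_bdd fun y hy => (hC y hy).1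
    | 2, _ => exact symba_bdd fun y hy => (hC y hy).2
    | 3, ih =>
      refine symba_congr (symba_add (symba_add (symba_add (symba_mul (symba_const (-18)) (ih 2 (by omega)))
        (symba_mul (symba_const (-71)) (ih 1 (by omega))))
        (symba_add (symba_mul (symba_const 90) (ih 0 (by omega))) (symba_const (-90))))
        (symba_mul symba_sq (symba_add (symba_mul (symba_const (1 / 2)) (symba_inv h)) (symba_const (-β)))))
        fun y hy => ?_
      rw [h.ode y hy]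
      ring
    | i + 4, ih =>
      obtain ⟨N, hN, e⟩ := symbb_ex h i
      refine symba_congr (symba_add (symba_add (symba_add (symba_mul (symba_const (-18)) (ih (i + 3) (by omega)))
        (symba_mul (symba_const (-71)) (ih (i + 2) (by omega))))
        (symba_mul (symba_const 90) (ih (i + 1) (by omega))))
        (symba_mul symba_sq (symba_add (symba_mul (symba_mul (symba_const (-(1 / 2)))
          (symba_mul (symba_inv h) (symba_inv h))) (ih (i + 1) (by omega)))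
          (symba_B h hN fun j hj => ih j (by omega))))) fun y hy => ?_
      rw [e y hy]
      ring

theorem Jets.lin_eq {F : ℕ → ℝ → ℝ} {β : ℝ} (h : Jets F β) (i : ℕ) :
    ∃ N : ℝ → ℝ, (∀ y, 0 < y → F (i + 4) y = -18 * F (i + 3) y - 71 * F (i + 2) y +
        90 * F (i + 1) y - y ^ 2 * (1 / (2 * F 0 y ^ 2)) * F (i + 1) y + y ^ 2 * N y) ∧
      ((∀ j, j ≤ i → ∃ C, ∀ y, 64 ≤ y → |F j y| ≤ C) → ∃ C, ∀ y, 64 ≤ y → |N y| ≤ C) := by
  obtain ⟨N, hN, e⟩ := symbb_ex h i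
  refine ⟨N, fun y hy => ?_, symbb_bdd h hN⟩
  rw [e y hy]
  ring

theorem symbc_le {a C D z : ℝ} {k K : ℕ} (m : ℕ) (hz : 1 ≤ z) (ha : |a| ≤ C * (z ^ 3) ^ k) (hD : |C| ≤ D)
    (hK : 3 * k ≤ K) : |a / z ^ m| ≤ D * z ^ K := by
  have h0 : 0 < z := by linarith
  rw [abs_div, abs_of_pos (pow_pos h0 m)]
  refine (div_le_self (abs_nonneg a) (one_le_pow₀ hz)).trans (ha.trans ?_)
  rw [← pow_mul]
  exact mul_le_mul ((le_abs_self C).trans hD) (pow_le_pow_right₀ hz hK) (by positivity) ((abs_nonneg C).trans hD)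

theorem symbc_step {F : ℕ → ℝ → ℝ} {β : ℝ} (h : Jets F β) (i : ℕ)
    (hb : ∀ j, j ≤ i → ∃ C, ∀ y, 64 ≤ y → |F j y| ≤ C) : ∃ C, ∀ y, 64 ≤ y → |F (i + 1) y| ≤ C := by
  obtain ⟨N, hN, hNb⟩ := h.lin_eq i
  obtain ⟨C, hC⟩ := hNb hb
  have hC0 : 0 ≤ C := (abs_nonneg _).trans (hC 64 le_rfl)
  have hT := tail_of_theta (Z0 := F (i + 1)) (Z1 := F (i + 2)) (Z2 := F (i + 3)) (z0 := 16) (R := 10 * C + 1)
    (b0 := 90) (b1 := -71) (b2 := -18) (by norm_num) (by norm_num) (by norm_num) (by norm_num) (by norm_num)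
    (by rw [abs_le]; norm_num) (fun y hy => h.th _ y (by linarith)) (fun y hy => h.th _ y (by linarith))
    fun y hy => by
      have h64 : (64 : ℝ) ≤ y := by linarith
      obtain ⟨r1, r2⟩ := h.rng y h64
      have hp : 0 < 2 * F 0 y ^ 2 := by positivity
      refine ⟨1 / (2 * F 0 y ^ 2), N y, ?_, ?_, by linarith [hC y h64], ?_⟩
      · rw [le_div_iff₀ hp]
        nlinarith
      · rw [div_le_iff₀ hp]
        nlinarith
      · refine (h.th (i + 3) y (by linarith)).congr_deriv ?_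
        rw [hN y (by linarith)]
        ring
  obtain ⟨C1, k1, p1⟩ := h.poly_growth (i + 1)
  obtain ⟨C2, k2, p2⟩ := h.poly_growth (i + 2)
  obtain ⟨C3, k3, p3⟩ := h.poly_growth (i + 3)
  obtain ⟨C', hC'⟩ := bounded_of_poly (C := |C1| + |C2| + |C3|) (k := 3 * (k1 + k2 + k3)) (by linarith) hT
    fun z hz => by
      have h1 : (1 : ℝ) ≤ z := by linarith
      have h3 : (64 : ℝ) ≤ z ^ 3 := le_trans (by norm_num) (pow_le_pow_left₀ (by norm_num) hz 3)
      have a1 := abs_nonneg C1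
      have a2 := abs_nonneg C2
      have a3 := abs_nonneg C3
      refine ⟨?_, symbc_le 2 h1 (p2 _ h3) (by linarith) (by omega), symbc_le 4 h1 (p3 _ h3) (by linarith) (by omega)⟩
      simpa using symbc_le (D := |C1| + |C2| + |C3|) (K := 3 * (k1 + k2 + k3)) 0 h1 (p1 _ h3) (by linarith) (by omega)
  obtain ⟨C'', hC''⟩ := (isCompact_Icc (a := (64 : ℝ)) (b := 4096)).exists_bound_of_continuousOn
    (f := F (i + 1)) fun y hy => (h.th _ y (by linarith [hy.1])).continuousAt.continuousWithinAt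
  refine ⟨max C' C'', fun y hy => ?_⟩
  rcases le_total y 4096 with h1 | h1
  · exact (hC'' y ⟨hy, h1⟩).trans (le_max_right _ _)
  · have e : (y ^ (((3 : ℕ) : ℝ)⁻¹)) ^ 3 = y := Real.rpow_inv_natCast_pow (by linarith) (by norm_num)
    have h2 := hC' (y ^ (((3 : ℕ) : ℝ)⁻¹)) (le_of_pow_le_pow_left₀ (n := 3) (by norm_num)
      (Real.rpow_nonneg (by linarith) _) (by rw [e]; linarith))
    rw [e] at h2
    exact h2.trans (le_max_left _ _)

theorem Jets.symb_tail {F : ℕ → ℝ → ℝ} {β : ℝ} (h : Jets F β) (i : ℕ) :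
    ∃ C, ∀ y, 64 ≤ y → |F i y| ≤ C := by
  induction i using Nat.strong_induction_on with
  | _ i ih =>
    cases i with
    | zero => exact ⟨1, fun y hy => abs_le.2 ⟨by linarith [(h.rng y hy).1], by linarith [(h.rng y hy).2]⟩⟩
    | succ i => exact symbc_step h i fun j hj => ih j (Nat.lt_succ_of_le hj)

theorem thn_deriv {f : ℝ → ℝ} (hf : ContDiffOn ℝ ∞ f (Ioi 0)) (i : ℕ) {y : ℝ} (hy : 0 < y) :
    HasDerivAt (thn f i) (thn f (i + 1) y / y) y := by
  sorry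

/-- `thn (FF σ) 1 = F1 σ`, `thn (FF σ) 2 = F2 σ` on `(0,∞)` by `th_FF`, `th_F1`, `th_F2` -/
theorem IsTrue.jets {β : ℝ} {σ : ℝ → ℝ} (h : IsTrue β σ)
    (hr : ∀ y, 64 ≤ y → 7 / 10 ≤ FF σ y ∧ FF σ y ≤ 73 / 100)
    (hb : ∃ C, ∀ y, 64 ≤ y → |F1 σ y| ≤ C ∧ |F2 σ y| ≤ C) : Jets (thn (FF σ)) β := by
  sorry

theorem symbe_ex {g F : ℕ → ℝ → ℝ}
    (hg : ∀ i y, 0 ≤ y → HasDerivWithinAt (g i) (g (i + 1) y) (Ici 0) y)
    (hF : ∀ j y, 0 < y → HasDerivAt (F j) (F (j + 1) y / y) y)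
    (h0 : ∀ y, 0 < y → F 0 y = 1 - y * g 0 y) (hb : ∀ j, ∃ C, ∀ y, 64 ≤ y → |F j y| ≤ C) (i : ℕ) :
    ∃ H : ℕ → ℝ → ℝ, (∀ j y, 0 < y → HasDerivAt (H j) (H (j + 1) y / y) y) ∧
      (∀ j, ∃ C, ∀ y, 64 ≤ y → |H j y| ≤ C) ∧ ∀ y, 0 < y → H 0 y = y ^ (i + 1) * g i y := by
  induction i with
  | zero =>
    refine ⟨fun j y => (if j = 0 then 1 else 0) - F j y, fun j y hy => ?_, fun j => ?_, fun y hy => ?_⟩
    · refine ((hF j y hy).const_sub _).congr_deriv ?_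
      simp only [if_neg (Nat.add_one_ne_zero j)]
      ring
    · obtain ⟨C, hC⟩ := hb j
      exact ⟨|(if j = 0 then 1 else 0 : ℝ)| + C, fun y hy =>
        (abs_sub _ _).trans (add_le_add le_rfl (hC y hy))⟩
    · simp only [if_true, h0 y hy]
      ring
  | succ i ih =>
    obtain ⟨H, h1, h2, h3⟩ := ih
    refine ⟨fun j y => H (j + 1) y - (i + 1) * H j y, fun j y hy => ?_, fun j => ?_, fun y hy => ?_⟩
    · refine ((h1 (j + 1) y hy).fun_sub ((h1 j y hy).const_mul _)).congr_deriv ?_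
      ring
    · obtain ⟨C, hC⟩ := h2 (j + 1)
      obtain ⟨D, hD⟩ := h2 j
      refine ⟨C + (i + 1) * D, fun y hy => (abs_sub _ _).trans (add_le_add (hC y hy) ?_)⟩
      rw [abs_mul, abs_of_pos (by positivity : (0 : ℝ) < i + 1)]
      exact mul_le_mul_of_nonneg_left (hD y hy) (by positivity)
    · have d := (hasDerivAt_pow (i + 1) y).fun_mul ((hg i y hy.le).hasDerivAt (Ici_mem_nhds hy))
      show H (0 + 1) y - (i + 1) * H 0 y = _
      rw [symbb_uniq hy h3 (h1 0 y hy) d, h3 y hy]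
      simp only [Nat.add_sub_cancel]
      push_cast
      ring

theorem symb_g {g F : ℕ → ℝ → ℝ}
    (hg : ∀ i y, 0 ≤ y → HasDerivWithinAt (g i) (g (i + 1) y) (Ici 0) y)
    (hF : ∀ j y, 0 < y → HasDerivAt (F j) (F (j + 1) y / y) y)
    (h0 : ∀ y, 0 < y → F 0 y = 1 - y * g 0 y) (hb : ∀ j, ∃ C, ∀ y, 64 ≤ y → |F j y| ≤ C) (i : ℕ) :
    ∃ C, ∀ y, 0 ≤ y → (1 + y) ^ (i + 1) * |g i y| ≤ C := by
  obtain ⟨H, -, h2, h3⟩ := symbe_ex hg hF h0 hb i
  obtain ⟨C, hC⟩ := h2 0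
  have hc : ContinuousOn (fun y : ℝ => (1 + y) ^ (i + 1) * |g i y|) (Icc 0 64) :=
    ((continuous_const.add continuous_id).pow _).continuousOn.mul
      (ContinuousOn.abs fun y hy => (hg i y hy.1).continuousWithinAt.mono Icc_subset_Ici_self)
  obtain ⟨D, hD⟩ := isCompact_Icc.exists_bound_of_continuousOn hc
  refine ⟨max D (2 ^ (i + 1) * C), fun y hy => ?_⟩
  rcases le_total y 64 with h | h
  · exact ((le_abs_self _).trans (hD y ⟨hy, h⟩)).trans (le_max_left _ _)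
  · refine le_trans ?_ (le_max_right _ _)
    have hy' : 0 < y := by linarith
    have h4 := hC y h
    rw [h3 y hy', abs_mul, abs_of_pos (pow_pos hy' _)] at h4
    have h5 : (1 + y) ^ (i + 1) ≤ 2 ^ (i + 1) * y ^ (i + 1) := by
      rw [← mul_pow]
      exact pow_le_pow_left₀ (by linarith) (by linarith) _
    calc (1 + y) ^ (i + 1) * |g i y| ≤ 2 ^ (i + 1) * y ^ (i + 1) * |g i y| :=
          mul_le_mul_of_nonneg_right h5 (abs_nonneg _)
      _ = 2 ^ (i + 1) * (y ^ (i + 1) * |g i y|) := by ring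
      _ ≤ 2 ^ (i + 1) * C := mul_le_mul_of_nonneg_left h4 (by positivity)

end Crest.Agent.R213.E
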