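import Crest.Agent.R213.E.Theta
import Crest.Agent.R213.E.Volt

/-! The deviation `D = y⁶ (F - F_as)` satisfies
`θ³ D = 37 θ D + 84 D - y² W D + y² f`, `W = V/2` from `psi_slope y (FF σ y) (Φ 0 y)` (and
`psi_eq`, `lo_tail`, `hi_tail`), `f = -y⁴ r` (`IsAsym.res`); `tail_of_theta` with `z0 = 4`,
`(b0, b1, b2) = (84, 37, 0)`; `th_FF`, `th_F1`, `th_F2` with `d = β - psi y (FF σ y) / 2`.
`tail_bounds`: `y = z³` with `z = y^(1/3) ≥ 4` (`Real.rpow`, or `exists` by the intermediate value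
theorem / `Real.pow_rpow_inv_natCast`); `|Z0 y| ≤ 2`, `|Z1 y| ≤ 2 z² ≤ 2 y⁶`, `|Z2 y| ≤ 2 z⁴ ≤ 2 y⁶`.
`cont_X`: `continuous_TT`. -/

set_option autoImplicit false
set_option linter.unusedVariables false
open Set Filter Topology

noncomputable section
namespace Crest.Agent.R213.E

theorem tailD {a β : ℝ} {σ : ℝ → ℝ} {Φ : ℕ → ℝ → ℝ} (h : IsSol a β σ) (hΦ : IsAsym β Φ) :
    Tail (X0 σ Φ) (X1 σ Φ) (X2 σ Φ) 4 1 := by
  have hc := h.cont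
  refine tail_of_theta (Z0 := Z0 σ Φ) (Z1 := Z1 σ Φ) (Z2 := Z2 σ Φ) (b0 := 84) (b1 := 37) (b2 := 0)
    le_rfl (by norm_num) (by norm_num) (by norm_num) (by norm_num)
    (by rw [abs_le]; constructor <;> norm_num) (fun y hy => ?_) (fun y hy => ?_) (fun y hy => ?_)
  · have hy0 : 0 < y := by linarith [show (0 : ℝ) < 4 ^ 3 by norm_num]
    have := (hasDerivAt_pow 6 y).mul ((th_FF hc hy0).sub (hΦ.th 0 y hy0))
    refine this.congr_deriv ?_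
    simp only [Z1, Pi.sub_apply]
    field_simp
    norm_num
    ring
  · have hy0 : 0 < y := by linarith [show (0 : ℝ) < 4 ^ 3 by norm_num]
    have := (hasDerivAt_pow 6 y).mul (((th_F1 hc hy0).sub (hΦ.th 1 y hy0)).add
      (((th_FF hc hy0).sub (hΦ.th 0 y hy0)).const_mul 6))
    refine this.congr_deriv ?_
    simp only [Z2, Pi.sub_apply, Pi.add_apply]
    field_simp
    norm_num
    ring
  · have hy0 : 0 < y := by linarith [show (0 : ℝ) < 4 ^ 3 by norm_num]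
    have hy64 : 64 ≤ y := by linarith [show (4 : ℝ) ^ 3 = 64 by norm_num]
    obtain ⟨V, hV1, hV2, hV⟩ := psi_slope y (FF σ y) (Φ 0 y)
    obtain ⟨r1, r2⟩ := hΦ.rng y hy64
    rw [psi_eq (t := y) (F := Φ 0 y) (by rw [lo_tail hy64]; linarith)
      (by rw [hi_tail hy64]; linarith)] at hV
    rw [hi_tail hy64] at hV1
    rw [lo_tail hy64] at hV2
    refine ⟨V / 2, -(y ^ 4 * (Φ 3 y + 18 * Φ 2 y + 71 * Φ 1 y - 90 * Φ 0 y + 90 -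
      y ^ 2 * (1 / (2 * Φ 0 y) - β))), by norm_num at hV1; linarith, by norm_num at hV2; linarith,
      by rw [abs_neg]; exact hΦ.res y hy64, ?_⟩
    have := (hasDerivAt_pow 6 y).mul ((((th_F2 hc hy0 (h.2 y)).sub (hΦ.th 2 y hy0)).add
      (((th_F1 hc hy0).sub (hΦ.th 1 y hy0)).const_mul 12)).add
        (((th_FF hc hy0).sub (hΦ.th 0 y hy0)).const_mul 36))
    refine this.congr_deriv ?_
    have e : psi y (FF σ y) = 1 / Φ 0 y - V * (FF σ y - Φ 0 y) := by linarith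
    have e' : 1 / (2 * Φ 0 y) = 1 / Φ 0 y / 2 := by rw [div_div, mul_comm]
    simp only [Z0, Z1, Z2, Pi.sub_apply, Pi.add_apply]
    rw [e, e']
    generalize 1 / Φ 0 y = u
    field_simp
    norm_num
    ring

theorem taildb_key {σ : ℝ → ℝ} {Φ : ℕ → ℝ → ℝ}
    (hX : ∀ z, 4 ≤ z → |X0 σ Φ z| ≤ 2 ∧ |X1 σ Φ z| ≤ 2 ∧ |X2 σ Φ z| ≤ 2) {y : ℝ} (hy : 64 ≤ y) :
    |FF σ y - Φ 0 y| ≤ 1 / 1000 ∧ |F1 σ y - Φ 1 y + 6 * (FF σ y - Φ 0 y)| ≤ 2 ∧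
      |F2 σ y - Φ 2 y + 12 * (F1 σ y - Φ 1 y) + 36 * (FF σ y - Φ 0 y)| ≤ 2 := by
  obtain ⟨z, hz0, rfl⟩ : ∃ z : ℝ, 0 ≤ z ∧ y = z ^ 3 :=
    ⟨y ^ ((3 : ℕ) : ℝ)⁻¹, Real.rpow_nonneg (by linarith) _,
      (Real.rpow_inv_natCast_pow (by linarith) (by norm_num)).symm⟩
  have hz : 4 ≤ z := le_of_pow_le_pow_left₀ (n := 3) (by norm_num) hz0 (by linarith)
  have hz1 : 1 ≤ z := by linarith
  obtain ⟨h0, h1, h2⟩ := hX z hz
  simp only [X0, X1, X2, Z0, Z1, Z2, abs_div, abs_mul] at h0 h1 h2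
  have p6 : 0 < (z ^ 3) ^ 6 := by positivity
  rw [abs_of_pos p6] at h0 h1 h2
  rw [abs_of_pos (show 0 < z ^ 2 by positivity), div_le_iff₀ (by positivity)] at h1
  rw [abs_of_pos (show 0 < z ^ 4 by positivity), div_le_iff₀ (by positivity)] at h2
  have b0 : 2000 ≤ (z ^ 3) ^ 6 := le_trans (by norm_num) (pow_le_pow_left₀ (by norm_num) hy 6)
  have b1 : z ^ 2 ≤ (z ^ 3) ^ 6 := by
    rw [← pow_mul]; exact pow_le_pow_right₀ hz1 (by norm_num)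
  have b2 : z ^ 4 ≤ (z ^ 3) ^ 6 := by
    rw [← pow_mul]; exact pow_le_pow_right₀ hz1 (by norm_num)
  refine ⟨?_, le_of_mul_le_mul_left (by linarith) p6, le_of_mul_le_mul_left (by linarith) p6⟩
  exact le_of_mul_le_mul_left (by linarith) p6

theorem tail_bounds {β : ℝ} {σ : ℝ → ℝ} {Φ : ℕ → ℝ → ℝ} (hΦ : IsAsym β Φ)
    (hX : ∀ z, 4 ≤ z → |X0 σ Φ z| ≤ 2 ∧ |X1 σ Φ z| ≤ 2 ∧ |X2 σ Φ z| ≤ 2) :
    (∀ y, 64 ≤ y → 7 / 10 ≤ FF σ y ∧ FF σ y ≤ 73 / 100) ∧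
      ∃ C, ∀ y, 64 ≤ y → |F1 σ y| ≤ C ∧ |F2 σ y| ≤ C := by
  refine ⟨fun y hy => ?_, ?_⟩
  · have h := abs_le.1 (taildb_key hX hy).1
    have := hΦ.rng y hy
    constructor <;> linarith [h.1, h.2, this.1, this.2]
  · obtain ⟨C1, hC1⟩ := hΦ.bdd 1
    obtain ⟨C2, hC2⟩ := hΦ.bdd 2
    refine ⟨|C1| + |C2| + 40, fun y hy => ?_⟩
    obtain ⟨h0, h1, h2⟩ := taildb_key hX hy
    have a0 := abs_le.1 h0
    have a1 := abs_le.1 h1
    have a2 := abs_le.1 h2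
    have c1 := abs_le.1 ((hC1 y hy).trans (le_abs_self C1))
    have c2 := abs_le.1 ((hC2 y hy).trans (le_abs_self C2))
    have := abs_nonneg C1
    have := abs_nonneg C2
    constructor <;> rw [abs_le] <;> constructor <;>
      linarith [a0.1, a0.2, a1.1, a1.2, a2.1, a2.2, c1.1, c1.2, c2.1, c2.2]

theorem taildb_cont {Q : Type*} [TopologicalSpace Q] {A : Set Q} {y t u s p0 p1 p2 : Q → ℝ}
    (hy : ContinuousOn y A) (ht : ContinuousOn t A) (hu : ContinuousOn u A) (hs : ContinuousOn s A)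
    (h0 : ContinuousOn p0 A) (h1 : ContinuousOn p1 A) (h2 : ContinuousOn p2 A) :
    ContinuousOn (fun q => y q ^ 6 * (1 - y q * (t q - u q) - p0 q)) A ∧
    ContinuousOn (fun q => y q ^ 6 * (-(y q * (t q - 10 * (t q - u q))) - p1 q +
      6 * (1 - y q * (t q - u q) - p0 q))) A ∧
    ContinuousOn (fun q => y q ^ 6 * (-(y q * (s q - 19 * t q + 100 * (t q - u q))) - p2 q +
      12 * (-(y q * (t q - 10 * (t q - u q))) - p1 q) + 36 * (1 - y q * (t q - u q) - p0 q))) A :=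
  ⟨by fun_prop, by fun_prop, by fun_prop⟩

theorem cont_X {S : ℝ × ℝ → ℝ → ℝ} (hS : Continuous fun q : (ℝ × ℝ) × ℝ => S q.1 q.2)
    {pm : ℝ × ℝ → ℝ × ℝ} {B : Set (ℝ × ℝ)} (hp : ContinuousOn pm B)
    {Φ : ℝ × ℝ → ℕ → ℝ → ℝ}
    (hΦ : ∀ j, ContinuousOn (fun q : (ℝ × ℝ) × ℝ => Φ q.1 j q.2) (B ×ˢ Ioi 0)) :
    ContinuousOn (fun q : (ℝ × ℝ) × ℝ => X0 (S (pm q.1)) (Φ q.1) q.2) (B ×ˢ Ici 4) ∧
    ContinuousOn (fun q : (ℝ × ℝ) × ℝ => X1 (S (pm q.1)) (Φ q.1) q.2) (B ×ˢ Ici 4) ∧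
    ContinuousOn (fun q : (ℝ × ℝ) × ℝ => X2 (S (pm q.1)) (Φ q.1) q.2) (B ×ˢ Ici 4) := by
  have hm : ContinuousOn (fun q : (ℝ × ℝ) × ℝ => (pm q.1, q.2 ^ 3)) (B ×ˢ Ici 4) :=
    (hp.comp continuousOn_fst fun q hq => hq.1).prodMk (by fun_prop)
  have hT : ∀ m, ContinuousOn (fun q : (ℝ × ℝ) × ℝ => TT m (S (pm q.1)) (q.2 ^ 3)) (B ×ˢ Ici 4) :=
    fun m => (continuous_TT hS m).comp_continuousOn hm
  have hσ : ContinuousOn (fun q : (ℝ × ℝ) × ℝ => S (pm q.1) (q.2 ^ 3)) (B ×ˢ Ici 4) :=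
    hS.comp_continuousOn hm
  have hP : ∀ j, ContinuousOn (fun q : (ℝ × ℝ) × ℝ => Φ q.1 j (q.2 ^ 3)) (B ×ˢ Ici 4) := fun j =>
    (hΦ j).comp (f := fun q : (ℝ × ℝ) × ℝ => (q.1, q.2 ^ 3)) (by fun_prop) fun q hq =>
      ⟨hq.1, pow_pos (lt_of_lt_of_le (by norm_num) (show (4 : ℝ) ≤ q.2 from hq.2)) 3⟩
  have hz : ∀ q ∈ B ×ˢ Ici (4 : ℝ), q.2 ≠ 0 := fun q hq =>
    (lt_of_lt_of_le (by norm_num) (show (4 : ℝ) ≤ q.2 from hq.2)).ne'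
  obtain ⟨h0, h1, h2⟩ := taildb_cont (y := fun q => q.2 ^ 3) (by fun_prop) (hT 9) (hT 10) hσ (hP 0) (hP 1) (hP 2)
  exact ⟨h0, h1.div (by fun_prop) fun q hq => pow_ne_zero _ (hz q hq),
    h2.div (by fun_prop) fun q hq => pow_ne_zero _ (hz q hq)⟩

end Crest.Agent.R213.E
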