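import Crest.Agent.R213.Iface
import Crest.Agent.R213.E.Exist
import Crest.Agent.R213.E.Shoot
import Crest.Agent.R213.E.TailD
import Crest.Agent.R213.E.Step
import Crest.Agent.R213.E.Asym
import Crest.Agent.R213.E.Symb
import Crest.Agent.R213.E.Run

/-! Row 213, block E: existence of the shrinker. -/

set_option autoImplicit false
set_option linter.unusedVariables false
open Set Filter Topology Metric

noncomputable section
namespace Crest.Agent.R213.E

def aP (x : ℝ × ℝ) : ℝ := aff (110 * A0) (110 * A1) (110 * A2) x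
def bP (x : ℝ × ℝ) : ℝ := 1 / (2 * cc PP (wP w1 w2 x))

theorem w_ok : |w1| + |w2| ≤ 2 ^ 40 := by decide +kernel

theorem inv_final {x : ℝ × ℝ} (h1 : |x.1| ≤ 1) (h2 : |x.2| ≤ 1) {σ : ℝ → ℝ}
    (hs : IsSol (aP x) (bP x) σ) : Inv N18 x σ := by
  have hc := cc_ge run_asym (abs_wP_le w_ok h1 h2)
  have hβ : |bP x - aff QQ.B0 QQ.B1 QQ.B2 x| ≤ QQ.tau / (One : ℝ) :=
    par_sound run_par h1 h2 (by linarith)
  have i0 : Inv N0 x σ := inv_zero A0 A1 A2 x hs
  have i1 := step_sound run0 h1 h2 hs hβ i0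
  have i2 := step_sound run1 h1 h2 hs hβ i1
  have i3 := step_sound run2 h1 h2 hs hβ i2
  have i4 := step_sound run3 h1 h2 hs hβ i3
  have i5 := step_sound run4 h1 h2 hs hβ i4
  have i6 := step_sound run5 h1 h2 hs hβ i5
  have i7 := step_sound run6 h1 h2 hs hβ i6
  have i8 := step_sound run7 h1 h2 hs hβ i7
  have i9 := step_sound run8 h1 h2 hs hβ i8
  have i10 := step_sound run9 h1 h2 hs hβ i9
  have i11 := step_sound run10 h1 h2 hs hβ i10
  have i12 := step_sound run11 h1 h2 hs hβ i11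
  have i13 := step_sound run12 h1 h2 hs hβ i12
  have i14 := step_sound run13 h1 h2 hs hβ i13
  have i15 := step_sound run14 h1 h2 hs hβ i14
  have i16 := step_sound run15 h1 h2 hs hβ i15
  have i17 := step_sound run16 h1 h2 hs hβ i16
  have i18 := step_sound run17 h1 h2 hs hβ i17
  exact i18

theorem aP_pos {x : ℝ × ℝ} (h1 : |x.1| ≤ 1) (h2 : |x.2| ≤ 1) : 0 < aP x := by
  have h1' := abs_le.1 h1
  have h2' := abs_le.1 h2
  unfold aP aff
  refine div_pos ?_ One_pos
  simp only [A0, A1, A2]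
  push_cast
  nlinarith [h1'.1, h1'.2, h2'.1, h2'.2]

theorem stE : StE := by
  obtain ⟨S, hSc, hS⟩ := exists_sol
  have hb : ∀ x ∈ closedBall (0 : ℝ × ℝ) 1, |x.1| ≤ 1 ∧ |x.2| ≤ 1 := fun x hx => by
    rw [mem_closedBall, dist_zero_right] at hx
    exact ⟨(norm_fst_le x).trans hx, (norm_snd_le x).trans hx⟩
  have hw : ∀ x ∈ closedBall (0 : ℝ × ℝ) 1, |wP w1 w2 x| ≤ 1 := fun x hx =>
    abs_wP_le w_ok (hb x hx).1 (hb x hx).2
  have hp : ContinuousOn (fun x : ℝ × ℝ => (aP x, bP x)) (closedBall 0 1) := by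
    refine ContinuousOn.prodMk (Continuous.continuousOn (by unfold aP aff; fun_prop)) ?_
    refine continuousOn_const.div (Continuous.continuousOn
      (continuous_const.mul ((continuous_cc PP).comp (continuous_wP w1 w2)))) fun x hx => ?_
    have := cc_ge run_asym (hw x hx)
    positivity
  obtain ⟨c0, c1, c2⟩ := cont_X hSc hp (Φ := fun x => Phi PP (wP w1 w2 x))
    (fun j => continuousOn_Phi PP w1 w2 j _)
  have hf := fun x (hx : x ∈ closedBall (0 : ℝ × ℝ) 1) =>
    fin_sound run_fin (hb x hx).1 (hb x hx).2 (inv_final (hb x hx).1 (hb x hx).2 (hS (aP x, bP x)))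
  obtain ⟨x, hx, hX⟩ := shoot
    (X0 := fun x => X0 (S (aP x, bP x)) (Phi PP (wP w1 w2 x)))
    (X1 := fun x => X1 (S (aP x, bP x)) (Phi PP (wP w1 w2 x)))
    (X2 := fun x => X2 (S (aP x, bP x)) (Phi PP (wP w1 w2 x))) c0 c1 c2
    (fun x hx => tailD (hS (aP x, bP x)) (isAsym run_asym (hw x hx))) (fun x hx => (hf x hx).1)
  obtain ⟨hr, hbd⟩ := tail_bounds (isAsym run_asym (hw x hx)) hX
  have hs := hS (aP x, bP x)
  set σ := S (aP x, bP x)
  have hF : ∀ y, 0 ≤ y → lo y ≤ FF σ y ∧ FF σ y ≤ hi y := fun y hy => by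
    rcases le_total y 64 with h | h
    · exact (hf x hx).2 y ⟨hy, h⟩
    · rw [lo_tail h, hi_tail h]; exact hr y h
  have hT : IsTrue (bP x) σ :=
    ⟨hs.cont, fun y hy => (lo_ge y).trans (hF y hy).1, fun y hy => by
      have := hs.2 y
      rw [psi_eq (hF y hy).1 (hF y hy).2] at this
      convert this using 1
      simp only [one_div, mul_inv_rev]
      ring⟩
  have hJ := hT.jets hr hbd
  refine ⟨jet σ, 4 / 25, fun i y hy => hT.jet_deriv i hy, fun y hy => hT.jet_ode hy, by norm_num,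
    fun y hy => hT.pos y hy, symb_g (fun i y hy => hT.jet_deriv i hy) hJ.th (fun y _ => rfl)
      hJ.symb_tail, ?_⟩
  have h0 : σ 0 = aP x := hs.1
  have := aP_pos (hb x hx).1 (hb x hx).2
  simp only [jet_zero, gg, TT_zero, h0]
  push_cast
  linarith

end Crest.Agent.R213.E
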