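import Crest.Agent.R213.E.Chk

/-! Soundness of the list polynomial operations (induction on the lists; the definitions by
`List.rec` unfold by `rfl`: state `iadd (a :: p) (b :: q) = (a + b) :: iadd p q := rfl` etc.). -/

set_option autoImplicit false
set_option linter.unusedVariables false
open Set Filter Topology

noncomputable section
namespace Crest.Agent.R213.E

theorem force_eq {α : Type} (n : ℕ) (k : ℕ → α) : force n k = k n := by cases n <;> rfl

theorem forceI_eq {α : Type} (z : ℤ) (k : ℤ → α) : forceI z k = k z := by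
  cases z <;> simp [forceI, force_eq]

@[simp] theorem pv_nil (u : ℝ) : pv [] u = 0 := rfl
@[simp] theorem pv_cons (a : ℤ) (p : List ℤ) (u : ℝ) : pv (a :: p) u = a + u * pv p u := rfl
@[simp] theorem pv2_nil (s w : ℝ) : pv2 [] s w = 0 := rfl
@[simp] theorem pv2_cons (a : List ℤ) (P : List (List ℤ)) (s w : ℝ) :
    pv2 (a :: P) s w = pv a w + s * pv2 P s w := rfl

theorem One_pos : (0:ℝ) < (One : ℝ) := by norm_num [One]
theorem SC_pos : (0:ℝ) < (SC : ℝ) := by unfold SC; positivity

theorem pv_iadd (p q : List ℤ) (u : ℝ) : pv (iadd p q) u = pv p u + pv q u := by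
  induction p generalizing q with
  | nil => simp [show iadd [] q = q from rfl]
  | cons a p ih =>
    cases q with
    | nil => simp [show iadd (a :: p) [] = a :: p from rfl]
    | cons b q =>
      rw [show iadd (a :: p) (b :: q) = (a + b) :: iadd p q from rfl, pv_cons, ih, pv_cons, pv_cons]
      push_cast
      ring

theorem pv_ismul (c : ℤ) (p : List ℤ) (u : ℝ) : pv (ismul c p) u = c * pv p u := by
  induction p with
  | nil => simp [show ismul c [] = [] from rfl]
  | cons a p ih =>
    rw [show ismul c (a :: p) = (c * a) :: ismul c p from rfl, pv_cons, ih, pv_cons]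
    push_cast
    ring

theorem pv_iaxpy (c : ℤ) (p q : List ℤ) (u : ℝ) : pv (iaxpy c p q) u = c * pv p u + pv q u := by
  induction p generalizing q with
  | nil => simp [show iaxpy c [] q = q from rfl]
  | cons a p ih =>
    cases q with
    | nil =>
      rw [show iaxpy c (a :: p) [] = (c * a) :: iaxpy c p [] from rfl, pv_cons, ih, pv_cons, pv_nil]
      push_cast
      ring
    | cons b q =>
      rw [show iaxpy c (a :: p) (b :: q) = (c * a + b) :: iaxpy c p q from rfl, pv_cons, ih, pv_cons, pv_cons]
      push_cast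
      ring

theorem pv_imul (p q : List ℤ) (u : ℝ) : pv (imul p q) u = pv p u * pv q u := by
  induction p with
  | nil => simp [show imul [] q = [] from rfl]
  | cons a p ih =>
    rw [show imul (a :: p) q = iaxpy a q (0 :: imul p q) from rfl, pv_iaxpy, pv_cons, ih, pv_cons]
    push_cast
    ring

theorem polya_idk (p : List ℤ) (k : ℤ) (u : ℝ) : pv (idk p k) u = k * pv p u + pv (idk p 0) u := by
  induction p generalizing k with
  | nil => simp [show ∀ k, idk [] k = [] from fun _ => rfl]
  | cons a p ih =>
    simp only [show ∀ k, idk (a :: p) k = (k * a) :: idk p (k + 1) from fun _ => rfl, pv_cons]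
    rw [ih (k + 1), ih (0 + 1)]
    push_cast
    ring

theorem polya_zero (p : List ℤ) (u : ℝ) : pv (idk p 0) u = u * pv (ider p) u := by
  cases p with
  | nil => simp [show idk [] 0 = [] from rfl, show ider [] = [] from rfl]
  | cons a p => simp [show idk (a :: p) 0 = (0 * a) :: idk p (0 + 1) from rfl, show ider (a :: p) = idk p 1 from rfl]

theorem hasDerivAt_pv (p : List ℤ) (u : ℝ) : HasDerivAt (pv p) (pv (ider p) u) u := by
  induction p with
  | nil => exact hasDerivAt_const u (0 : ℝ)
  | cons a p ih =>
    refine (((hasDerivAt_id' u).fun_mul ih).const_add (a : ℝ)).congr_deriv ?_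
    rw [show ider (a :: p) = idk p 1 from rfl, polya_idk, polya_zero]
    push_cast
    ring

theorem pv_idk (p : List ℤ) (k : ℤ) (u : ℝ) :
    pv (idk p k) u = k * pv p u + u * pv (ider p) u := by
  rw [polya_idk, polya_zero]

theorem pv_ith (μ : ℤ) (p : List ℤ) (u : ℝ) : pv (ith μ p) u = (μ + u) * pv (ider p) u := by
  rw [ith, pv_iaxpy, polya_zero]
  ring

theorem inorm_nonneg (p : List ℤ) : 0 ≤ inorm p := Int.natCast_nonneg _

theorem abs_pv_le (p : List ℤ) {u : ℝ} (hu : |u| ≤ 1) : |pv p u| ≤ inorm p := by
  induction p with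
  | nil => simp [inorm, show inat [] = 0 from rfl]
  | cons a p ih =>
    have e : inorm (a :: p) = |a| + inorm p := by
      simp [inorm, show inat (a :: p) = a.natAbs + inat p from rfl]
    rw [pv_cons, e]
    push_cast
    refine (abs_add_le _ _).trans (add_le_add le_rfl ?_)
    rw [abs_mul]
    exact (mul_le_of_le_one_left (abs_nonneg _) hu).trans ih

theorem pv_one (p : List ℤ) : pv p 1 = at1 p := by
  induction p with
  | nil => simp [show at1 [] = 0 from rfl]
  | cons a p ih => simp [show at1 (a :: p) = a + at1 p from rfl, ih]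

theorem pv_neg_one (p : List ℤ) : pv p (-1) = atm p := by
  induction p with
  | nil => simp [show atm [] = 0 from rfl]
  | cons a p ih => simp [show atm (a :: p) = a - atm p from rfl, ih, sub_eq_add_neg]

theorem pv_split (p : List ℤ) (u : ℝ) :
    pv p u = p.getD 0 0 + u * p.getD 1 0 + u ^ 2 * pv (p.drop 2) u := by
  rcases p with _ | ⟨a, _ | ⟨b, p⟩⟩
  · simp
  · simp
  · simp
    ring

theorem continuous_pv (p : List ℤ) : Continuous (pv p) :=
  continuous_iff_continuousAt.2 fun u => (hasDerivAt_pv p u).continuousAt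

theorem pv2_add2 (P Q : List (List ℤ)) (s w : ℝ) : pv2 (add2 P Q) s w = pv2 P s w + pv2 Q s w := by
  induction P generalizing Q with
  | nil => simp [add2]
  | cons a P ih =>
    cases Q with
    | nil => simp [add2]
    | cons b Q => simp only [add2, pv2_cons, ih, pv_iadd]; ring

theorem pv2_sm2 (c : ℤ) (P : List (List ℤ)) (s w : ℝ) : pv2 (sm2 c P) s w = c * pv2 P s w := by
  induction P with
  | nil => simp [sm2]
  | cons a P ih =>
    unfold sm2 at ih ⊢
    simp only [List.map_cons, pv2_cons, ih, pv_ismul]; ring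

theorem polyb_map (a : List ℤ) (Q : List (List ℤ)) (s w : ℝ) :
    pv2 (Q.map (imul a)) s w = pv a w * pv2 Q s w := by
  induction Q with
  | nil => simp
  | cons b Q ih => simp only [List.map_cons, pv2_cons, ih, pv_imul]; ring

theorem pv2_mul2 (P Q : List (List ℤ)) (s w : ℝ) : pv2 (mul2 P Q) s w = pv2 P s w * pv2 Q s w := by
  induction P with
  | nil => simp [mul2]
  | cons a P ih => simp only [mul2, pv2_add2, polyb_map, pv2_cons, ih, pv_nil]; ring

theorem norm2_nonneg (P : List (List ℤ)) : 0 ≤ norm2 P := by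
  induction P with
  | nil => exact le_rfl
  | cons a P ih => exact add_nonneg (inorm_nonneg a) ih

theorem abs_pv2_le (P : List (List ℤ)) {s w : ℝ} (hs : |s| ≤ 1) (hw : |w| ≤ 1) :
    |pv2 P s w| ≤ norm2 P := by
  induction P with
  | nil => simp [norm2]
  | cons a P ih =>
    simp only [norm2, pv2_cons]
    push_cast
    refine (abs_add_le _ _).trans (add_le_add (abs_pv_le a hw) ?_)
    rw [abs_mul]
    exact (mul_le_of_le_one_left (abs_nonneg _) hs).trans ih

theorem pv2_one (P : List (List ℤ)) (w : ℝ) : pv2 P 1 w = pv (sum2 P) w := by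
  induction P with
  | nil => simp [sum2]
  | cons a P ih => simp only [sum2, pv2_cons, ih, pv_iadd, one_mul]

theorem polyb_take (n : ℕ) (P : List (List ℤ)) (s w : ℝ) :
    pv2 P s w = pv2 (P.take n) s w + s ^ n * pv2 (P.drop n) s w := by
  induction n generalizing P with
  | zero => simp
  | succ n ih =>
    cases P with
    | nil => simp
    | cons a P =>
      simp only [List.take_succ_cons, List.drop_succ_cons, pv2_cons]
      linear_combination s * ih P

theorem pv2_take_drop (P : List (List ℤ)) (s w : ℝ) :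
    pv2 P s w = pv2 (P.take 3) s w + s ^ 3 * pv2 (P.drop 3) s w := by
  exact polyb_take 3 P s w

theorem polyb_deriv (P : List (List ℤ)) (s w : ℝ) : ∃ d, HasDerivAt (fun s => pv2 P s w) d s ∧
    ∀ k : ℤ, pv2 (thk P k) s w = -2 * (k * pv2 P s w + s * d) := by
  induction P with
  | nil => exact ⟨0, hasDerivAt_const s (0 : ℝ), fun k => by simp [thk]⟩
  | cons a P ih =>
    obtain ⟨d, hd, e⟩ := ih
    refine ⟨1 * pv2 P s w + s * d, ((hasDerivAt_id' s).mul hd).const_add (pv a w), fun k => ?_⟩
    simp only [thk, pv2_cons, e, pv_ismul]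
    push_cast
    ring

/-- generalise to `thk P k` and the function `y ↦ (c / y²)^k * pv2 P (c / y²) w`, or prove first
`∃ d, HasDerivAt (pv2 P · w) d s ∧ ∀ k, pv2 (thk P k) s w = -2 (k pv2 P s w + s d)`. -/
theorem hasDerivAt_pv2 (P : List (List ℤ)) (c w : ℝ) {y : ℝ} (hy : y ≠ 0) :
    HasDerivAt (fun y => pv2 P (c / y ^ 2) w) (pv2 (th2 P) (c / y ^ 2) w / y) y := by
  obtain ⟨d, hd, e⟩ := polyb_deriv P (c / y ^ 2) w
  have h1 : HasDerivAt (fun y : ℝ => c / y ^ 2) ((0 * y ^ 2 - c * ((2 : ℕ) * y ^ (2 - 1))) / (y ^ 2) ^ 2) y :=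
    (hasDerivAt_const y c).fun_div (hasDerivAt_pow 2 y) (pow_ne_zero 2 hy)
  refine (hd.comp y h1).congr_deriv ?_
  rw [th2, e]
  push_cast
  field_simp
  ring

theorem continuous_pv2 (P : List (List ℤ)) : Continuous fun q : ℝ × ℝ => pv2 P q.1 q.2 := by
  induction P with
  | nil => exact continuous_const
  | cons a P ih => exact ((continuous_pv a).comp continuous_snd).add (continuous_fst.mul ih)

end Crest.Agent.R213.E
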