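import Crest.Agent.R213.E.Defs

/-! Elementary facts on `lo`, `hi`, `psi`.  `psi_slope`: with `p = cl t F`, `q = cl t G`,
`psi t F - psi t G = -(V (F - G))`; case analysis on the positions of `F`, `G` relative to
`[lo, hi]` (prove it for abstract `0 < l ≤ h`: for `F ≤ G` write
`G - F = (p - F) + (q - p) + (G - q)` with the three pieces `≥ 0` and slopes `1/l²` or `0` pieces,
`1/(pq)`, `1/h²`; `V` is the weighted mean; `F = G`: any `V`). -/

set_option autoImplicit false
set_option linter.unusedVariables false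
open Set Filter Topology

noncomputable section
namespace Crest.Agent.R213.E

theorem lo_ge (t : ℝ) : 4 / 25 ≤ lo t := by
  exact le_max_of_le_left (by norm_num)

theorem lo_le (t : ℝ) : lo t ≤ 7 / 10 := by
  exact max_le (by norm_num) (min_le_of_right_le (min_le_of_right_le (by norm_num)))

theorem hi_ge (t : ℝ) : 73 / 100 ≤ hi t := by
  exact le_max_of_le_left (by norm_num)

theorem lo_mono : Monotone lo := by
  intro s t h
  unfold lo
  gcongr

theorem hi_anti : Antitone hi := by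
  intro s t h
  unfold hi
  gcongr

theorem lo_tail {t : ℝ} (ht : 64 ≤ t) : lo t = 7 / 10 := by
  refine le_antisymm (lo_le t) (le_max_of_le_right ?_)
  simp only [le_min_iff]
  refine ⟨⟨?_, ?_⟩, ⟨?_, ?_⟩, ?_⟩ <;> linarith

theorem hi_tail {t : ℝ} (ht : 64 ≤ t) : hi t = 73 / 100 := by
  exact le_antisymm (max_le (by norm_num) (by linarith)) (hi_ge t)

theorem psi_pos (t : ℝ) : 0 < lo t := lt_of_lt_of_le (by norm_num) (lo_ge t)

theorem psi_lh (t : ℝ) : lo t ≤ hi t := by linarith [lo_le t, hi_ge t]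

theorem continuous_psi : Continuous fun q : ℝ × ℝ => psi q.1 q.2 := by
  have h : Continuous fun q : ℝ × ℝ => cl q.1 q.2 := by
    unfold cl lo hi
    fun_prop
  exact ((continuous_const.mul h).sub continuous_snd).div (h.pow 2) fun q =>
    (pow_pos ((psi_pos q.1).trans_le (le_max_left _ _)) 2).ne'

theorem psi_eq {t F : ℝ} (h1 : lo t ≤ F) (h2 : F ≤ hi t) : psi t F = 1 / F := by
  have h := (psi_pos t).trans_le h1
  rw [psi, cl, min_eq_right h2, max_eq_right h1]
  field_simp
  ring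

theorem psi_inv (t : ℝ) {p q : ℝ} (h1 : lo t ≤ p) (h2 : p ≤ hi t) (h3 : lo t ≤ q) (h4 : q ≤ hi t) :
    1 / hi t ^ 2 ≤ 1 / (p * q) ∧ 1 / (p * q) ≤ 1 / lo t ^ 2 := by
  have h0 := psi_pos t
  have hp := h0.trans_le h1
  have hq := h0.trans_le h3
  have hh := hp.trans_le h2
  rw [sq, sq]
  constructor <;> gcongr

theorem psi_between (t : ℝ) {F G : ℝ} (h : F ≤ G) :
    1 / hi t ^ 2 * (G - F) ≤ psi t F - psi t G ∧ psi t F - psi t G ≤ 1 / lo t ^ 2 * (G - F) := by
  have h0 := psi_pos t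
  have hl := psi_lh t
  have c1 : ∀ F, lo t ≤ cl t F := fun F => le_max_left _ _
  have c2 : ∀ F, cl t F ≤ hi t := fun F => max_le hl (min_le_left _ _)
  have hp := (h0.trans_le (c1 F)).ne'
  have hq := (h0.trans_le (c1 G)).ne'
  have i1 := psi_inv t (c1 F) (c2 F) (c1 F) (c2 F)
  have i2 := psi_inv t (c1 F) (c2 F) (c1 G) (c2 G)
  have i3 := psi_inv t (c1 G) (c2 G) (c1 G) (c2 G)
  by_cases e : cl t F = cl t G
  · have e1 : psi t F - psi t G = 1 / (cl t F * cl t F) * (G - F) := by
      rw [psi, psi, ← e]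
      field_simp
      ring
    rw [e1]
    exact ⟨mul_le_mul_of_nonneg_right i1.1 (sub_nonneg.2 h), mul_le_mul_of_nonneg_right i1.2 (sub_nonneg.2 h)⟩
  · have e1 : psi t F - psi t G = 1 / (cl t F * cl t F) * (cl t F - F) +
        1 / (cl t F * cl t G) * (cl t G - cl t F) + 1 / (cl t G * cl t G) * (G - cl t G) := by
      rw [psi, psi]
      field_simp
      ring
    have a1 : 0 ≤ cl t F - F := by
      rcases le_total F (hi t) with h1 | h1
      · exact sub_nonneg.2 (le_max_of_le_right (le_min h1 le_rfl))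
      · exact absurd (by rw [cl, cl, min_eq_left h1, min_eq_left (h1.trans h)]) e
    have a2 : 0 ≤ cl t G - cl t F := sub_nonneg.2 (max_le_max le_rfl (min_le_min le_rfl h))
    have a3 : 0 ≤ G - cl t G := by
      rcases le_total (lo t) G with h1 | h1
      · exact sub_nonneg.2 (max_le h1 (min_le_right _ _))
      · exact absurd (by rw [cl, cl, max_eq_left ((min_le_right _ _).trans h1),
          max_eq_left ((min_le_right _ _).trans (h.trans h1))]) e
    rw [e1]
    constructor <;> nlinarith [mul_le_mul_of_nonneg_right i1.1 a1, mul_le_mul_of_nonneg_right i1.2 a1,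
      mul_le_mul_of_nonneg_right i2.1 a2, mul_le_mul_of_nonneg_right i2.2 a2,
      mul_le_mul_of_nonneg_right i3.1 a3, mul_le_mul_of_nonneg_right i3.2 a3]

theorem psi_slope (t F G : ℝ) :
    ∃ V, 1 / hi t ^ 2 ≤ V ∧ V ≤ 1 / lo t ^ 2 ∧ psi t F - psi t G = -(V * (F - G)) := by
  have key : ∀ F G : ℝ, F < G →
      ∃ V, 1 / hi t ^ 2 ≤ V ∧ V ≤ 1 / lo t ^ 2 ∧ psi t F - psi t G = -(V * (F - G)) := fun F G h => by
    have h1 := psi_between t h.le
    have h2 := sub_pos.2 h
    refine ⟨(psi t F - psi t G) / (G - F), ?_, ?_, by field_simp; ring⟩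
    · rw [le_div_iff₀ h2]
      exact h1.1
    · rw [div_le_iff₀ h2]
      exact h1.2
  rcases lt_trichotomy F G with h | rfl | h
  · exact key F G h
  · exact ⟨_, le_rfl, psi_inv t (psi_lh t) le_rfl (psi_lh t) le_rfl |>.2.trans_eq' (by rw [sq]), by simp⟩
  · obtain ⟨V, h1, h2, h3⟩ := key G F h
    exact ⟨V, h1, h2, by linarith⟩

theorem psi_lip (t F G : ℝ) : |psi t F - psi t G| ≤ 40 * |F - G| := by
  obtain ⟨V, h1, h2, h3⟩ := psi_slope t F G
  have h4 : 1 / lo t ^ 2 ≤ 40 := by
    rw [div_le_iff₀ (pow_pos (psi_pos t) 2)]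
    nlinarith [lo_ge t]
  rw [h3, abs_neg, abs_mul, abs_of_nonneg (le_trans (by positivity) h1)]
  exact mul_le_mul_of_nonneg_right (h2.trans h4) (abs_nonneg _)

theorem psi_one (t : ℝ) : |psi t 1| ≤ 40 := by
  have h1 := psi_lip t 1 (7 / 10)
  rw [psi_eq (lo_le t) (by linarith [hi_ge t]), abs_le] at h1
  norm_num [abs_of_pos] at h1
  exact abs_le.2 ⟨by linarith [h1.1], by linarith [h1.2]⟩

end Crest.Agent.R213.E
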