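import Crest.Agent.R213.E.Volt

/-! Smoothness on `[0,∞)` and the ODE for the jets.
`hasDerivWithinAt_TT`: `φ̃ t := φ 0 + ∫₀^t φ' (max τ 0) dτ` is differentiable on `ℝ` with continuous
derivative `φ' (max · 0)` and equals `φ` on `[0,∞)` (`integral_eq_sub_of_hasDeriv_right`);
differentiate `TT m φ̃` under the integral (`intervalIntegral.hasDerivAt_integral_of_dominated_loc_of_deriv_le`,
bound from compactness), then `HasDerivWithinAt.congr` with `TT_congr`.
`continuousOn_TT`: `φ (max · 0)` is continuous, `continuous_TT1`, `TT_congr`.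
`contDiffOn_TT`: induction on `k` generalizing `m φ` (`contDiffOn_succ_iff_derivWithin`,
`uniqueDiffOn_Ici`).  `IsTrue.smooth`: induction on `k`: `σ ∈ C^k ⇒ gg σ, FF σ ∈ C^k ⇒
derivWithin σ = β - 1/(2F) ∈ C^k`; `contDiffOn_infty`.
`IsTrue.jet_ode`: for `y > 0` the jets are ordinary derivatives; from `th_gg`, `th_ga` and uniqueness
of derivatives on `Ioi 0`: `ga = y g₁ + 11 g₀`, `σ = y² g₂ + 22 y g₁ + 110 g₀`,
`β - 1/(2F) = y² g₃ + 24 y g₂ + 132 g₁`, `F'/(2F²) = y² g₄ + 26 y g₃ + 156 g₂`, `F' = -(g₀ + y g₁)`;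
`y = 0` by continuity within `Ici 0` (all jets are continuous there). -/

set_option autoImplicit false
set_option linter.unusedVariables false
open Set Filter Topology
open scoped ContDiff

noncomputable section
namespace Crest.Agent.R213.E

theorem TT_congr {φ φ' : ℝ → ℝ} (h : ∀ y, 0 ≤ y → φ y = φ' y) (m : ℕ) {y : ℝ} (hy : 0 ≤ y) :
    TT m φ y = TT m φ' y := by
  refine intervalIntegral.integral_congr fun s hs => ?_
  rw [uIcc_of_le zero_le_one] at hs
  simp only [h _ (mul_nonneg hs.1 hy)]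

theorem smootha_cont {φ : ℝ → ℝ} (h : ContinuousOn φ (Ici 0)) : Continuous fun t => φ (max t 0) :=
  h.comp_continuous (continuous_id.max continuous_const) fun t => le_max_right t 0

theorem smootha_der {φ φ' : ℝ → ℝ} (h : ∀ y, HasDerivAt φ (φ' y) y) (hc : Continuous φ') (m : ℕ) (y : ℝ) :
    HasDerivAt (TT m φ) (TT (m + 1) φ' y) y := by
  have h0 : Continuous φ := continuous_iff_continuousAt.2 fun y => (h y).continuousAt
  obtain ⟨C, hC⟩ := (isCompact_Icc (a := -(|y| + 1)) (b := |y| + 1)).exists_bound_of_continuousOn hc.continuousOn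
  refine (intervalIntegral.hasDerivAt_integral_of_dominated_loc_of_deriv_le (μ := MeasureTheory.volume)
    (F := fun x s => s ^ m * φ (s * x)) (F' := fun x s => s ^ (m + 1) * φ' (s * x)) (bound := fun _ => C)
    (Metric.ball_mem_nhds y one_pos)
    (Eventually.of_forall fun x => Continuous.aestronglyMeasurable (by fun_prop))
    (Continuous.intervalIntegrable (by fun_prop) _ _) (Continuous.aestronglyMeasurable (by fun_prop))
    (Eventually.of_forall fun s hs x hx => ?_) intervalIntegrable_const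
    (Eventually.of_forall fun s _ x _ => ?_)).2
  · rw [uIoc_of_le zero_le_one] at hs
    have h1 : |x| ≤ |y| + 1 := by
      linarith [abs_sub_abs_le_abs_sub x y, (show |x - y| < 1 from hx)]
    have h2 : |s * x| ≤ |y| + 1 := by
      rw [abs_mul, abs_of_pos hs.1]
      exact (mul_le_of_le_one_left (abs_nonneg x) hs.2).trans h1
    rw [norm_mul, Real.norm_of_nonneg (pow_nonneg hs.1.le _)]
    exact (mul_le_of_le_one_left (norm_nonneg _) (pow_le_one₀ hs.1.le hs.2)).trans (hC _ (abs_le.1 h2))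
  · exact (((h (s * x)).comp x ((hasDerivAt_id' x).const_mul s)).const_mul (s ^ m)).congr_deriv (by ring)

theorem continuousOn_TT {φ : ℝ → ℝ} (h : ContinuousOn φ (Ici 0)) (m : ℕ) :
    ContinuousOn (TT m φ) (Ici 0) := by
  exact (continuous_TT1 (smootha_cont h) m).continuousOn.congr fun y hy =>
    TT_congr (fun t ht => by simp only [max_eq_left ht]) m hy

theorem hasDerivWithinAt_TT {φ φ' : ℝ → ℝ}
    (h : ∀ y, 0 ≤ y → HasDerivWithinAt φ (φ' y) (Ici 0) y) (hc : ContinuousOn φ' (Ici 0)) (m : ℕ)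
    {y : ℝ} (hy : 0 ≤ y) : HasDerivWithinAt (TT m φ) (TT (m + 1) φ' y) (Ici 0) y := by
  have h1 := smootha_cont hc
  have h2 : ∀ t, HasDerivAt (fun t => φ 0 + ∫ τ in (0:ℝ)..t, φ' (max τ 0)) (φ' (max t 0)) t := fun t =>
    (h1.integral_hasStrictDerivAt 0 t).hasDerivAt.const_add _
  have h3 : ∀ t, 0 ≤ t → φ t = φ 0 + ∫ τ in (0:ℝ)..t, φ' (max τ 0) := fun t ht => by
    rw [intervalIntegral.integral_eq_sub_of_hasDeriv_right_of_le ht (f := φ)
      (fun x hx => (h x hx.1).continuousWithinAt.mono Icc_subset_Ici_self)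
      (fun x hx => by
        rw [max_eq_left hx.1.le]
        exact (h x hx.1.le).mono fun z hz => hx.1.le.trans (le_of_lt hz))
      (h1.intervalIntegrable _ _)]
    ring
  rw [TT_congr (φ' := fun t => φ' (max t 0)) (fun t ht => by simp only [max_eq_left ht]) (m + 1) hy]
  exact (smootha_der h2 h1 m y).hasDerivWithinAt.congr (fun t ht => TT_congr h3 m ht) (TT_congr h3 m hy)

theorem smoothb_succ {k : ℕ} {φ φ' : ℝ → ℝ} (h : ∀ y, 0 ≤ y → HasDerivWithinAt φ (φ' y) (Ici 0) y)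
    (hc : ContDiffOn ℝ k φ' (Ici 0)) : ContDiffOn ℝ (k + 1 : ℕ) φ (Ici 0) := by
  rw [Nat.cast_succ, contDiffOn_succ_iff_derivWithin (uniqueDiffOn_Ici 0)]
  exact ⟨fun y hy => (h y hy).differentiableWithinAt, by simp,
    hc.congr fun y hy => (h y hy).derivWithin (uniqueDiffOn_Ici 0 y hy)⟩

theorem contDiffOn_TT (k : ℕ) (m : ℕ) {φ : ℝ → ℝ} (h : ContDiffOn ℝ k φ (Ici 0)) :
    ContDiffOn ℝ k (TT m φ) (Ici 0) := by
  induction k generalizing m φ with
  | zero => exact contDiffOn_zero.2 (continuousOn_TT h.continuousOn m)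
  | succ k ih =>
    rw [Nat.cast_succ, contDiffOn_succ_iff_derivWithin (uniqueDiffOn_Ici 0)] at h
    exact smoothb_succ (fun y hy => hasDerivWithinAt_TT (fun y hy => (h.1 y hy).hasDerivWithinAt)
      h.2.2.continuousOn m hy) (ih (m + 1) h.2.2)

theorem IsTrue.smooth {β : ℝ} {σ : ℝ → ℝ} (h : IsTrue β σ) : ContDiffOn ℝ ∞ (gg σ) (Ici 0) := by
  have key : ∀ k : ℕ, ContDiffOn ℝ k σ (Ici 0) := fun k => by
    induction k with
    | zero => exact contDiffOn_zero.2 h.cont.continuousOn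
    | succ k ih =>
      refine smoothb_succ (fun y hy => (h.ode y hy).hasDerivWithinAt) (contDiffOn_const.sub
        (contDiffOn_const.div (contDiffOn_const.mul (contDiffOn_const.sub (contDiffOn_id.mul
          ((contDiffOn_TT k 9 ih).sub (contDiffOn_TT k 10 ih))))) fun y hy => ?_))
      have := h.pos y hy
      exact (show 0 < 2 * FF σ y by linarith).ne'
  exact contDiffOn_infty.2 fun k => (contDiffOn_TT k 9 (key k)).sub (contDiffOn_TT k 10 (key k))

/-- the jets of `g` -/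
def jet (σ : ℝ → ℝ) (i : ℕ) : ℝ → ℝ := iteratedDerivWithin i (gg σ) (Ici 0)

theorem jet_zero (σ : ℝ → ℝ) : jet σ 0 = gg σ := iteratedDerivWithin_zero

theorem IsTrue.jet_deriv {β : ℝ} {σ : ℝ → ℝ} (h : IsTrue β σ) (i : ℕ) {y : ℝ} (hy : 0 ≤ y) :
    HasDerivWithinAt (jet σ i) (jet σ (i + 1) y) (Ici 0) y := by
  rw [jet, jet, iteratedDerivWithin_succ]
  exact (h.smooth.differentiableOn_iteratedDerivWithin (m := i) (by exact_mod_cast ENat.natCast_lt_top i)
    (uniqueDiffOn_Ici 0) y hy).hasDerivWithinAt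

theorem smoothc_uniq {f g : ℝ → ℝ} {a b y : ℝ} (hy : 0 < y) (e : ∀ t, 0 < t → f t = g t)
    (hf : HasDerivAt f a y) (hg : HasDerivAt g b y) : a = b :=
  hf.unique (hg.congr_of_eventuallyEq (by
    filter_upwards [Ioi_mem_nhds hy] with t ht using e t ht))

theorem smoothc_pos {β : ℝ} {σ : ℝ → ℝ} (h : IsTrue β σ) {y : ℝ} (hy : 0 < y) :
    jet σ 0 y + y * jet σ 1 y + 2 * (1 - y * jet σ 0 y) ^ 2 *
      (y ^ 2 * jet σ 4 y + 26 * y * jet σ 3 y + 156 * jet σ 2 y) = 0 := by
  have J : ∀ i t, 0 < t → HasDerivAt (jet σ i) (jet σ (i + 1) t) t := fun i t ht =>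
    (h.jet_deriv i ht.le).hasDerivAt (Ici_mem_nhds ht)
  have E1 : ∀ t, 0 < t → ga σ t = t * jet σ 1 t + 11 * jet σ 0 t := fun t ht => by
    have h1 := J 0 t ht
    rw [jet_zero] at h1 ⊢
    have h2 := (th_gg h.cont ht).unique h1
    rw [div_eq_iff ht.ne'] at h2
    linarith
  have E2 : ∀ t, 0 < t → σ t = t ^ 2 * jet σ 2 t + 22 * (t * jet σ 1 t) + 110 * jet σ 0 t := fun t ht => by
    have h2 := smoothc_uniq ht E1 (th_ga h.cont ht)
      (((hasDerivAt_id' t).mul (J 1 t ht)).add ((J 0 t ht).const_mul 11))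
    rw [div_eq_iff ht.ne', E1 t ht] at h2
    simp only [zero_add, Nat.reduceAdd] at h2
    linarith
  have E3 : ∀ t, 0 < t → β - 1 / (2 * (1 - t * jet σ 0 t))
      = t ^ 2 * jet σ 3 t + 24 * (t * jet σ 2 t) + 132 * jet σ 1 t := fun t ht => by
    have h2 := smoothc_uniq ht E2 (h.ode t ht.le)
      ((((hasDerivAt_pow 2 t).mul (J 2 t ht)).add (((hasDerivAt_id' t).mul (J 1 t ht)).const_mul 22)).add
        ((J 0 t ht).const_mul 110))
    rw [jet_zero]
    simp only [zero_add, Nat.reduceAdd, FF, Nat.cast_ofNat, Nat.add_one_sub_one, pow_one] at h2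
    linarith
  have hF : 0 < 1 - y * jet σ 0 y := by
    have := h.pos y hy.le
    rw [jet_zero]
    unfold FF at this
    linarith
  have d1 : HasDerivAt (fun t => 2 * (1 - t * jet σ 0 t)) (2 * -(1 * jet σ 0 y + y * jet σ 1 y)) y :=
    (((hasDerivAt_id' y).mul (J 0 y hy)).const_sub 1).const_mul 2
  have d2 : HasDerivAt (fun t => β - 1 / (2 * (1 - t * jet σ 0 t)))
      (-((0 * (2 * (1 - y * jet σ 0 y)) - 1 * (2 * -(1 * jet σ 0 y + y * jet σ 1 y))) /
        (2 * (1 - y * jet σ 0 y)) ^ 2)) y :=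
    ((hasDerivAt_const y (1 : ℝ)).fun_div d1 (by positivity)).const_sub β
  have h2 := smoothc_uniq hy E3 d2
    ((((hasDerivAt_pow 2 y).mul (J 3 y hy)).add (((hasDerivAt_id' y).mul (J 2 y hy)).const_mul 24)).add
      ((J 1 y hy).const_mul 132))
  simp only [Nat.reduceAdd, Nat.cast_ofNat, Nat.add_one_sub_one, pow_one] at h2
  rw [neg_eq_iff_eq_neg, div_eq_iff (by positivity)] at h2
  linarith

theorem IsTrue.jet_ode {β : ℝ} {σ : ℝ → ℝ} (h : IsTrue β σ) {y : ℝ} (hy : 0 ≤ y) :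
    jet σ 0 y + y * jet σ 1 y + 2 * (1 - y * jet σ 0 y) ^ 2 *
      (y ^ 2 * jet σ 4 y + 26 * y * jet σ 3 y + 156 * jet σ 2 y) = 0 := by
  rcases hy.eq_or_lt with rfl | hy
  · have C : ∀ i, ContinuousWithinAt (jet σ i) (Ioi 0) 0 := fun i =>
      (h.jet_deriv i le_rfl).continuousWithinAt.mono Ioi_subset_Ici_self
    have I : ContinuousWithinAt (fun y : ℝ => y) (Ioi 0) 0 := continuousWithinAt_id
    have hc : ContinuousWithinAt (fun y => jet σ 0 y + y * jet σ 1 y + 2 * (1 - y * jet σ 0 y) ^ 2 *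
        (y ^ 2 * jet σ 4 y + 26 * y * jet σ 3 y + 156 * jet σ 2 y)) (Ioi 0) 0 :=
      ((C 0).add (I.mul (C 1))).add ((continuousWithinAt_const.mul
        ((continuousWithinAt_const.sub (I.mul (C 0))).pow 2)).mul
        ((((I.pow 2).mul (C 4)).add ((continuousWithinAt_const.mul I).mul (C 3))).add
          (continuousWithinAt_const.mul (C 2))))
    refine tendsto_nhds_unique hc.tendsto (tendsto_const_nhds.congr' ?_)
    filter_upwards [self_mem_nhdsWithin] with t ht using (smoothc_pos h ht).symm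
  · exact smoothc_pos h hy

end Crest.Agent.R213.E
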